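import Vale.Agent.P218.H923.InstB

/-! The static estimates of a second order nondegenerate shrinker, in the moving frames. -/

open MeasureTheory Set Filter Topology Metric
open scoped ENNReal NNReal RealInnerProductSpace CompactlySupported

namespace Vale.Agent.P218.H923

open Vale.Agent.P214 (IntegralVarifold proj divAlong IsTestField)
open Vale.Agent.P218.H313
open Vale.Agent.P218.H588 (Tri nearS Phi lc SOD co rsq)
open Vale.Agent.P218.H969 (rotTri cayE rotTri_DD rotTri_TG rotTri_dis rotTri_EE rotTri_co rotTri_rsq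
  tendsto_rot_nearS pull)

set_option linter.unusedSectionVars false
set_option linter.unusedVariables false

variable {E : Type*} [NormedAddCommGroup E] [InnerProductSpace ℝ E] [FiniteDimensional ℝ E]
  [MeasurableSpace E] [BorelSpace E]
variable {m k l : ℕ} {κ : Measure E} {W : E → ℝ} {c K : ℝ} {q : ℕ}
  {ζ : Fin k → E → ℝ} {η : Fin l → E → ℝ}
variable {M' : Submodule ℝ (E →L[ℝ] E)} {V' : M' → M' →ₗ[ℝ] (E → ℝ)} {r K₁ : ℝ} {q₁ : ℕ}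

/-- linearity of the rate -/
lemma EE_sum (hM' : M' ≤ skew E) (hD : SOD m κ W c K q ζ η)
    (hF : Fam m (fun (a : M') x => W (cay (a : E →L[ℝ] E) x)) V' r c K₁ q₁)
    {μ : Measure E} {T : E → Submodule ℝ E} {H : E → E} (hS : GSlice m μ T H) {a : M'}
    (ha : ‖a‖ ≤ r) (z : LS k) :
    EE μ T H (fun y => W (cay (a : E →L[ℝ] E) y) * cayZ ζ M' a z y)
      = ∑ i, z i * EE μ T H (fun y => W (cay (a : E →L[ℝ] E) y) * cayZ ζ M' a (Cubic.eb i) y) := by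
  have hT := hF.tube a ha
  have hZpg : ∀ i, PG (cayZ ζ M' a (Cubic.eb i)) := by
    intro i
    have h1 : ContDiff ℝ 1 (fun x => ζ i (cay (a : E →L[ℝ] E) x)) :=
      ((hD.cd i).of_le (by norm_num)).comp (cay (a : E →L[ℝ] E)).contDiff
    have e : cayZ ζ M' a (Cubic.eb i) = fun x => ζ i (cay (a : E →L[ℝ] E) x) := by
      ext x; rw [cayZ_eb]
    rw [e]
    refine ⟨h1, PB.of_le (C := K) (p := q) fun x => ?_, PB.of_le (C := K) (p := q) fun x => ?_⟩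
    · rw [Real.norm_eq_abs]
      have := hD.b0 i (cay (a : E →L[ℝ] E) x)
      rwa [norm_cay (hM' a.2)] at this
    · rw [← norm_grad]
      refine (norm_grad_cay (hM' a.2) (f := ζ i) x ((SODpg hD i).diff _)).trans ?_
      have := hD.b1 i (cay (a : E →L[ℝ] E) x)
      rwa [norm_cay (hM' a.2)] at this
  have hpg : ∀ i, PG (fun y => W (cay (a : E →L[ℝ] E) y) * cayZ ζ M' a (Cubic.eb i) y) :=
    fun i => hT.pg.mul (hZpg i)
  have hfun : (fun y => W (cay (a : E →L[ℝ] E) y) * cayZ ζ M' a z y)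
      = fun y => ∑ i, z i * (W (cay (a : E →L[ℝ] E) y) * cayZ ζ M' a (Cubic.eb i) y) := by
    ext y
    conv_lhs => rw [← Cubic.sum_eb z]
    simp only [map_sum, map_smul, Finset.sum_apply, Pi.smul_apply, smul_eq_mul, Finset.mul_sum]
    refine Finset.sum_congr rfl fun i _ => by ring
  have hgr : ∀ x, grad (fun y => W (cay (a : E →L[ℝ] E) y) * cayZ ζ M' a z y) x
      = ∑ i, z i • grad (fun y => W (cay (a : E →L[ℝ] E) y)
          * cayZ ζ M' a (Cubic.eb i) y) x := by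
    intro x
    rw [hfun]
    refine grad_unique fun v => ?_
    have h1 : HasFDerivAt (fun y => ∑ i, z i * (W (cay (a : E →L[ℝ] E) y)
        * cayZ ζ M' a (Cubic.eb i) y))
        (∑ i, z i • fderiv ℝ (fun y => W (cay (a : E →L[ℝ] E) y)
          * cayZ ζ M' a (Cubic.eb i) y) x) x := by
      refine HasFDerivAt.fun_sum fun i _ => ?_
      exact ((hpg i).diff x).hasFDerivAt.const_mul (z i)
    rw [h1.fderiv, sum_inner]
    simp only [real_inner_smul_left, inner_grad, _root_.sum_apply]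
    rfl
  unfold EE
  simp_rw [hgr, sum_inner, Finset.sum_mul, real_inner_smul_left]
  rw [integral_finsetSum]
  · refine Finset.sum_congr rfl fun i _ => ?_
    rw [← integral_const_mul]
    congr 1; ext x; ring
  · intro i _
    have h1 := hS.integrable_inner_vel (X := grad (fun y => W (cay (a : E →L[ℝ] E) y)
      * cayZ ζ M' a (Cubic.eb i) y)) (continuous_grad (hpg i).cd).aestronglyMeasurable
      ((hpg i).b1.mono fun x => by rw [norm_grad])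
    refine (h1.const_mul (z i)).congr (Eventually.of_forall fun x => ?_)
    simp only; ring

variable {N : ℝ → Measure E} {T : ℝ → E → Submodule ℝ E} {H : ℝ → E → E} {s₀ : ℝ}

lemma small_param {D δ : ℝ} (hδ : 0 < δ) :
    ∀ᶠ p : ℝ × M' in nearF m N T H κ ×ˢ 𝓝 (0 : M'), D * ‖p.2‖ ^ 2 ≤ δ := by
  have h1 : Tendsto (fun a : M' => D * ‖a‖ ^ 2) (𝓝 0) (𝓝 0) := by
    have h2 : Continuous (fun a : M' => D * ‖a‖ ^ 2) := by fun_prop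
    have h3 := h2.tendsto 0
    simpa using h3
  have h2 := h1.eventually_le_const hδ
  exact tendsto_snd.eventually h2

/-- the facts used at times near the shrinker -/
lemma exists_ev (h : RF m N T H s₀) (hM' : M' ≤ skew E) (hD : SOD m κ W c K q ζ η)
    (hF : Fam m (fun (a : M') x => W (cay (a : E →L[ℝ] E) x)) V' r c K₁ q₁)
    (b : Module.Basis (Fin l) ℝ M') (hη : ∀ j x, η j x = V' 0 (b j) x) :
    ∃ Cr : ℝ, 0 ≤ Cr ∧ ∀ᶠ p : ℝ × M' in nearF m N T H κ ×ˢ 𝓝 (0 : M'),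
      GSlice m (N p.1) (T p.1) (H p.1) ∧ ‖p.2‖ ≤ r ∧
      (∀ g : ℝ, 0 ≤ g → (∀ b, |GF (N p.1) (fun (a : M') x => W (cay (a : E →L[ℝ] E) x)) V' p.2 b|
        ≤ g * ‖b‖) →
        rsq W η (rotTri (cayE (p.2 : E →L[ℝ] E)) ⟨N p.1, T p.1, H p.1⟩).μ
          ≤ Cr * (g ^ 2 + ‖p.2‖ ^ 2
            * DD (N p.1) (fun x => W (cay (p.2 : E →L[ℝ] E) x)) 0)) := by
  obtain ⟨M, hM⟩ := h.moment (2 * (q₁ + 2))
  obtain ⟨Cr, hCr, hrsq⟩ := exists_rsq hM' hD hF b hη (abs_nonneg M)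
  refine ⟨Cr, hCr, ?_⟩
  have e1 : ∀ᶠ p : ℝ × M' in nearF m N T H κ ×ˢ 𝓝 (0 : M'),
      GSlice m (N p.1) (T p.1) (H p.1) := tendsto_fst.eventually nearF_sl
  have e2 : ∀ᶠ p : ℝ × M' in nearF m N T H κ ×ˢ 𝓝 (0 : M'), s₀ ≤ p.1 :=
    tendsto_fst.eventually (nearF_atTop (eventually_ge_atTop s₀))
  have e3 : ∀ᶠ p : ℝ × M' in nearF m N T H κ ×ˢ 𝓝 (0 : M'), ‖p.2‖ ≤ r := by
    have h1 : Tendsto (fun a : M' => ‖a‖) (𝓝 0) (𝓝 0) := by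
      have h3 := (continuous_norm (E := M')).tendsto 0
      simpa using h3
    exact tendsto_snd.eventually (h1.eventually_le_const hF.rpos)
  filter_upwards [e1, e2, e3] with p h1 h2 h3
  refine ⟨h1, h3, fun g hg hGF => ?_⟩
  rw [rotTri_rsq (hM' p.2.2)]
  exact hrsq (N p.1) (T p.1) (H p.1) h1 ((hM p.1 h2).2.trans (le_abs_self M)) p.2 h3 g hg hGF

/-- the quantities of the rotated slice -/
lemma rot_facts (hM' : M' ≤ skew E) (a : M') (μ : Measure E) (T₀ : E → Submodule ℝ E)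
    (H₀ : E → E) :
    co W ζ (rotTri (cayE (a : E →L[ℝ] E)) ⟨μ, T₀, H₀⟩).μ
      = al μ (fun (a : M') x => W (cay (a : E →L[ℝ] E) x)) (cayZ ζ M') a ∧
    (∀ i, ∫ x, ⟪grad (fun y => W y * ζ i y) x,
          vel (rotTri (cayE (a : E →L[ℝ] E)) ⟨μ, T₀, H₀⟩).T
            (rotTri (cayE (a : E →L[ℝ] E)) ⟨μ, T₀, H₀⟩).H x⟫ * rho x
              ∂(rotTri (cayE (a : E →L[ℝ] E)) ⟨μ, T₀, H₀⟩).μ
      = EE μ T₀ H₀ (fun y => W (cay (a : E →L[ℝ] E) y) * cayZ ζ M' a (Cubic.eb i) y)) ∧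
    (∀ j, DD (rotTri (cayE (a : E →L[ℝ] E)) ⟨μ, T₀, H₀⟩).μ W j
      = DD μ (fun x => W (cay (a : E →L[ℝ] E) x)) j) ∧
    (∀ j, TG (rotTri (cayE (a : E →L[ℝ] E)) ⟨μ, T₀, H₀⟩).μ
      (rotTri (cayE (a : E →L[ℝ] E)) ⟨μ, T₀, H₀⟩).T W j
      = TG μ T₀ (fun x => W (cay (a : E →L[ℝ] E) x)) j) ∧
    dis (rotTri (cayE (a : E →L[ℝ] E)) ⟨μ, T₀, H₀⟩).μ
      (rotTri (cayE (a : E →L[ℝ] E)) ⟨μ, T₀, H₀⟩).T
      (rotTri (cayE (a : E →L[ℝ] E)) ⟨μ, T₀, H₀⟩).H = dis μ T₀ H₀ := by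
  have hsk := hM' a.2
  refine ⟨?_, fun i => ?_, fun j => ?_, fun j => ?_, ?_⟩
  · rw [rotTri_co hsk]; exact co_eq_al μ a
  · have e1 := rotTri_EE hsk (⟨μ, T₀, H₀⟩ : Tri E) (fun y => W y * ζ i y)
    have e2 : (fun x => (fun y => W y * ζ i y) (cay (a : E →L[ℝ] E) x))
        = fun y => W (cay (a : E →L[ℝ] E) y) * cayZ ζ M' a (Cubic.eb i) y := by
      ext x; simp only [cayZ_eb]
    rw [e2] at e1
    exact e1
  · exact rotTri_DD hsk _ W j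
  · exact rotTri_TG hsk _ W j
  · exact rotTri_dis _ _

lemma rate_arith {ε' C Cr X Y D dis g2 a2 rs Z : ℝ} (hC : 0 ≤ C) (hCr : 0 ≤ Cr) (hε : 0 ≤ ε')
    (hZ : Z ≤ X) (hr : rs ≤ Cr * (g2 + a2 * D)) (hsm : C * Cr * a2 ≤ ε') (hD0 : 0 ≤ D)
    (hDX : D ≤ X) (hY : Y = dis + g2) (hdis : 0 ≤ dis) (hg2 : 0 ≤ g2) :
    ε' * Z + C * (dis + rs) ≤ 2 * ε' * X + C * (1 + Cr) * Y := by
  have f1 : ε' * Z ≤ ε' * X := mul_le_mul_of_nonneg_left hZ hε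
  have f2 : C * (dis + rs) ≤ C * (dis + Cr * (g2 + a2 * D)) := by gcongr
  have f3 : C * Cr * a2 * D ≤ ε' * X := by
    calc _ ≤ ε' * D := by gcongr
      _ ≤ _ := by gcongr
  have f4 : 0 ≤ C * Cr * dis := by positivity
  have f5 : 0 ≤ C * g2 := by positivity
  rw [hY]
  nlinarith

/-- the rate -/
theorem st_rate (h : RF m N T H s₀) (hM' : M' ≤ skew E) (hD : SOD m κ W c K q ζ η)
    (hF : Fam m (fun (a : M') x => W (cay (a : E →L[ℝ] E) x)) V' r c K₁ q₁)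
    (b : Module.Basis (Fin l) ℝ M') (hη : ∀ j x, η j x = V' 0 (b j) x)
    {Q : LS k →ₗ[ℝ] LS k →ₗ[ℝ] LS k →ₗ[ℝ] ℝ}
    (hQ : ∀ x y z, Q x y z = Phi κ W (lc ζ x) (lc ζ y) (lc ζ z))
    {CM : ℕ → ℝ} {CR : ℝ}
    (hpull : Tendsto (fun p : ℝ × M' => rotTri (cayE (p.2 : E →L[ℝ] E))
      (⟨N p.1, T p.1, H p.1⟩ : Tri E)) (nearF m N T H κ ×ˢ 𝓝 0) (nearS m κ CM CR)) {J1 : ℕ}
    (L1 : ∀ ε > 0, ∃ C : ℝ, 0 ≤ C ∧ ∀ᶠ t in nearS m κ CM CR, ∀ i,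
      |∫ x, ⟪grad (fun y => W y * ζ i y) x, vel t.T t.H x⟫ * rho x ∂t.μ
          - Phi κ W (lc ζ (co W ζ t.μ)) (lc ζ (co W ζ t.μ)) (ζ i)|
        ≤ ε * (DD t.μ W J1 + TG t.μ t.T W J1) + C * (dis t.μ t.T t.H + rsq W η t.μ))
    {J : ℕ} (hJ1 : J1 ≤ J) (ε : ℝ) (hε : 0 < ε) :
    ∃ C : ℝ, 0 ≤ C ∧ ∀ᶠ p : ℝ × M' in nearF m N T H κ ×ˢ 𝓝 (0 : M'),
    ∀ g : ℝ, 0 ≤ g → (∀ b, |GF (N p.1) (fun (a : M') x => W (cay (a : E →L[ℝ] E) x)) V' p.2 b|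
        ≤ g * ‖b‖) → ∀ z : LS k,
      |EE (N p.1) (T p.1) (H p.1) (fun y => W (cay (p.2 : E →L[ℝ] E) y) * cayZ ζ M' p.2 z y)
          - Q (al (N p.1) (fun (a : M') x => W (cay (a : E →L[ℝ] E) x)) (cayZ ζ M') p.2)
            (al (N p.1) (fun (a : M') x => W (cay (a : E →L[ℝ] E) x)) (cayZ ζ M') p.2) z|
        ≤ ‖z‖ * (ε * (DD (N p.1) (fun x => W (cay (p.2 : E →L[ℝ] E) x)) J
            + TG (N p.1) (T p.1) (fun x => W (cay (p.2 : E →L[ℝ] E) x)) J)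
          + C * (dis (N p.1) (T p.1) (H p.1) + g ^ 2)) := by
  obtain ⟨Cr, hCr, ev⟩ := exists_ev h hM' hD hF b hη
  set ε' := ε / (2 * ((k : ℝ) + 1)) with hε'd
  have hε' : 0 < ε' := by positivity
  obtain ⟨C, hC, hL⟩ := L1 ε' hε'
  refine ⟨k * (C * (1 + Cr)), by positivity, ?_⟩
  filter_upwards [pull hpull hL, ev, small_param (m := m) (κ := κ) (N := N) (T := T) (H := H)
    (M' := M') (D := C * Cr) hε'] with p hp hev hsm g hg hGF z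
  obtain ⟨hS, ha, hr⟩ := hev
  have hr' := hr g hg hGF
  have hT := hF.tube p.2 ha
  obtain ⟨r1, r2, r3, r4, r5⟩ := rot_facts (W := W) (ζ := ζ) hM' p.2 (N p.1) (T p.1) (H p.1)
  have hdd := DD_mono hS hT (Nat.zero_le J)
  have hdd1 := DD_mono hS hT hJ1
  have htg1 := TG_mono hS hT hJ1
  have htg0 : 0 ≤ TG (N p.1) (T p.1) (fun x => W (cay (p.2 : E →L[ℝ] E) x)) J := TG_nonneg J
  have hdd0 : 0 ≤ DD (N p.1) (fun x => W (cay (p.2 : E →L[ℝ] E) x)) 0 := DD_nonneg 0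
  have hcoord : ∀ i, |EE (N p.1) (T p.1) (H p.1) (fun y => W (cay (p.2 : E →L[ℝ] E) y)
      * cayZ ζ M' p.2 (Cubic.eb i) y)
      - Q (al (N p.1) (fun (a : M') x => W (cay (a : E →L[ℝ] E) x)) (cayZ ζ M') p.2)
        (al (N p.1) (fun (a : M') x => W (cay (a : E →L[ℝ] E) x)) (cayZ ζ M') p.2)
        (Cubic.eb i)|
      ≤ 2 * ε' * (DD (N p.1) (fun x => W (cay (p.2 : E →L[ℝ] E) x)) J
            + TG (N p.1) (T p.1) (fun x => W (cay (p.2 : E →L[ℝ] E) x)) J)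
        + C * (1 + Cr) * (dis (N p.1) (T p.1) (H p.1) + g ^ 2) := by
    intro i
    have h1 := hp i
    rw [r2 i, r1, r3, r4, r5] at h1
    rw [hQ, lc_eb]
    refine h1.trans ?_
    exact rate_arith hC hCr hε'.le (add_le_add hdd1 htg1) hr' hsm hdd0 (by linarith) rfl
      dis_nonneg (sq_nonneg g)
  have hEE := EE_sum (r := r) hM' hD hF hS ha z
  have hQs : Q (al (N p.1) (fun (a : M') x => W (cay (a : E →L[ℝ] E) x)) (cayZ ζ M') p.2)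
      (al (N p.1) (fun (a : M') x => W (cay (a : E →L[ℝ] E) x)) (cayZ ζ M') p.2) z
      = ∑ i, z i * Q (al (N p.1) (fun (a : M') x => W (cay (a : E →L[ℝ] E) x)) (cayZ ζ M') p.2)
        (al (N p.1) (fun (a : M') x => W (cay (a : E →L[ℝ] E) x)) (cayZ ζ M') p.2)
        (Cubic.eb i) := by
    conv_lhs => rw [← Cubic.sum_eb z]
    simp only [map_sum, map_smul, smul_eq_mul]
  rw [hEE, hQs, ← Finset.sum_sub_distrib]
  refine (Finset.abs_sum_le_sum_abs _ _).trans ?_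
  set X := DD (N p.1) (fun x => W (cay (p.2 : E →L[ℝ] E) x)) J
            + TG (N p.1) (T p.1) (fun x => W (cay (p.2 : E →L[ℝ] E) x)) J with hX
  have hX0 : 0 ≤ X := add_nonneg (DD_nonneg J) htg0
  have hY0 : 0 ≤ dis (N p.1) (T p.1) (H p.1) + g ^ 2 :=
    add_nonneg dis_nonneg (sq_nonneg g)
  set Y := dis (N p.1) (T p.1) (H p.1) + g ^ 2 with hY
  have hi : ∀ i ∈ (Finset.univ : Finset (Fin k)),
      |z i * EE (N p.1) (T p.1) (H p.1) (fun y => W (cay (p.2 : E →L[ℝ] E) y)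
      * cayZ ζ M' p.2 (Cubic.eb i) y)
        - z i * Q (al (N p.1) (fun (a : M') x => W (cay (a : E →L[ℝ] E) x)) (cayZ ζ M') p.2)
        (al (N p.1) (fun (a : M') x => W (cay (a : E →L[ℝ] E) x)) (cayZ ζ M') p.2)
          (Cubic.eb i)| ≤ ‖z‖ * (2 * ε' * X + C * (1 + Cr) * Y) := by
    intro i _
    rw [← mul_sub, abs_mul]
    exact mul_le_mul (abs_coord_le hD z i) (hcoord i) (abs_nonneg _) (norm_nonneg _)
  refine (Finset.sum_le_sum hi).trans ?_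
  rw [Finset.sum_const, Finset.card_univ, Fintype.card_fin, nsmul_eq_mul]
  have e5 : (k : ℝ) * (‖z‖ * (2 * ε' * X + C * (1 + Cr) * Y))
      = ‖z‖ * ((k * (2 * ε')) * X + k * (C * (1 + Cr)) * Y) := by ring
  rw [e5]
  have e6 : (k : ℝ) * (2 * ε') ≤ ε := by
    rw [hε'd]
    have hk0 : (0 : ℝ) ≤ k := Nat.cast_nonneg k
    calc (k : ℝ) * (2 * (ε / (2 * ((k : ℝ) + 1)))) = ε * (k / (k + 1)) := by field_simp
      _ ≤ ε * 1 := by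
          gcongr
          rw [div_le_one (by positivity)]; linarith
      _ = ε := mul_one _
  have e7 := mul_le_mul_of_nonneg_right e6 hX0
  exact mul_le_mul_of_nonneg_left (by linarith) (norm_nonneg z)

lemma coer_arith {C Cr A dis g2 a2 rs D : ℝ} (hC : 0 ≤ C) (hCr : 0 ≤ Cr)
    (hp : D ≤ C * (A + dis + rs)) (hr : rs ≤ Cr * (g2 + a2 * D)) (hsm : C * Cr * a2 ≤ 1 / 2)
    (hD0 : 0 ≤ D) (hA : 0 ≤ A) (hdis : 0 ≤ dis) (hg2 : 0 ≤ g2) :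
    D ≤ 2 * C * (1 + Cr) * (A + dis + g2) := by
  have f2 : C * (A + dis + rs) ≤ C * (A + dis + Cr * (g2 + a2 * D)) := by gcongr
  have f3 : C * Cr * a2 * D ≤ 1 / 2 * D := by gcongr
  have f4 : 0 ≤ C * Cr * A := by positivity
  have f5 : 0 ≤ C * Cr * dis := by positivity
  have f6 : 0 ≤ C * g2 := by positivity
  nlinarith

/-- coercivity -/
theorem st_coer (h : RF m N T H s₀) (hM' : M' ≤ skew E) (hD : SOD m κ W c K q ζ η)
    (hF : Fam m (fun (a : M') x => W (cay (a : E →L[ℝ] E) x)) V' r c K₁ q₁)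
    (b : Module.Basis (Fin l) ℝ M') (hη : ∀ j x, η j x = V' 0 (b j) x)
    {CM : ℕ → ℝ} {CR : ℝ}
    (hpull : Tendsto (fun p : ℝ × M' => rotTri (cayE (p.2 : E →L[ℝ] E))
      (⟨N p.1, T p.1, H p.1⟩ : Tri E)) (nearF m N T H κ ×ˢ 𝓝 0) (nearS m κ CM CR)) {C2 : ℝ}
    (hC2 : 0 ≤ C2) (L2 : ∀ᶠ t in nearS m κ CM CR,
      DD t.μ W 0 ≤ C2 * (‖co W ζ t.μ‖ ^ 2 + dis t.μ t.T t.H + rsq W η t.μ)) :
    ∃ C : ℝ, 0 ≤ C ∧ ∀ᶠ p : ℝ × M' in nearF m N T H κ ×ˢ 𝓝 (0 : M'),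
    ∀ g : ℝ, 0 ≤ g → (∀ b, |GF (N p.1) (fun (a : M') x => W (cay (a : E →L[ℝ] E) x)) V' p.2 b|
        ≤ g * ‖b‖) →
      DD (N p.1) (fun x => W (cay (p.2 : E →L[ℝ] E) x)) 0
        ≤ C * (‖al (N p.1) (fun (a : M') x => W (cay (a : E →L[ℝ] E) x)) (cayZ ζ M') p.2‖ ^ 2
          + dis (N p.1) (T p.1) (H p.1) + g ^ 2) := by
  obtain ⟨Cr, hCr, ev⟩ := exists_ev h hM' hD hF b hη
  refine ⟨2 * C2 * (1 + Cr), by positivity, ?_⟩
  filter_upwards [pull hpull L2, ev, small_param (m := m) (κ := κ) (N := N) (T := T) (H := H)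
    (M' := M') (D := C2 * Cr) (by norm_num : (0 : ℝ) < 1 / 2)] with p hp hev hsm g hg hGF
  obtain ⟨hS, ha, hr⟩ := hev
  have hr' := hr g hg hGF
  obtain ⟨r1, r2, r3, r4, r5⟩ := rot_facts (W := W) (ζ := ζ) hM' p.2 (N p.1) (T p.1) (H p.1)
  rw [r1, r3, r5] at hp
  exact coer_arith hC2 hCr hp hr' hsm (DD_nonneg 0) (sq_nonneg _) dis_nonneg (sq_nonneg g)

lemma small_arith {C Cr C₂ A sd dis g2 a2 rs e D : ℝ} (hC : 0 ≤ C) (hCr : 0 ≤ Cr)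
    (hp : A ≤ C * (sd + dis + rs + e)) (hr : rs ≤ Cr * (g2 + a2 * D)) (ha2 : 0 ≤ a2)
    (hDle : D ≤ C₂ * (A + e)) (hsm : C * Cr * C₂ * a2 ≤ 1 / 2)
    (hA : 0 ≤ A) (hdis : 0 ≤ dis) (hsd : 0 ≤ sd) (hg2 : 0 ≤ g2) (he : 0 ≤ e) :
    A ≤ (2 * C * (1 + Cr) + 1) * (sd + dis + g2 + e) := by
  have f1 : rs ≤ Cr * (g2 + a2 * (C₂ * (A + e))) := hr.trans (by gcongr)
  have f2 : C * (sd + dis + rs + e) ≤ C * (sd + dis + Cr * (g2 + a2 * (C₂ * (A + e))) + e) := by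
    gcongr
  have f3 : C * Cr * C₂ * a2 * (A + e) ≤ 1 / 2 * (A + e) := by gcongr
  have f4 : 0 ≤ C * Cr * sd := by positivity
  have f5 : 0 ≤ C * Cr * dis := by positivity
  have f6 : 0 ≤ C * g2 := by positivity
  have f7 : 0 ≤ C * Cr * e := by positivity
  nlinarith

/-- smallness of the coordinates -/
theorem st_small (h : RF m N T H s₀) (hM' : M' ≤ skew E) (hD : SOD m κ W c K q ζ η)
    (hF : Fam m (fun (a : M') x => W (cay (a : E →L[ℝ] E) x)) V' r c K₁ q₁)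
    (b : Module.Basis (Fin l) ℝ M') (hη : ∀ j x, η j x = V' 0 (b j) x)
    {CM : ℕ → ℝ} {CR : ℝ}
    (hpull : Tendsto (fun p : ℝ × M' => rotTri (cayE (p.2 : E →L[ℝ] E))
      (⟨N p.1, T p.1, H p.1⟩ : Tri E)) (nearF m N T H κ ×ˢ 𝓝 0) (nearS m κ CM CR)) {J3 : ℕ}
    (L3 : ∀ C₂ : ℝ, 0 ≤ C₂ →
      ∃ C : ℝ, 0 ≤ C ∧ ∀ᶠ t in nearS m κ CM CR, ∀ e : ℝ, 0 ≤ e →
      DD t.μ W J3 + TG t.μ t.T W J3 ≤ C₂ * (‖co W ζ t.μ‖ ^ 2 + e) →
      ‖co W ζ t.μ‖ ^ 2 ≤ C * (√(dis t.μ t.T t.H) + dis t.μ t.T t.H + rsq W η t.μ + e))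
    {J : ℕ} (hJ3 : J3 ≤ J) (C₂ : ℝ) (hC₂ : 0 ≤ C₂) :
    ∃ C : ℝ, 0 ≤ C ∧ ∀ᶠ p : ℝ × M' in nearF m N T H κ ×ˢ 𝓝 (0 : M'),
    ∀ g : ℝ, 0 ≤ g → (∀ b, |GF (N p.1) (fun (a : M') x => W (cay (a : E →L[ℝ] E) x)) V' p.2 b|
        ≤ g * ‖b‖) → ∀ e : ℝ, 0 ≤ e →
      DD (N p.1) (fun x => W (cay (p.2 : E →L[ℝ] E) x)) J
        + TG (N p.1) (T p.1) (fun x => W (cay (p.2 : E →L[ℝ] E) x)) J
        ≤ C₂ * (‖al (N p.1) (fun (a : M') x => W (cay (a : E →L[ℝ] E) x)) (cayZ ζ M') p.2‖ ^ 2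
          + e) →
      ‖al (N p.1) (fun (a : M') x => W (cay (a : E →L[ℝ] E) x)) (cayZ ζ M') p.2‖ ^ 2
        ≤ C * (√(dis (N p.1) (T p.1) (H p.1))
          + dis (N p.1) (T p.1) (H p.1) + g ^ 2 + e) := by
  obtain ⟨Cr, hCr, ev⟩ := exists_ev h hM' hD hF b hη
  obtain ⟨C, hC, hL⟩ := L3 C₂ hC₂
  refine ⟨2 * C * (1 + Cr) + 1, by positivity, ?_⟩
  filter_upwards [pull hpull hL, ev, small_param (m := m) (κ := κ) (N := N) (T := T) (H := H)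
    (M' := M') (D := C * Cr * C₂) (by norm_num : (0 : ℝ) < 1 / 2)] with p hp hev hsm g hg hGF e
    he hle
  obtain ⟨hS, ha, hr⟩ := hev
  have hr' := hr g hg hGF
  have hT := hF.tube p.2 ha
  have hdd := DD_mono hS hT (Nat.zero_le J)
  have hdd1 := DD_mono hS hT hJ3
  have htg1 := TG_mono hS hT hJ3
  have htg0 : 0 ≤ TG (N p.1) (T p.1) (fun x => W (cay (p.2 : E →L[ℝ] E) x)) J := TG_nonneg J
  obtain ⟨r1, r2, r3, r4, r5⟩ := rot_facts (W := W) (ζ := ζ) hM' p.2 (N p.1) (T p.1) (H p.1)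
  have hp' := hp e he
  rw [r1, r3, r4, r5] at hp'
  have hp2 := hp' (le_trans (add_le_add hdd1 htg1) hle)
  exact small_arith hC hCr hp2 hr' (sq_nonneg _) (by linarith) hsm (sq_nonneg _) dis_nonneg
    (Real.sqrt_nonneg _) (sq_nonneg g) he

/-- **The static estimates in the moving frames.** -/
theorem st_of_sod (h : RF m N T H s₀) (hM' : M' ≤ skew E) (hD : SOD m κ W c K q ζ η)
    (hF : Fam m (fun (a : M') x => W (cay (a : E →L[ℝ] E) x)) V' r c K₁ q₁)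
    (b : Module.Basis (Fin l) ℝ M') (hη : ∀ j x, η j x = V' 0 (b j) x)
    {Q : LS k →ₗ[ℝ] LS k →ₗ[ℝ] LS k →ₗ[ℝ] ℝ}
    (hQ : ∀ x y z, Q x y z = Phi κ W (lc ζ x) (lc ζ y) (lc ζ z))
    (L1 : ∀ (CM : ℕ → ℝ) (CR : ℝ), ∃ J : ℕ, ∀ ε > 0, ∃ C : ℝ, 0 ≤ C ∧
      ∀ᶠ t in nearS m κ CM CR, ∀ i,
      |∫ x, ⟪grad (fun y => W y * ζ i y) x, vel t.T t.H x⟫ * rho x ∂t.μ
          - Phi κ W (lc ζ (co W ζ t.μ)) (lc ζ (co W ζ t.μ)) (ζ i)|
        ≤ ε * (DD t.μ W J + TG t.μ t.T W J) + C * (dis t.μ t.T t.H + rsq W η t.μ))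
    (L2 : ∀ (CM : ℕ → ℝ) (CR : ℝ), ∃ C : ℝ, 0 ≤ C ∧ ∀ᶠ t in nearS m κ CM CR,
      DD t.μ W 0 ≤ C * (‖co W ζ t.μ‖ ^ 2 + dis t.μ t.T t.H + rsq W η t.μ))
    (L3 : ∀ (CM : ℕ → ℝ) (CR : ℝ), ∃ J : ℕ, ∀ C₂ : ℝ, 0 ≤ C₂ →
      ∃ C : ℝ, 0 ≤ C ∧ ∀ᶠ t in nearS m κ CM CR, ∀ e : ℝ, 0 ≤ e →
      DD t.μ W J + TG t.μ t.T W J ≤ C₂ * (‖co W ζ t.μ‖ ^ 2 + e) →
      ‖co W ζ t.μ‖ ^ 2 ≤ C * (√(dis t.μ t.T t.H) + dis t.μ t.T t.H + rsq W η t.μ + e)) :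
    ∃ J₀ : ℕ, ∀ J : ℕ, J₀ ≤ J →
      St m k N T H (fun (a : M') x => W (cay (a : E →L[ℝ] E) x)) V' (cayZ ζ M') Q κ J := by
  obtain ⟨CM, CR, hpull⟩ := tendsto_rot_nearS h κ M'
  obtain ⟨J1, L1⟩ := L1 CM CR
  obtain ⟨C2, hC2, L2⟩ := L2 CM CR
  obtain ⟨J3, L3⟩ := L3 CM CR
  refine ⟨max J1 J3, fun J hJ => ?_⟩
  have hJ1 : J1 ≤ J := (le_max_left _ _).trans hJ
  have hJ3 : J3 ≤ J := (le_max_right _ _).trans hJ
  exact
    { rate := fun ε hε => st_rate h hM' hD hF b hη hQ hpull L1 hJ1 ε hε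
      coer := st_coer h hM' hD hF b hη hpull hC2 L2
      small := fun C₂ hC₂ => st_small h hM' hD hF b hη hpull L3 hJ3 C₂ hC₂ }

end Vale.Agent.P218.H923
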