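import Vale.Agent.P218.H923.HOneH

/-! Blow-up sequences of Gaussian slices: the weak limit is a Jacobi field, and the convergence is
strong in `H¹`, with polynomial weights if the moments are controlled. -/

open MeasureTheory Set Filter Topology Metric
open scoped ENNReal NNReal RealInnerProductSpace

namespace Vale.Agent.P218.H923

open Vale.Agent.P214 (IntegralVarifold proj divAlong IsTestField)
open Vale.Agent.P218.H313

set_option linter.unusedSectionVars false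
set_option linter.unusedVariables false

variable {E : Type*} [NormedAddCommGroup E] [InnerProductSpace ℝ E] [FiniteDimensional ℝ E]
  [MeasurableSpace E] [BorelSpace E]
variable {ι : Type*} {m : ℕ} {U : Ultrafilter ι} {N : ι → Measure E}
  {T : ι → E → Submodule ℝ E} {H : ι → E → E} {κ : Measure E}
  {W : E → ℝ} {Wi : ι → E → ℝ} {c K : ℝ}

lemma quad_diff {K : ℝ} (hK : 0 ≤ K) (a b : E) (B : E →L[ℝ] E) (ha : ‖a‖ ≤ K) (hb : ‖b‖ ≤ K) :
    |⟪B a, a⟫ - ⟪B b, b⟫| ≤ ‖B‖ * (2 * K * ‖a - b‖) := by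
  have e : ⟪B a, a⟫ - ⟪B b, b⟫ = ⟪B a, a - b⟫ + ⟪B (a - b), b⟫ := by
    rw [inner_sub_right, map_sub, inner_sub_left]; ring
  rw [e]
  have h1 : |⟪B a, a - b⟫| ≤ ‖B‖ * K * ‖a - b‖ := by
    refine (abs_real_inner_le_norm _ _).trans ?_
    have := (B.le_opNorm a).trans (mul_le_mul_of_nonneg_left ha (norm_nonneg _))
    gcongr
  have h2 : |⟪B (a - b), b⟫| ≤ ‖B‖ * ‖a - b‖ * K := by
    refine (abs_real_inner_le_norm _ _).trans ?_
    have := B.le_opNorm (a - b)
    gcongr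
  refine (abs_add_le _ _).trans ?_
  nlinarith

/-- convergence of the Jacobi operators -/
lemma BU0.jac_loc (h : BU0 U m N T H κ W Wi c K) {ζ : E → ℝ} (hζ : ContDiff ℝ 2 ζ)
    (hζc : HasCompactSupport ζ) (ε : ℝ) (hε : 0 < ε) :
    ∀ᶠ i in (U : Filter ι), ∀ x, |jac (Wi i) ζ x - jac W ζ x| ≤ ε := by
  have hK := h.tube.K_nonneg
  have hg1 : ContDiff ℝ 1 (grad ζ) := contDiff_grad_one hζ
  have hc2 : Continuous (fderiv ℝ (grad ζ)) := hg1.continuous_fderiv (by norm_num)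
  have hs2 : HasCompactSupport (fderiv ℝ (grad ζ)) := (hasCompactSupport_grad hζc).fderiv (𝕜 := ℝ)
  obtain ⟨B₁, hB₁⟩ := hζc.exists_bound_of_continuous hζ.continuous
  obtain ⟨B₂, hB₂⟩ := hs2.exists_bound_of_continuous hc2
  obtain ⟨R, hR⟩ := hζc.isCompact.isBounded.subset_closedBall (0 : E)
  set B := |B₁| + |B₂| + 1 with hB
  have hB0 : 0 < B := by positivity
  have hδ : 0 < ε / (B * (2 * K + 1)) := by positivity
  filter_upwards [h.tubei, h.loc R _ hδ, h.q_loc R _ hδ] with i hi hl hq x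
  by_cases hx : x ∈ tsupport ζ
  · have hx' : ‖x‖ ≤ R := by simpa using hR hx
    have e : jac (Wi i) ζ x - jac W ζ x
        = -(⟪fderiv ℝ (grad ζ) x (grad (Wi i) x), grad (Wi i) x⟫
          - ⟪fderiv ℝ (grad ζ) x (grad W x), grad W x⟫) + (qq (Wi i) x - qq W x) * ζ x := by
      unfold jac qq; ring
    rw [e]
    refine (abs_add_le _ _).trans ?_
    rw [abs_neg, abs_mul]
    have h1 := quad_diff hK _ _ (fderiv ℝ (grad ζ) x) (hi.b1 x) (h.tube.b1 x)
    have h2 := (hl x hx').2.1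
    have h3 := hq x hx'
    have h4 : ‖fderiv ℝ (grad ζ) x‖ ≤ B := (hB₂ x).trans (by
      have := le_abs_self B₂
      have := abs_nonneg B₁
      rw [hB]; linarith)
    have h5 : |ζ x| ≤ B := by
      have h6 := hB₁ x
      rw [Real.norm_eq_abs] at h6
      have := le_abs_self B₁
      have := abs_nonneg B₂
      rw [hB]; linarith
    calc _ ≤ B * (2 * K * (ε / (B * (2 * K + 1)))) + ε / (B * (2 * K + 1)) * B := by
          gcongr
          exact h1.trans (by gcongr)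
      _ = ε := by field_simp
  · have hz : ∀ V : E → ℝ, jac V ζ x = 0 := by
      intro V
      have h1 : ζ x = 0 := image_eq_zero_of_notMem_tsupport hx
      have h2 : grad ζ x = 0 := by
        have h3 : x ∉ tsupport (fderiv ℝ ζ) := fun h => hx (tsupport_fderiv_subset ℝ h)
        have h4 : fderiv ℝ ζ x = 0 := image_eq_zero_of_notMem_tsupport h3
        refine grad_unique fun v => ?_
        rw [h4]; simp
      have h3 : fderiv ℝ (grad ζ) x = 0 := by
        have h4 : grad ζ =ᶠ[𝓝 x] fun _ => 0 := by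
          have h5 : ζ =ᶠ[𝓝 x] fun _ => 0 := notMem_tsupport_iff_eventuallyEq.1 hx
          filter_upwards [h5.eventually_nhds] with y hy
          refine grad_unique fun v => ?_
          rw [Filter.EventuallyEq.fderiv_eq hy]; simp
        rw [Filter.EventuallyEq.fderiv_eq h4]; simp
      unfold jac
      rw [h1, h2, h3]
      have h4 : tr (0 : E →L[ℝ] E) = 0 := (trL E).map_zero
      simp [h4]
    rw [hz, hz, sub_zero, abs_zero]
    exact hε.le

namespace BU

variable (h : BU U m N T H κ W Wi c K)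
include h

/-- **the weak limit is a Jacobi field** -/
theorem exists_lim (hE : Module.finrank ℝ E = m + 1) {V : Set (E → ℝ)}
    (hVc : ∀ v ∈ V, Continuous v ∧ PB v)
    (hnd : ∀ u : E → ℝ, AEStronglyMeasurable u κ → Integrable (fun x => u x ^ 2 * rho x) κ →
      (∀ ζ : E → ℝ, ContDiff ℝ (⊤ : ℕ∞) ζ → HasCompactSupport ζ →
        ∫ x, u x * jac W ζ x * rho x ∂κ = 0) → ∃ v ∈ V, u =ᵐ[κ] v) :
    ∃ v ∈ V, ∀ f : E → ℝ, Continuous f → PB f →
      Tendsto (fun i => ∫ x, nh (N i) (Wi i) x * f x * rho x ∂(N i)) U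
        (𝓝 (∫ x, v x * f x * rho x ∂κ)) := by
  have := h.conv.lf
  have hc := h.tube.cpos
  have hK := h.tube.K_nonneg
  have hwc : ∀ᶠ i in (U : Filter ι), Continuous (nh (N i) (Wi i)) ∧ PB (nh (N i) (Wi i)) := by
    filter_upwards [h.tubei] with i hi using ⟨nh_cont hi, nh_pb hi⟩
  obtain ⟨u, hum, hu2, hu⟩ := h.conv.exists_weak_lim (w := fun i => nh (N i) (Wi i)) hwc
    (h.pos.mono fun i hi => (nh_norm hi).le)
  obtain ⟨M, hM⟩ := h.conv.mom 0
  have hM' : ∀ᶠ i in (U : Filter ι), ∫ x, rho x ∂(N i) ≤ M := by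
    filter_upwards [hM] with i hi; simpa using hi
  have hsD : Tendsto (fun i => √(DD (N i) (Wi i) 0)) U (𝓝 0) := by
    have := h.dd.sqrt; rwa [Real.sqrt_zero] at this
  have hsdis : Tendsto (fun i => √(dis (N i) (T i) (H i) / DD (N i) (Wi i) 0)) U (𝓝 0) := by
    have := h.dz.sqrt; rwa [Real.sqrt_zero] at this
  have claimA : ∀ ζ : E → ℝ, ContDiff ℝ (⊤ : ℕ∞) ζ → HasCompactSupport ζ →
      ∫ x, u x * jac W ζ x * rho x ∂κ = 0 := by
    intro ζ hζ hζc
    have hζ2 : ContDiff ℝ 2 ζ := hζ.of_le (by norm_cast)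
    have hjc := continuous_jac h.tube hζ2
    have hjs : HasCompactSupport (jac W ζ) := hasCompactSupport_jac hζc
    have hjpb : PB (jac W ζ) := PB.of_compact hjc hjs
    obtain ⟨-, hlim⟩ := hu (jac W ζ) hjc hjpb
    obtain ⟨C, hC, hest⟩ := exists_jac_est (E := E) hE hc hK hζ2 hζc
    have a2 : Tendsto (fun i => C * (√(DD (N i) (Wi i) 0)
        + dis (N i) (T i) (H i) / DD (N i) (Wi i) 0 * √(DD (N i) (Wi i) 0)
          + √M * √(dis (N i) (T i) (H i) / DD (N i) (Wi i) 0))) U (𝓝 0) := by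
      have := ((hsD.add (h.dz.mul hsD)).add (hsdis.const_mul √M)).const_mul C
      simpa using this
    have a3 : Tendsto (fun i => ∫ x, nh (N i) (Wi i) x * jac (Wi i) ζ x * rho x ∂(N i)) U
        (𝓝 0) := by
      refine squeeze_zero_norm' ?_ a2
      filter_upwards [h.tubei, h.conv.sl, h.pos, hM'] with i hi hs hp hm'
      exact nh_jac hs hp hC (hest (Wi i) hi (N i) (T i) (H i) hs) hm'
    have a4 : Tendsto (fun i => ∫ x, nh (N i) (Wi i) x * jac W ζ x * rho x ∂(N i)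
        - ∫ x, nh (N i) (Wi i) x * jac (Wi i) ζ x * rho x ∂(N i)) U (𝓝 0) := by
      rw [Metric.tendsto_nhds]
      intro ε hε
      have hε' : 0 < ε / (2 * (√M + 1)) := by positivity
      filter_upwards [h.toBU0.jac_loc hζ2 hζc _ hε', h.tubei, h.conv.sl, h.pos, hM'] with
        i h1 hi hs hp h3
      rw [dist_zero_right, Real.norm_eq_abs]
      refine (nh_diff hs hi hp h3 hjc hjpb (continuous_jac hi hζ2)
        (PB.of_compact (continuous_jac hi hζ2) (hasCompactSupport_jac hζc)) h1 hε'.le).trans_lt ?_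
      have e5 : 0 ≤ √M := Real.sqrt_nonneg _
      rw [div_mul_eq_mul_div, div_lt_iff₀ (by positivity)]
      nlinarith
    have a5 := a4.add a3
    have h1 : Tendsto (fun i => ∫ x, nh (N i) (Wi i) x * jac W ζ x * rho x ∂(N i)) U (𝓝 0) := by
      simpa using a5
    have h2 := tendsto_nhds_unique h1 hlim
    rw [h2]
    congr 1; ext x; ring
  obtain ⟨v, hvV, huv⟩ := hnd u hum hu2 claimA
  refine ⟨v, hvV, fun f hf hfb => ?_⟩
  obtain ⟨-, h1⟩ := hu f hf hfb
  have e : ∫ x, f x * u x * rho x ∂κ = ∫ x, v x * f x * rho x ∂κ := by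
    apply integral_congr_ae
    filter_upwards [huv] with x hx
    rw [hx]; ring
  rwa [e] at h1

/-- the limit is normalised -/
theorem norm_lim {v : E → ℝ} (hv : Continuous v) (hvb : PB v)
    (hs : Tendsto (fun i => ∫ x, (nh (N i) (Wi i) x - v x) ^ 2 * rho x ∂(N i)) U (𝓝 0)) :
    ∫ x, v x ^ 2 * rho x ∂κ = 1 := by
  have hwt0 : ∀ x : E, wt 0 x = 1 := fun x => by simp [wt]
  have t1 := h.toBU0.sq_lim hv hvb 0 (by
      refine hs.congr fun i => ?_
      congr 1; ext x; rw [hwt0, mul_one])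
    (F := fun _ _ => 1) (f := fun _ => 1) (C := 1) zero_le_one
    (Eventually.of_forall fun i => aestronglyMeasurable_const)
    (Eventually.of_forall fun i x => by rw [hwt0]; simp) continuous_const
    (fun x => by rw [hwt0]; simp)
    (fun R ε hε => Eventually.of_forall fun i x _ => by rw [sub_self, abs_zero]; exact hε.le)
  have t2 : Tendsto (fun i => ∫ x, nh (N i) (Wi i) x ^ 2 * 1 * rho x ∂(N i)) U (𝓝 1) := by
    refine tendsto_const_nhds.congr' ?_
    filter_upwards [h.pos] with i hi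
    have e : ∫ x, nh (N i) (Wi i) x ^ 2 * 1 * rho x ∂(N i)
        = ∫ x, nh (N i) (Wi i) x ^ 2 * rho x ∂(N i) := by congr 1; ext x; ring
    rw [e, nh_norm hi]
  have h1 := tendsto_nhds_unique t1 t2
  rw [← h1]; congr 1; ext x; ring

/-- **strong convergence of the tangential gradients** -/
theorem grad_conv (hE : Module.finrank ℝ E = m + 1) {v : E → ℝ} (hv : ContDiff ℝ 2 v)
    (hv0 : PB v) (hv1 : PB (grad v)) (hv2 : PB (fderiv ℝ (grad v)))
    (hvJ : ∀ᵐ x ∂κ, jac W v x = 0)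
    (hlim : ∀ f : E → ℝ, Continuous f → PB f →
      Tendsto (fun i => ∫ x, nh (N i) (Wi i) x * f x * rho x ∂(N i)) U
        (𝓝 (∫ x, v x * f x * rho x ∂κ)))
    (hs : Tendsto (fun i => ∫ x, (nh (N i) (Wi i) x - v x) ^ 2 * rho x ∂(N i)) U (𝓝 0)) :
    Tendsto (fun i => ∫ x, ‖proj (T i x) (grad (nh (N i) (Wi i)) x - grad v x)‖ ^ 2
      * rho x ∂(N i)) U (𝓝 0) := by
  have hvpg : PG v := ⟨hv.of_le (by norm_num), hv0, hv1.mono fun x => by rw [norm_grad]⟩
  have hgv : Continuous (grad v) := continuous_grad hvpg.cd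
  have t1 := h.tg_lim hE hv.continuous hv0 hs
  have t2 := h.cross_lim hE hvpg hlim
  have t3 := h.toBU0.proj_lim hE hvpg
  rw [h.toBU0.energy hE hv hv0 hv1 hv2 hvJ] at t3
  have e0 : ∫ x, v x ^ 2 * (qq W x + 1 / 2) * rho x ∂κ
      = ∫ x, v x * (v x * (qq W x + 1 / 2)) * rho x ∂κ := by
    congr 1; ext x; ring
  rw [e0] at t1
  have t4 := (t1.sub (t2.const_mul 2)).add t3
  have e1 : ∫ x, v x * (v x * (qq W x + 1 / 2)) * rho x ∂κ
      - 2 * ∫ x, v x * (v x * (qq W x + 1 / 2)) * rho x ∂κ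
      + ∫ x, v x * (v x * (qq W x + 1 / 2)) * rho x ∂κ = 0 := by ring
  rw [e1] at t4
  refine t4.congr' ?_
  filter_upwards [h.conv.sl, h.tubei, h.pos] with i hS hi hp
  have hsp : 0 < √(DD (N i) (Wi i) 0) := Real.sqrt_pos.2 hp
  have hsq : (√(DD (N i) (Wi i) 0))⁻¹ ^ 2 = (DD (N i) (Wi i) 0)⁻¹ := by
    rw [inv_pow, Real.sq_sqrt hp.le]
  have hnpg : PG (nh (N i) (Wi i)) := hi.pg.const_mul _
  have hgn : Continuous (grad (nh (N i) (Wi i))) := continuous_grad hnpg.cd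
  have hgnb : PB (grad (nh (N i) (Wi i))) := hnpg.b1.mono fun x => by rw [norm_grad]
  have hPn := hS.proj_apply_meas hgn.aestronglyMeasurable
  have hPv := hS.proj_apply_meas hgv.aestronglyMeasurable
  have eP : (fun x => ‖proj (T i x) (grad (nh (N i) (Wi i)) x)‖ ^ 2 * rho x)
      = fun x => (DD (N i) (Wi i) 0)⁻¹ * (wt 0 x * ‖proj (T i x) (grad (Wi i) x)‖ ^ 2
        * rho x) := by
    ext x
    rw [grad_nh hi, map_smul, norm_smul, mul_pow, norm_inv, Real.norm_of_nonneg hsp.le, hsq]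
    simp only [wt, pow_zero]; ring
  have i1 : Integrable (fun x => ‖proj (T i x) (grad (nh (N i) (Wi i)) x)‖ ^ 2 * rho x) (N i) := by
    rw [eP]; exact (hS.int_TG hi 0).const_mul _
  have i2 : Integrable (fun x => ⟪proj (T i x) (grad v x), grad (nh (N i) (Wi i)) x⟫ * rho x)
      (N i) := by
    refine hS.integrable_dom (g := fun x => ‖grad v x‖ * ‖grad (nh (N i) (Wi i)) x‖)
      (hPv.inner hgn.aestronglyMeasurable) (hv1.norm.mul hgnb.norm) fun x => ?_
    rw [abs_of_nonneg (by positivity : (0:ℝ) ≤ ‖grad v x‖ * ‖grad (nh (N i) (Wi i)) x‖)]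
    refine (abs_real_inner_le_norm _ _).trans ?_
    have := norm_proj_apply_le (T i x) (grad v x)
    gcongr
  have i3 : Integrable (fun x => ‖proj (T i x) (grad v x)‖ ^ 2 * rho x) (N i) := by
    refine hS.integrable_dom (g := fun x => ‖grad v x‖ ^ 2) (hPv.norm.pow 2)
      (hv1.norm.pow 2) fun x => ?_
    have := norm_proj_apply_le (T i x) (grad v x)
    rw [abs_of_nonneg (by positivity), abs_of_nonneg (by positivity)]
    gcongr
  have f1 : TG (N i) (T i) (Wi i) 0 / DD (N i) (Wi i) 0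
      = ∫ x, ‖proj (T i x) (grad (nh (N i) (Wi i)) x)‖ ^ 2 * rho x ∂(N i) := by
    rw [eP, integral_const_mul, div_eq_inv_mul]; rfl
  rw [f1]
  have f2 := integral_comb i1 i2 i3 1 (-2) 1
  have f3 : ∫ x, ‖proj (T i x) (grad (nh (N i) (Wi i)) x - grad v x)‖ ^ 2 * rho x ∂(N i)
      = ∫ x, (1 * (‖proj (T i x) (grad (nh (N i) (Wi i)) x)‖ ^ 2 * rho x)
        + -2 * (⟪proj (T i x) (grad v x), grad (nh (N i) (Wi i)) x⟫ * rho x)
        + 1 * (‖proj (T i x) (grad v x)‖ ^ 2 * rho x)) ∂(N i) := by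
    congr 1; ext x
    have e2 : ⟪proj (T i x) (grad v x), grad (nh (N i) (Wi i)) x⟫
        = ⟪proj (T i x) (grad (nh (N i) (Wi i)) x), proj (T i x) (grad v x)⟫ := by
      rw [real_inner_comm (proj (T i x) (grad v x)), inner_proj_proj]
    rw [map_sub, norm_sub_sq_real, e2]; ring
  rw [f3, f2]; ring

/-- the weighted version of the `L²` convergence -/
theorem strong_wt {v : E → ℝ} (hv : Continuous v) (hvb : PB v) (j : ℕ)
    (hs : Tendsto (fun i => ∫ x, (nh (N i) (Wi i) x - v x) ^ 2 * rho x ∂(N i)) U (𝓝 0))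
    (hM : ∃ M : ℝ, ∀ᶠ i in (U : Filter ι), DD (N i) (Wi i) (j + 1) ≤ M * DD (N i) (Wi i) 0) :
    Tendsto (fun i => ∫ x, (nh (N i) (Wi i) x - v x) ^ 2 * wt j x * rho x ∂(N i)) U (𝓝 0) := by
  obtain ⟨M, hM⟩ := hM
  have gen : ∀ k : ℕ, ∀ᶠ i in (U : Filter ι),
      Integrable (fun x => (nh (N i) (Wi i) x - v x) ^ 2 * wt k x * rho x) (N i) := by
    intro k
    filter_upwards [h.conv.sl, h.tubei] with i hS hi
    have hwc : Continuous (fun x => nh (N i) (Wi i) x - v x) := (nh_cont hi).sub hv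
    have hwb : PB (fun x => nh (N i) (Wi i) x - v x) := (nh_pb hi).sub hvb
    exact hS.integrable_PB ((hwc.pow 2).mul (PG.wt k).cont).aestronglyMeasurable
      ((hwb.pow 2).mul (PG.wt k).b0)
  have hwtc : Continuous (fun x => v x ^ 2 * wt (j + 1) x) := (hv.pow 2).mul (PG.wt _).cont
  have hwtb : PB (fun x => v x ^ 2 * wt (j + 1) x) := (hvb.pow 2).mul (PG.wt _).b0
  have hV := (h.conv.lim_PB hwtc hwtb).eventually_le_const (lt_add_one _)
  refine tight_wt (G := fun i x => (nh (N i) (Wi i) x - v x) ^ 2) j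
    (Eventually.of_forall fun i x => sq_nonneg _) ?_ (gen j) (gen (j + 1)) hs ?_
  · filter_upwards [gen 0] with i hi
    refine hi.congr (Eventually.of_forall fun x => by simp [wt])
  · refine ⟨2 * M + 2 * (∫ x, v x ^ 2 * wt (j + 1) x * rho x ∂κ + 1), ?_⟩
    filter_upwards [h.conv.sl, h.tubei, h.pos, hM, hV, gen (j + 1)] with i hS hi hp hm' hv' i0
    have i1 : Integrable (fun x => nh (N i) (Wi i) x ^ 2 * wt (j + 1) x * rho x) (N i) :=
      hS.integrable_PB (((nh_cont hi).pow 2).mul (PG.wt _).cont).aestronglyMeasurable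
        (((nh_pb hi).pow 2).mul (PG.wt _).b0)
    have i2 : Integrable (fun x => v x ^ 2 * wt (j + 1) x * rho x) (N i) :=
      hS.integrable_PB hwtc.aestronglyMeasurable hwtb
    have k1 : ∫ x, (nh (N i) (Wi i) x - v x) ^ 2 * wt (j + 1) x * rho x ∂(N i)
        ≤ ∫ x, (2 * (nh (N i) (Wi i) x ^ 2 * wt (j + 1) x * rho x)
          + 2 * (v x ^ 2 * wt (j + 1) x * rho x)) ∂(N i) := by
      refine integral_mono i0 ((i1.const_mul _).add (i2.const_mul _)) fun x => ?_
      have h1 : (nh (N i) (Wi i) x - v x) ^ 2 ≤ 2 * nh (N i) (Wi i) x ^ 2 + 2 * v x ^ 2 := by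
        nlinarith [sq_nonneg (nh (N i) (Wi i) x + v x)]
      have h2 : 0 ≤ wt (j + 1) x * rho x := mul_nonneg (wt_pos _ x).le (rho_pos x).le
      have h3 := mul_le_mul_of_nonneg_right h1 h2
      simp only
      linarith
    rw [integral_comb2 i1 i2, nh_int hp] at k1
    have k2 : (∫ x, Wi i x ^ 2 * wt (j + 1) x * rho x ∂(N i)) / DD (N i) (Wi i) 0 ≤ M := by
      rw [div_le_iff₀ hp]; exact hm'
    linarith

/-- the weighted version of the convergence of the gradients -/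
theorem grad_wt {v : E → ℝ} (hv : PG v) (j : ℕ)
    (hs : Tendsto (fun i => ∫ x, ‖proj (T i x) (grad (nh (N i) (Wi i)) x - grad v x)‖ ^ 2
      * rho x ∂(N i)) U (𝓝 0))
    (hM : ∃ M : ℝ, ∀ᶠ i in (U : Filter ι),
      TG (N i) (T i) (Wi i) (j + 1) ≤ M * DD (N i) (Wi i) 0) :
    Tendsto (fun i => ∫ x, ‖proj (T i x) (grad (nh (N i) (Wi i)) x - grad v x)‖ ^ 2
      * wt j x * rho x ∂(N i)) U (𝓝 0) := by
  obtain ⟨M, hM⟩ := hM
  have hgv : Continuous (grad v) := continuous_grad hv.cd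
  have hgvb : PB (grad v) := hv.b1.mono fun x => by rw [norm_grad]
  have gen : ∀ k : ℕ, ∀ᶠ i in (U : Filter ι),
      Integrable (fun x => ‖proj (T i x) (grad (nh (N i) (Wi i)) x - grad v x)‖ ^ 2
        * wt k x * rho x) (N i) := by
    intro k
    filter_upwards [h.conv.sl, h.tubei] with i hS hi
    have hnpg : PG (nh (N i) (Wi i)) := hi.pg.const_mul _
    have hgn : Continuous (grad (nh (N i) (Wi i))) := continuous_grad hnpg.cd
    have hgnb : PB (grad (nh (N i) (Wi i))) := hnpg.b1.mono fun x => by rw [norm_grad]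
    have hPm := hS.proj_apply_meas (hgn.sub hgv).aestronglyMeasurable
    refine hS.integrable_dom (g := fun x => ‖grad (nh (N i) (Wi i)) x - grad v x‖ ^ 2 * wt k x)
      ((hPm.norm.pow 2).mul (PG.wt k).cont.aestronglyMeasurable)
      (((hgnb.sub hgvb).norm.pow 2).mul (PG.wt k).b0) fun x => ?_
    have h1 := norm_proj_apply_le (T i x) (grad (nh (N i) (Wi i)) x - grad v x)
    have h2 := wt_pos k x
    rw [abs_of_nonneg (by positivity), abs_of_nonneg (by positivity)]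
    gcongr
  have hwtc : Continuous (fun x => ‖grad v x‖ ^ 2 * wt (j + 1) x) :=
    (hgv.norm.pow 2).mul (PG.wt _).cont
  have hwtb : PB (fun x => ‖grad v x‖ ^ 2 * wt (j + 1) x) := (hgvb.norm.pow 2).mul (PG.wt _).b0
  have hV := (h.conv.lim_PB hwtc hwtb).eventually_le_const (lt_add_one _)
  refine tight_wt (G := fun i x => ‖proj (T i x) (grad (nh (N i) (Wi i)) x - grad v x)‖ ^ 2) j
    (Eventually.of_forall fun i x => sq_nonneg _) ?_ (gen j) (gen (j + 1)) hs ?_
  · filter_upwards [gen 0] with i hi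
    refine hi.congr (Eventually.of_forall fun x => by simp [wt])
  · refine ⟨2 * M + 2 * (∫ x, ‖grad v x‖ ^ 2 * wt (j + 1) x * rho x ∂κ + 1), ?_⟩
    filter_upwards [h.conv.sl, h.tubei, h.pos, hM, hV, gen (j + 1)] with i hS hi hp hm' hv' i0
    have hsp : 0 < √(DD (N i) (Wi i) 0) := Real.sqrt_pos.2 hp
    have hsq : (√(DD (N i) (Wi i) 0))⁻¹ ^ 2 = (DD (N i) (Wi i) 0)⁻¹ := by
      rw [inv_pow, Real.sq_sqrt hp.le]
    have eP : (fun x => ‖proj (T i x) (grad (nh (N i) (Wi i)) x)‖ ^ 2 * wt (j + 1) x * rho x)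
        = fun x => (DD (N i) (Wi i) 0)⁻¹ * (wt (j + 1) x * ‖proj (T i x) (grad (Wi i) x)‖ ^ 2
          * rho x) := by
      ext x
      rw [grad_nh hi, map_smul, norm_smul, mul_pow, norm_inv, Real.norm_of_nonneg hsp.le, hsq]
      ring
    have i1 : Integrable (fun x => ‖proj (T i x) (grad (nh (N i) (Wi i)) x)‖ ^ 2
        * wt (j + 1) x * rho x) (N i) := by
      rw [eP]; exact (hS.int_TG hi _).const_mul _
    have f1 : ∫ x, ‖proj (T i x) (grad (nh (N i) (Wi i)) x)‖ ^ 2 * wt (j + 1) x * rho x ∂(N i)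
        = TG (N i) (T i) (Wi i) (j + 1) / DD (N i) (Wi i) 0 := by
      rw [eP, integral_const_mul, div_eq_inv_mul]; rfl
    have i2 : Integrable (fun x => ‖grad v x‖ ^ 2 * wt (j + 1) x * rho x) (N i) :=
      hS.integrable_PB hwtc.aestronglyMeasurable hwtb
    have k1 : ∫ x, ‖proj (T i x) (grad (nh (N i) (Wi i)) x - grad v x)‖ ^ 2
        * wt (j + 1) x * rho x ∂(N i)
        ≤ ∫ x, (2 * (‖proj (T i x) (grad (nh (N i) (Wi i)) x)‖ ^ 2 * wt (j + 1) x * rho x)
          + 2 * (‖grad v x‖ ^ 2 * wt (j + 1) x * rho x)) ∂(N i) := by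
      refine integral_mono i0 ((i1.const_mul _).add (i2.const_mul _)) fun x => ?_
      have h0 : ‖proj (T i x) (grad (nh (N i) (Wi i)) x - grad v x)‖
          ≤ ‖proj (T i x) (grad (nh (N i) (Wi i)) x)‖ + ‖grad v x‖ := by
        rw [map_sub]
        exact (norm_sub_le _ _).trans (add_le_add_right (norm_proj_apply_le (T i x) _) _)
      have h1 : ‖proj (T i x) (grad (nh (N i) (Wi i)) x - grad v x)‖ ^ 2
          ≤ 2 * ‖proj (T i x) (grad (nh (N i) (Wi i)) x)‖ ^ 2 + 2 * ‖grad v x‖ ^ 2 := by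
        have h01 := pow_le_pow_left₀ (norm_nonneg _) h0 2
        nlinarith [sq_nonneg (‖proj (T i x) (grad (nh (N i) (Wi i)) x)‖ - ‖grad v x‖)]
      have h2 : 0 ≤ wt (j + 1) x * rho x := mul_nonneg (wt_pos _ x).le (rho_pos x).le
      have h3 := mul_le_mul_of_nonneg_right h1 h2
      simp only
      linarith
    rw [integral_comb2 i1 i2, f1] at k1
    have k2 : TG (N i) (T i) (Wi i) (j + 1) / DD (N i) (Wi i) 0 ≤ M := by
      rw [div_le_iff₀ hp]; exact hm'
    linarith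

/-- **Strong `H¹` convergence of the normalised heights.** -/
theorem hone (hm : 0 < m) (hE : Module.finrank ℝ E = m + 1) {v : E → ℝ} (hv : ContDiff ℝ 2 v)
    (hv0 : PB v) (hv1 : PB (grad v)) (hv2 : PB (fderiv ℝ (grad v)))
    (hvJ : ∀ᵐ x ∂κ, jac W v x = 0)
    (hlim : ∀ f : E → ℝ, Continuous f → PB f →
      Tendsto (fun i => ∫ x, nh (N i) (Wi i) x * f x * rho x ∂(N i)) U
        (𝓝 (∫ x, v x * f x * rho x ∂κ))) :
    ∫ x, v x ^ 2 * rho x ∂κ = 1 ∧
    Tendsto (fun i => ∫ x, (nh (N i) (Wi i) x - v x) ^ 2 * rho x ∂(N i)) U (𝓝 0) ∧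
    Tendsto (fun i => ∫ x, ‖proj (T i x) (grad (nh (N i) (Wi i)) x - grad v x)‖ ^ 2
      * rho x ∂(N i)) U (𝓝 0) := by
  have hvpg : PG v := ⟨hv.of_le (by norm_num), hv0, hv1.mono fun x => by rw [norm_grad]⟩
  have hs := h.strong hm hE hvpg hlim
  exact ⟨h.norm_lim hv.continuous hv0 hs, hs, h.grad_conv hE hv hv0 hv1 hv2 hvJ hlim hs⟩

/-- **Strong `H¹` convergence of the normalised heights, with weights.** -/
theorem hone_wt (hm : 0 < m) (hE : Module.finrank ℝ E = m + 1) {v : E → ℝ} (hv : ContDiff ℝ 2 v)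
    (hv0 : PB v) (hv1 : PB (grad v)) (hv2 : PB (fderiv ℝ (grad v)))
    (hvJ : ∀ᵐ x ∂κ, jac W v x = 0)
    (hlim : ∀ f : E → ℝ, Continuous f → PB f →
      Tendsto (fun i => ∫ x, nh (N i) (Wi i) x * f x * rho x ∂(N i)) U
        (𝓝 (∫ x, v x * f x * rho x ∂κ))) (j : ℕ)
    (hM : ∃ M : ℝ, ∀ᶠ i in (U : Filter ι),
      DD (N i) (Wi i) (j + 1) + TG (N i) (T i) (Wi i) (j + 1) ≤ M * DD (N i) (Wi i) 0) :
    Tendsto (fun i => ∫ x, (nh (N i) (Wi i) x - v x) ^ 2 * wt j x * rho x ∂(N i)) U (𝓝 0) ∧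
    Tendsto (fun i => ∫ x, ‖proj (T i x) (grad (nh (N i) (Wi i)) x - grad v x)‖ ^ 2
      * wt j x * rho x ∂(N i)) U (𝓝 0) := by
  have hvpg : PG v := ⟨hv.of_le (by norm_num), hv0, hv1.mono fun x => by rw [norm_grad]⟩
  obtain ⟨-, h1, h2⟩ := h.hone hm hE hv hv0 hv1 hv2 hvJ hlim
  obtain ⟨M, hM⟩ := hM
  refine ⟨h.strong_wt hv.continuous hv0 j h1 ⟨M, ?_⟩, h.grad_wt hvpg j h2 ⟨M, ?_⟩⟩
  · filter_upwards [hM] with i hi
    have := TG_nonneg (μ := N i) (T := T i) (W := Wi i) (j + 1)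
    linarith
  · filter_upwards [hM] with i hi
    have := DD_nonneg (μ := N i) (W := Wi i) (j + 1)
    linarith

end BU

/-! ### The case of a fixed tube function -/

/-- a fixed tube function -/
lemma BU0.of_fixed (h : Conv U m N T H κ) (hW : TubeD W c K) (hW0 : ∀ᵐ x ∂κ, W x = 0)
    (hdis : Tendsto (fun i => dis (N i) (T i) (H i)) U (𝓝 0)) :
    BU0 U m N T H κ W (fun _ => W) c K where
  conv := h
  tube := hW
  tubei := Eventually.of_forall fun _ => hW
  loc := fun R ε hε => Eventually.of_forall fun i x _ => by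
    simp only [sub_self, abs_zero, norm_zero]; exact ⟨hε.le, hε.le, hε.le⟩
  dd := by
    have h1 := h.lim_PB (f := fun x => W x ^ 2) (hW.cont.pow 2) (hW.pg.b0.pow 2)
    have h2 : ∫ x, W x ^ 2 * rho x ∂κ = 0 := by
      apply integral_eq_zero_of_ae
      filter_upwards [hW0] with x hx
      simp [hx]
    rw [h2] at h1
    refine h1.congr fun i => ?_
    rw [DD_zero_eq]
  d0 := hdis

/-- **`κ` is stationary for the Gaussian area** -/
theorem stationary (hE : Module.finrank ℝ E = m + 1)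
    (h : Conv U m N T H κ) (hW : TubeD W c K) (hW0 : ∀ᵐ x ∂κ, W x = 0)
    (hdis : Tendsto (fun i => dis (N i) (T i) (H i)) U (𝓝 0))
    {X : E → E} (hX : ContDiff ℝ 1 X) (h0 : PB X) (h1 : PB (fderiv ℝ X)) :
    ∫ x, (tr (fderiv ℝ X x) - ⟪fderiv ℝ X x (grad W x), grad W x⟫ - 1 / 2 * ⟪x, X x⟫) * rho x ∂κ
      = 0 :=
  (BU0.of_fixed h hW hW0 hdis).stationary hE hX h0 h1

/-- a fixed tube function -/
lemma BU.of_fixed (h : Conv U m N T H κ)
    (hκ : ∀ x : E, ∀ c > om m, ∀ᶠ r in 𝓝[>] (0 : ℝ),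
      (∫ y, H313.ker (r⁻¹ • (y - x)) ∂κ) / r ^ m ≤ c)
    (hW : TubeD W c K) (hpos : ∀ᶠ i in (U : Filter ι), 0 < DD (N i) W 0)
    (hD : Tendsto (fun i => DD (N i) W 0) U (𝓝 0))
    (hdis : Tendsto (fun i => dis (N i) (T i) (H i) / DD (N i) W 0) U (𝓝 0)) :
    BU U m N T H κ W (fun _ => W) c K where
  conv := h
  dens := hκ
  tube := hW
  tubei := Eventually.of_forall fun _ => hW
  loc := fun R ε hε => Eventually.of_forall fun i x _ => by
    simp only [sub_self, abs_zero, norm_zero]; exact ⟨hε.le, hε.le, hε.le⟩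
  pos := hpos
  dd := hD
  dz := hdis

/-- **strong `H¹` convergence of the blow-up**, fixed tube function -/
theorem hOne (hm : 0 < m) (hE : Module.finrank ℝ E = m + 1)
    (h : Conv U m N T H κ)
    (hκ : ∀ x : E, ∀ c > om m, ∀ᶠ r in 𝓝[>] (0 : ℝ),
      (∫ y, H313.ker (r⁻¹ • (y - x)) ∂κ) / r ^ m ≤ c)
    (hW : TubeD W c K) (hW0 : ∀ᵐ x ∂κ, W x = 0) {v : E → ℝ} (hv : ContDiff ℝ 2 v) (hv0 : PB v)
    (hv1 : PB (grad v)) (hv2 : PB (fderiv ℝ (grad v))) (hvJ : ∀ᵐ x ∂κ, jac W v x = 0)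
    (hlim : ∀ f : E → ℝ, Continuous f → PB f →
      Tendsto (fun i => ∫ x, nh (N i) W x * f x * rho x ∂(N i)) U (𝓝 (∫ x, f x * v x * rho x ∂κ)))
    (hpos : ∀ᶠ i in (U : Filter ι), 0 < DD (N i) W 0)
    (hD : Tendsto (fun i => DD (N i) W 0) U (𝓝 0))
    (hdis : Tendsto (fun i => dis (N i) (T i) (H i) / DD (N i) W 0) U (𝓝 0)) (j : ℕ)
    (h2 : ∃ M, ∀ᶠ i in (U : Filter ι),
      DD (N i) W (j + 1) + TG (N i) (T i) W (j + 1) ≤ M * DD (N i) W 0) :
    Tendsto (fun i => ∫ x, (nh (N i) W x - v x) ^ 2 * wt j x * rho x ∂(N i)) U (𝓝 0) ∧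
    Tendsto (fun i => ∫ x, ‖proj (T i x) (grad (nh (N i) W) x - grad v x)‖ ^ 2
      * wt j x * rho x ∂(N i)) U (𝓝 0) := by
  refine (BU.of_fixed h hκ hW hpos hD hdis).hone_wt hm hE hv hv0 hv1 hv2 hvJ ?_ j h2
  intro f hf hfb
  have e : ∫ x, v x * f x * rho x ∂κ = ∫ x, f x * v x * rho x ∂κ := by
    congr 1; ext x; ring
  rw [e]
  exact hlim f hf hfb

end Vale.Agent.P218.H923
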