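import Vale.Agent.P218.H313.Blow

/-! Blow-up sequences of Gaussian slices: tools. -/

open MeasureTheory Set Filter Topology Metric
open scoped ENNReal NNReal RealInnerProductSpace

namespace Vale.Agent.P218.H923

open Vale.Agent.P214 (IntegralVarifold proj divAlong IsTestField)
open Vale.Agent.P218.H313

set_option linter.unusedSectionVars false
set_option linter.unusedVariables false

variable {E : Type*} [NormedAddCommGroup E] [InnerProductSpace ℝ E] [FiniteDimensional ℝ E]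
  [MeasurableSpace E] [BorelSpace E]
variable {ι : Type*} {m : ℕ} {U : Ultrafilter ι} {N : ι → Measure E}
  {T : ι → E → Submodule ℝ E} {H : ι → E → E} {κ : Measure E}

/-- the shape term `|D²W|²` -/
noncomputable def qq (W : E → ℝ) (x : E) : ℝ :=
  tr ((fderiv ℝ (grad W) x).comp (fderiv ℝ (grad W) x))

/-- Gaussian slices `N_i` converging to `κ`, with tube functions `Wi i → W` locally in `C²`,
squared distances and dissipations tending to `0`. -/
structure BU0 (U : Ultrafilter ι) (m : ℕ) (N : ι → Measure E) (T : ι → E → Submodule ℝ E)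
    (H : ι → E → E) (κ : Measure E) (W : E → ℝ) (Wi : ι → E → ℝ) (c K : ℝ) : Prop where
  conv : Conv U m N T H κ
  tube : TubeD W c K
  tubei : ∀ᶠ i in (U : Filter ι), TubeD (Wi i) c K
  loc : ∀ R ε : ℝ, 0 < ε → ∀ᶠ i in (U : Filter ι), ∀ x, ‖x‖ ≤ R →
    |Wi i x - W x| ≤ ε ∧ ‖grad (Wi i) x - grad W x‖ ≤ ε ∧
      ‖fderiv ℝ (grad (Wi i)) x - fderiv ℝ (grad W) x‖ ≤ ε
  dd : Tendsto (fun i => DD (N i) (Wi i) 0) U (𝓝 0)
  d0 : Tendsto (fun i => dis (N i) (T i) (H i)) U (𝓝 0)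

/-- **A blow-up sequence**: Gaussian slices `N_i` converging to the multiplicity one shrinker `κ`,
with tube functions `Wi i → W` locally in `C²`, squared distances tending to `0`, and dissipations
small compared with the squared distances. -/
structure BU (U : Ultrafilter ι) (m : ℕ) (N : ι → Measure E) (T : ι → E → Submodule ℝ E)
    (H : ι → E → E) (κ : Measure E) (W : E → ℝ) (Wi : ι → E → ℝ) (c K : ℝ) : Prop where
  conv : Conv U m N T H κ
  dens : ∀ x : E, ∀ c > om m, ∀ᶠ r in 𝓝[>] (0 : ℝ), (∫ y, H313.ker (r⁻¹ • (y - x)) ∂κ) / r ^ m ≤ c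
  tube : TubeD W c K
  tubei : ∀ᶠ i in (U : Filter ι), TubeD (Wi i) c K
  loc : ∀ R ε : ℝ, 0 < ε → ∀ᶠ i in (U : Filter ι), ∀ x, ‖x‖ ≤ R →
    |Wi i x - W x| ≤ ε ∧ ‖grad (Wi i) x - grad W x‖ ≤ ε ∧
      ‖fderiv ℝ (grad (Wi i)) x - fderiv ℝ (grad W) x‖ ≤ ε
  pos : ∀ᶠ i in (U : Filter ι), 0 < DD (N i) (Wi i) 0
  dd : Tendsto (fun i => DD (N i) (Wi i) 0) U (𝓝 0)
  dz : Tendsto (fun i => dis (N i) (T i) (H i) / DD (N i) (Wi i) 0) U (𝓝 0)

lemma BU.toBU0 {W : E → ℝ} {Wi : ι → E → ℝ} {c K : ℝ} (h : BU U m N T H κ W Wi c K) :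
    BU0 U m N T H κ W Wi c K where
  conv := h.conv
  tube := h.tube
  tubei := h.tubei
  loc := h.loc
  dd := h.dd
  d0 := by
    have h1 := h.dz.mul h.dd
    rw [zero_mul] at h1
    refine h1.congr' ?_
    filter_upwards [h.pos] with i hi
    rw [div_mul_cancel₀ _ hi.ne']

lemma small_of {I : ι → ℝ} (h : ∀ ε > 0, ∃ J : ι → ℝ, Tendsto J U (𝓝 0) ∧
    ∀ᶠ i in (U : Filter ι), |I i| ≤ ε + J i) : Tendsto I U (𝓝 0) := by
  rw [Metric.tendsto_nhds]
  intro ε hε
  obtain ⟨J, hJ, hI⟩ := h (ε / 2) (half_pos hε)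
  filter_upwards [hI, hJ.eventually (gt_mem_nhds (half_pos hε))] with i h1 h2
  rw [dist_zero_right, Real.norm_eq_abs]
  linarith

lemma abs_int_le {μ : Measure E} {f g : E → ℝ} (hg : Integrable (fun x => g x * rho x) μ)
    (h : ∀ᵐ x ∂μ, |f x| ≤ g x) : |∫ x, f x * rho x ∂μ| ≤ ∫ x, g x * rho x ∂μ := by
  rw [← Real.norm_eq_abs]
  refine norm_integral_le_of_norm_le hg ?_
  filter_upwards [h] with x hx
  rw [norm_mul, Real.norm_of_nonneg (rho_pos x).le, Real.norm_eq_abs]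
  exact mul_le_mul_of_nonneg_right hx (rho_pos x).le

/-- functions with a uniform polynomial bound which tend to zero locally uniformly -/
lemma tendsto_loc (h : Conv U m N T H κ) {F : ι → E → ℝ} {C : ℝ} {p : ℕ}
    (hb : ∀ᶠ i in (U : Filter ι), ∀ x, |F i x| ≤ C * (1 + ‖x‖) ^ p)
    (hloc : ∀ R ε : ℝ, 0 < ε → ∀ᶠ i in (U : Filter ι), ∀ x, ‖x‖ ≤ R → |F i x| ≤ ε) :
    Tendsto (fun i => ∫ x, |F i x| * rho x ∂(N i)) U (𝓝 0) := by
  obtain ⟨M₀, hM₀⟩ := h.mom 0
  obtain ⟨M₁, hM₁⟩ := h.mom (p + 1)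
  refine small_of fun ε hε => ⟨fun _ => 0, tendsto_const_nhds, ?_⟩
  -- choose `R`
  set A := 2 * (|C| * |M₁|) / ε with hA
  have hA0 : 0 ≤ A := by positivity
  have hε' : 0 < ε / (2 * (|M₀| + 1)) := by positivity
  filter_upwards [hb, hloc A _ hε', hM₀, hM₁, h.sl] with i h1 h2 h3 h4 hs
  have i0 := hs.mom 0
  have i1 := hs.mom (p + 1)
  have hi : Integrable (fun x => (ε / (2 * (|M₀| + 1)) + |C| / (1 + A) * (1 + ‖x‖) ^ (p + 1))
      * rho x) (N i) := by
    have := (i0.const_mul (ε / (2 * (|M₀| + 1)))).add (i1.const_mul (|C| / (1 + A)))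
    refine this.congr (Eventually.of_forall fun x => ?_)
    simp only [Pi.add_apply, pow_zero]; ring
  have key := abs_int_le (f := fun x => |F i x|) hi (Eventually.of_forall fun x => by
    rw [abs_abs]
    by_cases hx : ‖x‖ ≤ A
    · have := h2 x hx
      have h5 : 0 ≤ |C| / (1 + A) * (1 + ‖x‖) ^ (p + 1) := by positivity
      linarith
    · push Not at hx
      have h5 := h1 x
      have h6 : C * (1 + ‖x‖) ^ p ≤ |C| / (1 + A) * (1 + ‖x‖) ^ (p + 1) := by
        rw [pow_succ, div_mul_eq_mul_div, le_div_iff₀ (by positivity)]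
        have h7 : C * (1 + ‖x‖) ^ p ≤ |C| * (1 + ‖x‖) ^ p := by
          have := le_abs_self C
          gcongr
        calc C * (1 + ‖x‖) ^ p * (1 + A) ≤ |C| * (1 + ‖x‖) ^ p * (1 + A) := by gcongr
          _ ≤ |C| * (1 + ‖x‖) ^ p * (1 + ‖x‖) := by gcongr
          _ = _ := by ring
      linarith)
  have e : ∫ x, (ε / (2 * (|M₀| + 1)) + |C| / (1 + A) * (1 + ‖x‖) ^ (p + 1)) * rho x ∂(N i)
      = ε / (2 * (|M₀| + 1)) * ∫ x, (1 + ‖x‖) ^ 0 * rho x ∂(N i)
        + |C| / (1 + A) * ∫ x, (1 + ‖x‖) ^ (p + 1) * rho x ∂(N i) := by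
    rw [← integral_comb2 i0 i1]
    congr 1; ext x
    simp only [pow_zero]; ring
  rw [e] at key
  have k1 : ε / (2 * (|M₀| + 1)) * ∫ x, (1 + ‖x‖) ^ 0 * rho x ∂(N i) ≤ ε / 2 := by
    calc _ ≤ ε / (2 * (|M₀| + 1)) * (|M₀| + 1) := by
          gcongr
          exact h3.trans ((le_abs_self _).trans (by linarith))
      _ = ε / 2 := by field_simp
  have k2 : |C| / (1 + A) * ∫ x, (1 + ‖x‖) ^ (p + 1) * rho x ∂(N i) ≤ ε / 2 := by
    calc _ ≤ |C| / (1 + A) * |M₁| := by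
          gcongr
          exact h4.trans (le_abs_self _)
      _ ≤ ε / 2 := by
          rw [div_mul_eq_mul_div, div_le_iff₀ (by positivity)]
          have : |C| * |M₁| = ε / 2 * A := by rw [hA]; field_simp
          rw [this]
          nlinarith
  linarith

/-- bounded nonnegative functions with small integral: polynomial weights are harmless -/
lemma tendsto_pow_mul (h : Conv U m N T H κ) {G : ι → E → ℝ} {B : ℝ}
    (hm : ∀ᶠ i in (U : Filter ι), AEStronglyMeasurable (G i) (N i))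
    (hG : ∀ᶠ i in (U : Filter ι), ∀ x, 0 ≤ G i x ∧ G i x ≤ B)
    (h0 : Tendsto (fun i => ∫ x, G i x * rho x ∂(N i)) U (𝓝 0)) (p : ℕ) :
    Tendsto (fun i => ∫ x, (1 + ‖x‖) ^ p * G i x * rho x ∂(N i)) U (𝓝 0) := by
  obtain ⟨M, hM⟩ := h.mom (p + p)
  refine small_of fun ε hε => ?_
  set δ := ε / ((|B| + 1) * (|M| + 1)) with hδ
  have hδ0 : 0 < δ := by positivity
  refine ⟨fun i => (1 / δ) * ∫ x, G i x * rho x ∂(N i), by simpa using h0.const_mul (1 / δ), ?_⟩
  filter_upwards [hm, hG, hM, h.sl] with i h1 h2 h3 hs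
  have hGi : Integrable (fun x => G i x * rho x) (N i) :=
    hs.integrable_dom h1 (PB.const B) fun x => by
      rw [abs_of_nonneg (h2 x).1, abs_of_nonneg ((h2 x).1.trans (h2 x).2)]
      exact (h2 x).2
  have i1 := hs.mom (p + p)
  have hi : Integrable (fun x => (δ * |B| * (1 + ‖x‖) ^ (p + p) + 1 / δ * G i x) * rho x) (N i) := by
    have := (i1.const_mul (δ * |B|)).add (hGi.const_mul (1 / δ))
    refine this.congr (Eventually.of_forall fun x => ?_)
    simp only [Pi.add_apply]; ring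
  have key := abs_int_le (f := fun x => (1 + ‖x‖) ^ p * G i x) hi
    (Eventually.of_forall fun x => by
      obtain ⟨h5, h6⟩ := h2 x
      rw [abs_of_nonneg (by positivity)]
      have h7 : (1 + ‖x‖) ^ p ≤ δ * (1 + ‖x‖) ^ (p + p) + 1 / δ := by
        rw [pow_add]
        set a := (1 + ‖x‖) ^ p
        have h8 : δ * (a - 1 / δ) ^ 2 = δ * (a * a) - 2 * a + 1 / δ := by field_simp; ring
        have h9 : 0 ≤ δ * (a - 1 / δ) ^ 2 := by positivity
        have h10 : 0 ≤ a := by positivity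
        linarith
      have h8 : G i x ≤ |B| := h6.trans (le_abs_self _)
      calc (1 + ‖x‖) ^ p * G i x ≤ (δ * (1 + ‖x‖) ^ (p + p) + 1 / δ) * G i x := by gcongr
        _ = δ * (1 + ‖x‖) ^ (p + p) * G i x + 1 / δ * G i x := by ring
        _ ≤ δ * (1 + ‖x‖) ^ (p + p) * |B| + 1 / δ * G i x := by gcongr
        _ = _ := by ring)
  have e : ∫ x, (δ * |B| * (1 + ‖x‖) ^ (p + p) + 1 / δ * G i x) * rho x ∂(N i)
      = δ * |B| * ∫ x, (1 + ‖x‖) ^ (p + p) * rho x ∂(N i)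
        + 1 / δ * ∫ x, G i x * rho x ∂(N i) := by
    rw [← integral_comb2 i1 hGi]
    congr 1; ext x; ring
  rw [e] at key
  have k1 : δ * |B| * ∫ x, (1 + ‖x‖) ^ (p + p) * rho x ∂(N i) ≤ ε := by
    calc _ ≤ δ * (|B| + 1) * (|M| + 1) := by
          have : ∫ x, (1 + ‖x‖) ^ (p + p) * rho x ∂(N i) ≤ |M| + 1 :=
            h3.trans ((le_abs_self _).trans (by linarith))
          have hn : 0 ≤ ∫ x, (1 + ‖x‖) ^ (p + p) * rho x ∂(N i) := integral_nonneg fun x =>
            mul_nonneg (by positivity) (rho_pos x).le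
          gcongr
          linarith
      _ = ε := by rw [hδ]; field_simp
  linarith

/-- squares -/
lemma tendsto_loc_sq (h : Conv U m N T H κ) {F : ι → E → ℝ} {C : ℝ} {p : ℕ} (hC : 0 ≤ C)
    (hb : ∀ᶠ i in (U : Filter ι), ∀ x, |F i x| ≤ C * (1 + ‖x‖) ^ p)
    (hloc : ∀ R ε : ℝ, 0 < ε → ∀ᶠ i in (U : Filter ι), ∀ x, ‖x‖ ≤ R → |F i x| ≤ ε) :
    Tendsto (fun i => ∫ x, F i x ^ 2 * rho x ∂(N i)) U (𝓝 0) := by
  have := tendsto_loc h (F := fun i x => F i x ^ 2) (C := C ^ 2) (p := p + p) ?_ ?_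
  · refine this.congr fun i => ?_
    congr 1; ext x
    rw [abs_of_nonneg (sq_nonneg _)]
  · filter_upwards [hb] with i hi x
    rw [abs_of_nonneg (sq_nonneg _), ← sq_abs]
    calc |F i x| ^ 2 ≤ (C * (1 + ‖x‖) ^ p) ^ 2 := by
          have := hi x
          gcongr
      _ = _ := by ring
  · intro R ε hε
    filter_upwards [hloc R (√ε) (Real.sqrt_pos.2 hε)] with i hi x hx
    rw [abs_of_nonneg (sq_nonneg _), ← sq_abs]
    calc |F i x| ^ 2 ≤ √ε ^ 2 := by
          have := hi x hx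
          gcongr
      _ = ε := Real.sq_sqrt hε.le

end Vale.Agent.P218.H923
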