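import Vale.Agent.P218.H923.HOneA

/-! Blow-up sequences of Gaussian slices: convergence of the tangent planes. -/

open MeasureTheory Set Filter Topology Metric
open scoped ENNReal NNReal RealInnerProductSpace

namespace Vale.Agent.P218.H923

open Vale.Agent.P214 (IntegralVarifold proj divAlong IsTestField)
open Vale.Agent.P218.H313

set_option linter.unusedSectionVars false
set_option linter.unusedVariables false

variable {E : Type*} [NormedAddCommGroup E] [InnerProductSpace ℝ E] [FiniteDimensional ℝ E]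
  [MeasurableSpace E] [BorelSpace E]
variable {ι : Type*} {m : ℕ} {U : Ultrafilter ι} {N : ι → Measure E}
  {T : ι → E → Submodule ℝ E} {H : ι → E → E} {κ : Measure E}
  {W : E → ℝ} {Wi : ι → E → ℝ} {c K : ℝ}

lemma BU.bounds (h : BU U m N T H κ W Wi c K) (hE : Module.finrank ℝ E = m + 1) :
    ∃ M : ℝ, 0 ≤ M ∧ ∀ᶠ i in (U : Filter ι),
    DD (N i) (Wi i) 1 ≤ M * DD (N i) (Wi i) 0 ∧ TG (N i) (T i) (Wi i) 0 ≤ M * DD (N i) (Wi i) 0 ∧
      dis (N i) (T i) (H i) ≤ DD (N i) (Wi i) 0 := by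
  have hc := h.tube.cpos
  have hK := h.tube.K_nonneg
  obtain ⟨C₁, hC₁, hTG⟩ := exists_TG_le (E := E) hE hc hK
  obtain ⟨C₂, hC₂, hD1⟩ := exists_DD_one_le (E := E) hE hc hK
  have hdis1 : ∀ᶠ i in (U : Filter ι), dis (N i) (T i) (H i) / DD (N i) (Wi i) 0 ≤ 1 :=
    h.dz.eventually_le_const (by norm_num)
  refine ⟨2 * (C₁ + C₂), by positivity, ?_⟩
  filter_upwards [h.tubei, h.conv.sl, h.pos, hdis1] with i hi hs hp hd
  have e1 := hD1 (Wi i) hi (N i) (T i) (H i) hs
  have e2 := hTG (Wi i) hi (N i) (T i) (H i) hs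
  rw [div_le_iff₀ hp] at hd
  refine ⟨by nlinarith, by nlinarith, by linarith⟩

namespace BU0

variable (h : BU0 U m N T H κ W Wi c K)
include h

lemma tg_zero (hE : Module.finrank ℝ E = m + 1) :
    Tendsto (fun i => TG (N i) (T i) (Wi i) 0) U (𝓝 0) := by
  have hc := h.tube.cpos
  have hK := h.tube.K_nonneg
  obtain ⟨C₁, hC₁, hTG⟩ := exists_TG_le (E := E) hE hc hK
  have h1 := (h.dd.add h.d0).const_mul C₁
  rw [add_zero, mul_zero] at h1
  refine squeeze_zero' ?_ ?_ h1
  · exact Eventually.of_forall fun i => TG_nonneg 0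
  · filter_upwards [h.tubei, h.conv.sl] with i hi hs using hTG (Wi i) hi (N i) (T i) (H i) hs

lemma w_pow (p : ℕ) :
    Tendsto (fun i => ∫ x, (1 + ‖x‖) ^ p * Wi i x ^ 2 * rho x ∂(N i)) U (𝓝 0) := by
  refine tendsto_pow_mul h.conv (G := fun i x => Wi i x ^ 2) (B := K ^ 2) ?_ ?_ ?_ p
  · filter_upwards [h.tubei] with i hi using (hi.cont.pow 2).aestronglyMeasurable
  · filter_upwards [h.tubei] with i hi x
    refine ⟨sq_nonneg _, ?_⟩
    rw [← sq_abs]
    have := hi.b0 x
    gcongr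
  · refine h.dd.congr fun i => ?_
    rw [DD_zero_eq]

lemma t_pow (hE : Module.finrank ℝ E = m + 1) (p : ℕ) :
    Tendsto (fun i => ∫ x, (1 + ‖x‖) ^ p * ‖proj (T i x) (grad (Wi i) x)‖ ^ 2 * rho x ∂(N i)) U
      (𝓝 0) := by
  refine tendsto_pow_mul h.conv (G := fun i x => ‖proj (T i x) (grad (Wi i) x)‖ ^ 2)
    (B := K ^ 2) ?_ ?_ ?_ p
  · filter_upwards [h.tubei, h.conv.sl] with i hi hs using
      ((hs.proj_apply_meas hi.pg_grad.cont.aestronglyMeasurable).norm.pow 2)
  · filter_upwards [h.tubei] with i hi x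
    refine ⟨sq_nonneg _, ?_⟩
    have := (norm_proj_apply_le (T i x) (grad (Wi i) x)).trans (hi.b1 x)
    gcongr
  · refine (h.tg_zero hE).congr fun i => ?_
    unfold TG
    congr 1; ext x; simp [wt]

/-- the gradients converge -/
lemma grad_loc {A : E → E →L[ℝ] E} {C : ℝ} {p : ℕ} (hC : 0 ≤ C)
    (hA : ∀ x, ‖A x‖ ≤ C * (1 + ‖x‖) ^ p) :
    Tendsto (fun i => ∫ x, |⟪A x (grad (Wi i) x), grad (Wi i) x⟫
      - ⟪A x (grad W x), grad W x⟫| * rho x ∂(N i)) U (𝓝 0) := by
  have hK := h.tube.K_nonneg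
  have key : ∀ (a b : E) (B : E →L[ℝ] E), ‖a‖ ≤ K → ‖b‖ ≤ K →
      |⟪B a, a⟫ - ⟪B b, b⟫| ≤ ‖B‖ * (2 * K * ‖a - b‖) := by
    intro a b B ha hb
    have e : ⟪B a, a⟫ - ⟪B b, b⟫ = ⟪B a, a - b⟫ + ⟪B (a - b), b⟫ := by
      rw [inner_sub_right, map_sub, inner_sub_left]; ring
    rw [e]
    have h1 : |⟪B a, a - b⟫| ≤ ‖B‖ * K * ‖a - b‖ := by
      refine (abs_real_inner_le_norm _ _).trans ?_
      have := (B.le_opNorm a).trans (mul_le_mul_of_nonneg_left ha (norm_nonneg _))
      gcongr
    have h2 : |⟪B (a - b), b⟫| ≤ ‖B‖ * ‖a - b‖ * K := by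
      refine (abs_real_inner_le_norm _ _).trans ?_
      have := B.le_opNorm (a - b)
      gcongr
    refine (abs_add_le _ _).trans ?_
    nlinarith
  refine tendsto_loc h.conv (C := C * (4 * K ^ 2)) (p := p) ?_ ?_
  · filter_upwards [h.tubei] with i hi x
    refine (key _ _ _ (hi.b1 x) (h.tube.b1 x)).trans ?_
    have h1 : ‖grad (Wi i) x - grad W x‖ ≤ 2 * K := by
      refine (norm_sub_le _ _).trans ?_
      have := hi.b1 x
      have := h.tube.b1 x
      linarith
    calc ‖A x‖ * (2 * K * ‖grad (Wi i) x - grad W x‖)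
        ≤ (C * (1 + ‖x‖) ^ p) * (2 * K * (2 * K)) := by
          have := hA x
          gcongr
      _ = _ := by ring
  · intro R ε hε
    have hR : 0 < C * (1 + |R|) ^ p * (2 * K) + 1 := by positivity
    filter_upwards [h.tubei, h.loc R (ε / (C * (1 + |R|) ^ p * (2 * K) + 1)) (by positivity)]
      with i hi hl x hx
    refine (key _ _ _ (hi.b1 x) (h.tube.b1 x)).trans ?_
    have h1 := (hl x hx).2.1
    have h2 : ‖A x‖ ≤ C * (1 + |R|) ^ p := by
      refine (hA x).trans ?_
      have := hx.trans (le_abs_self R)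
      gcongr
    calc ‖A x‖ * (2 * K * ‖grad (Wi i) x - grad W x‖)
        ≤ (C * (1 + |R|) ^ p) * (2 * K * (ε / (C * (1 + |R|) ^ p * (2 * K) + 1))) := by gcongr
      _ = ε * (C * (1 + |R|) ^ p * (2 * K) / (C * (1 + |R|) ^ p * (2 * K) + 1)) := by ring
      _ ≤ ε * 1 := by
          gcongr
          rw [div_le_one hR]; linarith
      _ = ε := mul_one _

/-- **convergence of the tangent planes** -/
theorem tr_lim (hE : Module.finrank ℝ E = m + 1) {A : E → E →L[ℝ] E} (hA : Continuous A)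
    (hAb : PB A) :
    Tendsto (fun i => ∫ x, tr ((proj (T i x)).comp (A x)) * rho x ∂(N i)) U
      (𝓝 (∫ x, (tr (A x) - ⟪A x (grad W x), grad W x⟫) * rho x ∂κ)) := by
  have hK := h.tube.K_nonneg
  have hc := h.tube.cpos
  set n : ℝ := (Module.finrank ℝ E : ℝ) with hn
  have hn0 : 0 ≤ n := by rw [hn]; positivity
  have hgc : Continuous (grad W) := h.tube.pg_grad.cont
  have hcont : Continuous (fun x => tr (A x) - ⟪A x (grad W x), grad W x⟫) :=
    ((trL E).continuous.comp hA).sub ((hA.clm_apply hgc).inner hgc)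
  have htrb : PB (fun x => tr (A x)) := PB.of_norm_mul (PB.const n) hAb fun x => by
    rw [Real.norm_eq_abs, Real.norm_of_nonneg hn0]
    exact abs_tr_le _
  have hpb : PB (fun x => tr (A x) - ⟪A x (grad W x), grad W x⟫) :=
    htrb.sub ((hAb.clm_apply h.tube.pg_grad.b0).inner' h.tube.pg_grad.b0)
  have hlim := h.conv.lim_PB hcont hpb
  obtain ⟨C, p, hC, hb⟩ := hAb
  have key : Tendsto (fun i => ∫ x, (tr ((proj (T i x)).comp (A x))
      - (tr (A x) - ⟪A x (grad W x), grad W x⟫)) * rho x ∂(N i)) U (𝓝 0) := by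
    obtain ⟨M, hM⟩ := h.conv.mom (p + p)
    refine small_of fun ε hε => ?_
    set δ := ε / (C ^ 2 * |M| + 1) with hδ
    have hδ0 : 0 < δ := by positivity
    refine ⟨fun i => 4 / δ * ∫ x, (1 + ‖x‖) ^ 0 * ‖proj (T i x) (grad (Wi i) x)‖ ^ 2 * rho x ∂(N i)
      + (2 * n + K ^ 2) * C / c ^ 2 * ∫ x, (1 + ‖x‖) ^ p * Wi i x ^ 2 * rho x ∂(N i)
      + 1 * ∫ x, |⟪A x (grad (Wi i) x), grad (Wi i) x⟫
        - ⟪A x (grad W x), grad W x⟫| * rho x ∂(N i), ?_, ?_⟩
    · have := (((h.t_pow hE 0).const_mul (4 / δ)).add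
        ((h.w_pow p).const_mul ((2 * n + K ^ 2) * C / c ^ 2))).add ((h.grad_loc hC hb).const_mul 1)
      simpa using this
    · filter_upwards [h.tubei, h.conv.sl, hM] with i hi hs hm
      have hTm := hs.proj_apply_meas hi.pg_grad.cont.aestronglyMeasurable
      have i1 : Integrable (fun x => (1 + ‖x‖) ^ 0 * ‖proj (T i x) (grad (Wi i) x)‖ ^ 2
          * rho x) (N i) := by
        refine hs.integrable_dom (g := fun x => ‖grad (Wi i) x‖ ^ 2)
          ((continuous_const.add continuous_norm).pow 0 |>.aestronglyMeasurable.mul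
            (hTm.norm.pow 2)) (hi.pg_grad.b0.norm.pow 2) fun x => ?_
        have h1 := norm_proj_apply_le (T i x) (grad (Wi i) x)
        rw [abs_of_nonneg (by positivity), abs_of_nonneg (by positivity), pow_zero, one_mul]
        gcongr
      have i2 : Integrable (fun x => (1 + ‖x‖) ^ p * Wi i x ^ 2 * rho x) (N i) :=
        hs.integrable_PB (((continuous_const.add continuous_norm).pow p).mul
          (hi.cont.pow 2)).aestronglyMeasurable
          (PB.mul ((((PB.const (1 : ℝ)).add PB.id'.norm)).pow p) (hi.pg.b0.pow 2))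
      have hgci : Continuous (grad (Wi i)) := hi.pg_grad.cont
      have hAb : PB A := ⟨C, p, hC, hb⟩
      have i3 : Integrable (fun x => |⟪A x (grad (Wi i) x), grad (Wi i) x⟫
        - ⟪A x (grad W x), grad W x⟫| * rho x) (N i) :=
        hs.integrable_PB ((((hA.clm_apply hgci).inner hgci).sub
          ((hA.clm_apply hgc).inner hgc)).abs).aestronglyMeasurable
          ((((hAb.clm_apply hi.pg_grad.b0).inner' hi.pg_grad.b0).sub
            ((hAb.clm_apply h.tube.pg_grad.b0).inner' h.tube.pg_grad.b0)).norm)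
      have i4 := hs.mom (p + p)
      have i5 : Integrable (fun x => 4 / δ * ((1 + ‖x‖) ^ 0 * ‖proj (T i x) (grad (Wi i) x)‖ ^ 2
          * rho x) + (2 * n + K ^ 2) * C / c ^ 2 * ((1 + ‖x‖) ^ p * Wi i x ^ 2 * rho x)
          + 1 * (|⟪A x (grad (Wi i) x), grad (Wi i) x⟫ - ⟪A x (grad W x), grad W x⟫| * rho x))
          (N i) := ((i1.const_mul (4 / δ)).add
        (i2.const_mul ((2 * n + K ^ 2) * C / c ^ 2))).add (i3.const_mul 1)
      have ie : Integrable (fun x => (δ * C ^ 2 * (1 + ‖x‖) ^ (p + p)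
          + (4 / δ * ((1 + ‖x‖) ^ 0 * ‖proj (T i x) (grad (Wi i) x)‖ ^ 2)
          + (2 * n + K ^ 2) * C / c ^ 2 * ((1 + ‖x‖) ^ p * Wi i x ^ 2)
          + |⟪A x (grad (Wi i) x), grad (Wi i) x⟫ - ⟪A x (grad W x), grad W x⟫|)) * rho x)
          (N i) := by
        refine ((i4.const_mul (δ * C ^ 2)).add i5).congr (Eventually.of_forall fun x => ?_)
        simp only [Pi.add_apply]; ring
      have hle := abs_int_le (f := fun x => tr ((proj (T i x)).comp (A x))
        - (tr (A x) - ⟪A x (grad W x), grad W x⟫)) ie (by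
        filter_upwards [hs.mc.dim] with x hx
        set P := ‖proj (T i x) (grad (Wi i) x)‖ with hP
        set a := ‖A x‖ with ha
        have ha0 : 0 ≤ a := norm_nonneg _
        have e1 : tr ((proj (T i x)).comp (A x)) - (tr (A x) - ⟪A x (grad W x), grad W x⟫)
            = (tr ((proj (T i x)).comp (A x))
                - (tr (A x) - ⟪A x (grad (Wi i) x), grad (Wi i) x⟫))
              - (⟪A x (grad (Wi i) x), grad (Wi i) x⟫ - ⟪A x (grad W x), grad W x⟫) := by ring
        rw [e1]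
        refine (abs_sub _ _).trans ?_
        have e2 : |tr ((proj (T i x)).comp (A x))
            - (tr (A x) - ⟪A x (grad (Wi i) x), grad (Wi i) x⟫)|
            ≤ δ * C ^ 2 * (1 + ‖x‖) ^ (p + p) + 4 / δ * ((1 + ‖x‖) ^ 0 * P ^ 2)
              + (2 * n + K ^ 2) * C / c ^ 2 * ((1 + ‖x‖) ^ p * Wi i x ^ 2) := by
          have hbx := hb x
          have ha2 : a ^ 2 ≤ C ^ 2 * (1 + ‖x‖) ^ (p + p) := by
            calc a ^ 2 ≤ (C * (1 + ‖x‖) ^ p) ^ 2 := by gcongr
              _ = _ := by ring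
          by_cases hx' : |Wi i x| < c
          · have h1 := hi.hess_est hE x (T i x) hx hx' (A x)
            refine h1.trans ?_
            have h2 : 4 * a * P ≤ δ * a ^ 2 + 4 / δ * P ^ 2 := by
              have h3 : 0 ≤ δ * (a - 2 / δ * P) ^ 2 := by positivity
              have h4 : δ * (a - 2 / δ * P) ^ 2 = δ * a ^ 2 - 4 * a * P + 4 / δ * P ^ 2 := by
                field_simp; ring
              linarith
            have h3 : 0 ≤ (2 * n + K ^ 2) * C / c ^ 2 * ((1 + ‖x‖) ^ p * Wi i x ^ 2) := by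
              positivity
            have h4 := mul_le_mul_of_nonneg_left ha2 hδ0.le
            rw [pow_zero, one_mul]
            linarith
          · push Not at hx'
            have h1 : |tr ((proj (T i x)).comp (A x))
                - (tr (A x) - ⟪A x (grad (Wi i) x), grad (Wi i) x⟫)| ≤ (2 * n + K ^ 2) * a := by
              have f1 := abs_tr_proj_comp_le (T i x) (A x)
              have f2 := abs_tr_le (A x)
              have f3 : |⟪A x (grad (Wi i) x), grad (Wi i) x⟫| ≤ a * K * K := by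
                refine (abs_real_inner_le_norm _ _).trans ?_
                have := ((A x).le_opNorm (grad (Wi i) x)).trans
                  (mul_le_mul_of_nonneg_left (hi.b1 x) (norm_nonneg _))
                have := hi.b1 x
                gcongr
              refine (abs_sub _ _).trans ?_
              refine (add_le_add_right (abs_sub _ _) _).trans ?_
              nlinarith
            have h2 : 1 ≤ Wi i x ^ 2 / c ^ 2 := by
              rw [one_le_div (by positivity), ← sq_abs (Wi i x)]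
              gcongr
            refine h1.trans ?_
            have h3 : (2 * n + K ^ 2) * a ≤ (2 * n + K ^ 2) * (C * (1 + ‖x‖) ^ p) *
                (Wi i x ^ 2 / c ^ 2) := by
              have h4 : (2 * n + K ^ 2) * a ≤ (2 * n + K ^ 2) * (C * (1 + ‖x‖) ^ p) := by gcongr
              have h5 : 0 ≤ (2 * n + K ^ 2) * (C * (1 + ‖x‖) ^ p) := by positivity
              nlinarith
            have h4 : (2 * n + K ^ 2) * (C * (1 + ‖x‖) ^ p) * (Wi i x ^ 2 / c ^ 2)
                = (2 * n + K ^ 2) * C / c ^ 2 * ((1 + ‖x‖) ^ p * Wi i x ^ 2) := by ring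
            have h5 : 0 ≤ δ * C ^ 2 * (1 + ‖x‖) ^ (p + p) := by positivity
            have h6 : 0 ≤ 4 / δ * ((1 + ‖x‖) ^ 0 * P ^ 2) := by positivity
            linarith
        linarith)
      refine hle.trans ?_
      have e : ∫ x, (δ * C ^ 2 * (1 + ‖x‖) ^ (p + p)
          + (4 / δ * ((1 + ‖x‖) ^ 0 * ‖proj (T i x) (grad (Wi i) x)‖ ^ 2)
          + (2 * n + K ^ 2) * C / c ^ 2 * ((1 + ‖x‖) ^ p * Wi i x ^ 2)
          + |⟪A x (grad (Wi i) x), grad (Wi i) x⟫ - ⟪A x (grad W x), grad W x⟫|)) * rho x ∂(N i)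
          = δ * C ^ 2 * ∫ x, (1 + ‖x‖) ^ (p + p) * rho x ∂(N i)
            + 1 * (4 / δ * ∫ x, (1 + ‖x‖) ^ 0 * ‖proj (T i x) (grad (Wi i) x)‖ ^ 2 * rho x ∂(N i)
              + (2 * n + K ^ 2) * C / c ^ 2 * ∫ x, (1 + ‖x‖) ^ p * Wi i x ^ 2 * rho x ∂(N i)
              + 1 * ∫ x, |⟪A x (grad (Wi i) x), grad (Wi i) x⟫
                - ⟪A x (grad W x), grad W x⟫| * rho x ∂(N i)) := by
        rw [← integral_comb i1 i2 i3, ← integral_comb2 i4 i5]
        congr 1; ext x; ring
      rw [e]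
      have k1 : δ * C ^ 2 * ∫ x, (1 + ‖x‖) ^ (p + p) * rho x ∂(N i) ≤ ε := by
        have k2 : ∫ x, (1 + ‖x‖) ^ (p + p) * rho x ∂(N i) ≤ |M| := hm.trans (le_abs_self _)
        calc δ * C ^ 2 * ∫ x, (1 + ‖x‖) ^ (p + p) * rho x ∂(N i) ≤ δ * C ^ 2 * |M| := by gcongr
          _ = ε * (C ^ 2 * |M| / (C ^ 2 * |M| + 1)) := by rw [hδ]; ring
          _ ≤ ε * 1 := by
              gcongr
              rw [div_le_one (by positivity)]; linarith
          _ = ε := mul_one _
      linarith
  have hsum := key.add hlim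
  rw [zero_add] at hsum
  refine hsum.congr' ?_
  filter_upwards [h.conv.sl] with i hs
  have j1 : Integrable (fun x => tr ((proj (T i x)).comp (A x)) * rho x) (N i) := by
    refine hs.integrable_dom (g := fun x => n * ‖A x‖) ?_ ((PB.const n).mul
      (PB.norm ⟨C, p, hC, hb⟩)) fun x => ?_
    · have h1 : AEStronglyMeasurable (fun x => (proj (T i x)).comp (A x)) (N i) :=
        (isBoundedBilinearMap_comp (𝕜 := ℝ) (E := E) (F := E)
          (G := E)).continuous.comp_aestronglyMeasurable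
          (hs.mc.Tmeas.prodMk hA.aestronglyMeasurable)
      exact (trL E).continuous.comp_aestronglyMeasurable h1
    · rw [abs_of_nonneg (by positivity : (0:ℝ) ≤ n * ‖A x‖)]
      exact abs_tr_proj_comp_le _ _
  have j2 : Integrable (fun x => (tr (A x) - ⟪A x (grad W x), grad W x⟫) * rho x) (N i) :=
    hs.integrable_PB hcont.aestronglyMeasurable hpb
  have j3 : Integrable (fun x => (tr ((proj (T i x)).comp (A x))
      - (tr (A x) - ⟪A x (grad W x), grad W x⟫)) * rho x) (N i) := by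
    refine (j1.sub j2).congr (Eventually.of_forall fun x => ?_)
    simp only [Pi.sub_apply]; ring
  rw [← integral_add j3 j2]
  congr 1; ext x; ring

end BU0

end Vale.Agent.P218.H923
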