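import Vale.Agent.P218.H923.HOneB

/-! Blow-up sequences of Gaussian slices: the limit, strong convergence in `L²`. -/

open MeasureTheory Set Filter Topology Metric
open scoped ENNReal NNReal RealInnerProductSpace

namespace Vale.Agent.P218.H923

open Vale.Agent.P214 (IntegralVarifold proj divAlong IsTestField)
open Vale.Agent.P218.H313

set_option linter.unusedSectionVars false
set_option linter.unusedVariables false

variable {E : Type*} [NormedAddCommGroup E] [InnerProductSpace ℝ E] [FiniteDimensional ℝ E]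
  [MeasurableSpace E] [BorelSpace E]
variable {ι : Type*} {m : ℕ} {U : Ultrafilter ι} {N : ι → Measure E}
  {T : ι → E → Submodule ℝ E} {H : ι → E → E} {κ : Measure E}
  {W : E → ℝ} {Wi : ι → E → ℝ} {c K : ℝ}

/-- integrals over balls -/
lemma int_ball {μ : Measure E} {F : E → ℝ} (hF : AEStronglyMeasurable F μ) (h0 : ∀ x, 0 ≤ F x)
    (hi : Integrable (fun x => F x * rho x) μ) (R : ℝ) :
    ∫ x in closedBall (0 : E) R, F x ∂μ ≤ Real.exp (R ^ 2 / 4) * ∫ x, F x * rho x ∂μ := by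
  have key : ∀ x ∈ closedBall (0 : E) R, F x ≤ Real.exp (R ^ 2 / 4) * (F x * rho x) := by
    intro x hx
    have hx' : ‖x‖ ≤ R := by simpa using hx
    have e1 : 1 ≤ Real.exp (R ^ 2 / 4) * rho x := by
      unfold rho
      rw [← Real.exp_add, ← Real.exp_zero]
      apply Real.exp_le_exp.2
      have : ‖x‖ ^ 2 ≤ R ^ 2 := by gcongr
      linarith
    have := h0 x
    nlinarith
  have h1 : ∫ x in closedBall (0 : E) R, F x ∂μ
      ≤ ∫ x in closedBall (0 : E) R, Real.exp (R ^ 2 / 4) * (F x * rho x) ∂μ := by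
    refine integral_mono_of_nonneg (Eventually.of_forall h0) (hi.const_mul _).integrableOn ?_
    exact (ae_restrict_iff' measurableSet_closedBall).2 (Eventually.of_forall key)
  refine h1.trans ((setIntegral_le_integral (hi.const_mul _)
    (Eventually.of_forall fun x => ?_)).trans (le_of_eq (integral_const_mul _ _)))
  have := h0 x
  have := rho_pos x
  simp only [Pi.zero_apply]
  positivity

lemma pt_aux {w z a b hh P Q D t : ℝ} (ha : 0 ≤ a) (hb : 0 ≤ b) (hh0 : 0 ≤ hh)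
    (e3 : hh ≤ a + 1 / 2 * b) (hD : D ≤ P + Q) (hD0 : 0 ≤ D) (ht : t = 1 + b ^ 2) :
    (w - z) ^ 2 + D ^ 2 + hh ^ 2 + (w - z) ^ 2 * hh
      ≤ (2 * w ^ 2 + 2 * P ^ 2 + 4 * a ^ 2) + ((1 + b) ^ 2 + 2 * (w ^ 2 * a ^ 2)
        + 2 * (w ^ 2 * t)) + (2 * z ^ 2 + 2 * Q ^ 2 + z ^ 4) := by
  have g1 : hh ^ 2 ≤ 2 * a ^ 2 + 1 / 2 * b ^ 2 := by
    have : hh ^ 2 ≤ (a + 1 / 2 * b) ^ 2 := by gcongr
    nlinarith [sq_nonneg (a - 1 / 2 * b)]
  have g2 : hh ≤ a ^ 2 + t := by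
    rw [ht]
    nlinarith [sq_nonneg (a - 1 / 2), sq_nonneg (b - 1 / 4)]
  have g3 : D ^ 2 ≤ 2 * P ^ 2 + 2 * Q ^ 2 := by
    have : D ^ 2 ≤ (P + Q) ^ 2 := by gcongr
    nlinarith [sq_nonneg (P - Q)]
  have g4 : (w - z) ^ 2 ≤ 2 * w ^ 2 + 2 * z ^ 2 := by nlinarith [sq_nonneg (w + z)]
  have g5 : (w - z) ^ 2 * hh ≤ (2 * w ^ 2 + 2 * z ^ 2) * hh := by gcongr
  have g6 : w ^ 2 * hh ≤ w ^ 2 * (a ^ 2 + t) := by gcongr
  have g7 : 2 * z ^ 2 * hh ≤ z ^ 4 + hh ^ 2 := by nlinarith [sq_nonneg (z ^ 2 - hh)]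
  have g8 : b ^ 2 ≤ (1 + b) ^ 2 := by nlinarith
  have g9 : (2 * w ^ 2 + 2 * z ^ 2) * hh = 2 * (w ^ 2 * hh) + 2 * z ^ 2 * hh := by ring
  have g10 : w ^ 2 * (a ^ 2 + t) = w ^ 2 * a ^ 2 + w ^ 2 * t := by ring
  linarith

/-- the bounds needed for strong compactness, for the difference of a normalised height and a
fixed function -/
lemma diff_local {μ : Measure E} {T : E → Submodule ℝ E} {H : E → E} {W v : E → ℝ}
    (hS : GSlice m μ T H) (hW : TubeD W c K) (hv : PG v) (hp : 0 < DD μ W 0)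
    {C₁ C₂ M₂ M₃ : ℝ} (h1 : DD μ W 1 ≤ C₂ * DD μ W 0) (h2 : TG μ T W 0 ≤ C₁ * DD μ W 0)
    (h3 : H313.dis μ T H ≤ DD μ W 0) (h3' : H313.dis μ T H ≤ 1)
    (h4 : ∫ x, (1 + ‖x‖) ^ 2 * rho x ∂μ ≤ M₂)
    (h5 : ∫ x, (2 * v x ^ 2 + 2 * ‖grad v x‖ ^ 2 + v x ^ 4) * rho x ∂μ ≤ M₃) (R : ℝ) :
    ∫ x in closedBall (0 : E) R, ((nh μ W x - v x) ^ 2
      + ‖proj (T x) (grad (fun y => nh μ W y - v y) x)‖ ^ 2
      + ‖H x‖ ^ 2 + (nh μ W x - v x) ^ 2 * ‖H x‖) ∂μ
      ≤ Real.exp (R ^ 2 / 4) * (2 + 2 * C₁ + 4 + M₂ + 2 * K ^ 2 + 2 * C₂ + M₃) := by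
  have hsp : 0 < √(DD μ W 0) := Real.sqrt_pos.2 hp
  have hgrad : ∀ x, grad (nh μ W) x = (√(DD μ W 0))⁻¹ • grad W x := fun x =>
    grad_const_mul _ (hW.diff x)
  have hsq : (√(DD μ W 0))⁻¹ ^ 2 = (DD μ W 0)⁻¹ := by rw [inv_pow, Real.sq_sqrt hp.le]
  have hnpg : PG (nh μ W) := hW.pg.const_mul _
  have hgv : Continuous (grad v) := continuous_grad hv.cd
  have hgvb : PB (grad v) := hv.b1.mono fun x => by rw [norm_grad]
  have hgn : Continuous (grad (nh μ W)) := continuous_grad hnpg.cd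
  have hgnb : PB (grad (nh μ W)) := hnpg.b1.mono fun x => by rw [norm_grad]
  have hgd : ∀ x, grad (fun y => nh μ W y - v y) x = grad (nh μ W) x - grad v x := by
    intro x
    refine grad_unique fun z => ?_
    have hd : HasFDerivAt (fun y => nh μ W y - v y)
      (fderiv ℝ (nh μ W) x - fderiv ℝ v x) x :=
      (hnpg.diff x).hasFDerivAt.sub (hv.diff x).hasFDerivAt
    rw [hd.fderiv, inner_sub_left, inner_grad, inner_grad]
    rfl
  simp only [hgd, map_sub]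
  have hPm : AEStronglyMeasurable (fun x => proj (T x) (grad (nh μ W) x)) μ :=
    hS.proj_apply_meas hgn.aestronglyMeasurable
  have hPv : AEStronglyMeasurable (fun x => proj (T x) (grad v x)) μ :=
    hS.proj_apply_meas hgv.aestronglyMeasurable
  have hHm : AEStronglyMeasurable H μ := hS.mc.meas
  have hFm : AEStronglyMeasurable (fun x => (nh μ W x - v x) ^ 2
      + ‖proj (T x) (grad (nh μ W) x) - proj (T x) (grad v x)‖ ^ 2
      + ‖H x‖ ^ 2 + (nh μ W x - v x) ^ 2 * ‖H x‖) μ := by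
    have hw : AEStronglyMeasurable (fun x => nh μ W x - v x) μ :=
      ((nh_cont hW).sub hv.cont).aestronglyMeasurable
    exact ((((hw.pow 2).add ((hPm.sub hPv).norm.pow 2)).add (hHm.norm.pow 2)).add
      ((hw.pow 2).mul hHm.norm))
  -- the six integrals
  have j1 : Integrable (fun x => nh μ W x ^ 2 * rho x) μ :=
    hS.integrable_PB ((nh_cont hW).pow 2).aestronglyMeasurable ((nh_pb hW).pow 2)
  have eP : (fun x => ‖proj (T x) (grad (nh μ W) x)‖ ^ 2 * rho x)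
      = fun x => (DD μ W 0)⁻¹ * (wt 0 x * ‖proj (T x) (grad W x)‖ ^ 2 * rho x) := by
    ext x
    rw [hgrad, map_smul, norm_smul, mul_pow, norm_inv, Real.norm_of_nonneg hsp.le, hsq]
    simp only [wt, pow_zero]; ring
  have j2 : Integrable (fun x => ‖proj (T x) (grad (nh μ W) x)‖ ^ 2 * rho x) μ := by
    rw [eP]; exact (hS.int_TG hW 0).const_mul _
  have j3 := hS.int_vel_sq
  have j4 := hS.mom 2
  have eV : (fun x => nh μ W x ^ 2 * ‖vel T H x‖ ^ 2 * rho x)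
      = fun x => (DD μ W 0)⁻¹ * (W x ^ 2 * wt 0 x * ‖vel T H x‖ ^ 2 * rho x) := by
    ext x
    simp only [nh, mul_pow, hsq, wt, pow_zero]; ring
  have j5 : Integrable (fun x => nh μ W x ^ 2 * ‖vel T H x‖ ^ 2 * rho x) μ := by
    rw [eV]; exact (hS.int_VW hW 0).const_mul _
  have j6 : Integrable (fun x => nh μ W x ^ 2 * wt 1 x * rho x) μ :=
    hS.integrable_PB (((nh_cont hW).pow 2).mul (PG.wt 1).cont).aestronglyMeasurable
      (((nh_pb hW).pow 2).mul (PG.wt 1).b0)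
  have j7 : Integrable (fun x => (2 * v x ^ 2 + 2 * ‖grad v x‖ ^ 2 + v x ^ 4) * rho x) μ :=
    hS.integrable_PB (((((hv.cont.pow 2).const_smul (2:ℝ)).add
      ((hgv.norm.pow 2).const_smul (2:ℝ)))).add (hv.cont.pow 4)).aestronglyMeasurable
      ((((hv.b0.pow 2).const_mul 2).add ((hgvb.norm.pow 2).const_mul 2)).add (hv.b0.pow 4))
  have f2 : ∫ x, ‖proj (T x) (grad (nh μ W) x)‖ ^ 2 * rho x ∂μ ≤ C₁ := by
    have : ∫ x, ‖proj (T x) (grad (nh μ W) x)‖ ^ 2 * rho x ∂μ = TG μ T W 0 / DD μ W 0 := by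
      rw [eP, integral_const_mul, div_eq_inv_mul]; rfl
    rw [this, div_le_iff₀ hp]; exact h2
  have f5 : ∫ x, nh μ W x ^ 2 * ‖vel T H x‖ ^ 2 * rho x ∂μ ≤ K ^ 2 := by
    have : ∫ x, nh μ W x ^ 2 * ‖vel T H x‖ ^ 2 * rho x ∂μ = VW μ T H W 0 / DD μ W 0 := by
      rw [eV, integral_const_mul, div_eq_inv_mul]; rfl
    rw [this, div_le_iff₀ hp]
    exact (hS.VW_zero_le hW).trans (mul_le_mul_of_nonneg_left h3 (sq_nonneg K))
  have f6 : ∫ x, nh μ W x ^ 2 * wt 1 x * rho x ∂μ ≤ C₂ := by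
    have : ∫ x, nh μ W x ^ 2 * wt 1 x * rho x ∂μ = DD μ W 1 / DD μ W 0 := nh_int hp (wt 1)
    rw [this, div_le_iff₀ hp]; exact h1
  have f1 := nh_norm hp
  have k1 : Integrable (fun x => 2 * (nh μ W x ^ 2 * rho x)
      + 2 * (‖proj (T x) (grad (nh μ W) x)‖ ^ 2 * rho x)
      + 4 * (‖vel T H x‖ ^ 2 * rho x)) μ :=
    ((j1.const_mul 2).add (j2.const_mul 2)).add (j3.const_mul 4)
  have k2 : Integrable (fun x => 1 * ((1 + ‖x‖) ^ 2 * rho x)
      + 2 * (nh μ W x ^ 2 * ‖vel T H x‖ ^ 2 * rho x)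
      + 2 * (nh μ W x ^ 2 * wt 1 x * rho x)) μ :=
    ((j4.const_mul 1).add (j5.const_mul 2)).add (j6.const_mul 2)
  have e1 := integral_comb j1 j2 j3 2 2 4
  have e2 := integral_comb j4 j5 j6 1 2 2
  have e3 := integral_comb k1 k2 j7 1 1 1
  have hpt : ∀ x, (nh μ W x - v x) ^ 2
      + ‖proj (T x) (grad (nh μ W) x) - proj (T x) (grad v x)‖ ^ 2
      + ‖H x‖ ^ 2 + (nh μ W x - v x) ^ 2 * ‖H x‖
      ≤ (2 * nh μ W x ^ 2 + 2 * ‖proj (T x) (grad (nh μ W) x)‖ ^ 2 + 4 * ‖vel T H x‖ ^ 2)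
        + ((1 + ‖x‖) ^ 2 + 2 * (nh μ W x ^ 2 * ‖vel T H x‖ ^ 2) + 2 * (nh μ W x ^ 2 * wt 1 x))
        + (2 * v x ^ 2 + 2 * ‖grad v x‖ ^ 2 + v x ^ 4) := by
    intro x
    have e3 := norm_H_le (T := T) (H := H) x
    refine pt_aux (norm_nonneg _) (norm_nonneg _) (norm_nonneg _) e3
      ((norm_sub_le _ _).trans (add_le_add_right (norm_proj_apply_le (T x) (grad v x)) _))
      (norm_nonneg _) (by simp [wt])
  have hFi : Integrable (fun x => ((nh μ W x - v x) ^ 2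
      + ‖proj (T x) (grad (nh μ W) x) - proj (T x) (grad v x)‖ ^ 2
      + ‖H x‖ ^ 2 + (nh μ W x - v x) ^ 2 * ‖H x‖) * rho x) μ := by
    refine ((k1.add k2).add j7).mono' (hFm.mul continuous_rho.aestronglyMeasurable)
      (Eventually.of_forall fun x => ?_)
    rw [norm_mul, Real.norm_of_nonneg (rho_pos x).le, Real.norm_of_nonneg (by positivity)]
    refine (mul_le_mul_of_nonneg_right (hpt x) (rho_pos x).le).trans (le_of_eq ?_)
    simp only [Pi.add_apply]; ring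
  refine (int_ball hFm (fun x => by positivity) hFi R).trans ?_
  refine mul_le_mul_of_nonneg_left ?_ (Real.exp_pos _).le
  have hle : ∫ x, ((nh μ W x - v x) ^ 2
      + ‖proj (T x) (grad (nh μ W) x) - proj (T x) (grad v x)‖ ^ 2
      + ‖H x‖ ^ 2 + (nh μ W x - v x) ^ 2 * ‖H x‖) * rho x ∂μ
      ≤ ∫ x, (1 * (2 * (nh μ W x ^ 2 * rho x)
      + 2 * (‖proj (T x) (grad (nh μ W) x)‖ ^ 2 * rho x)
      + 4 * (‖vel T H x‖ ^ 2 * rho x)) + 1 * (1 * ((1 + ‖x‖) ^ 2 * rho x)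
      + 2 * (nh μ W x ^ 2 * ‖vel T H x‖ ^ 2 * rho x)
      + 2 * (nh μ W x ^ 2 * wt 1 x * rho x))
      + 1 * ((2 * v x ^ 2 + 2 * ‖grad v x‖ ^ 2 + v x ^ 4) * rho x)) ∂μ := by
    refine integral_mono hFi (((k1.const_mul 1).add (k2.const_mul 1)).add (j7.const_mul 1))
      fun x => ?_
    refine (mul_le_mul_of_nonneg_right (hpt x) (rho_pos x).le).trans (le_of_eq ?_)
    ring
  rw [e3, e1, e2] at hle
  have hdd : ∫ x, ‖vel T H x‖ ^ 2 * rho x ∂μ ≤ 1 := h3'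
  rw [f1] at hle
  linarith

namespace BU

variable (h : BU U m N T H κ W Wi c K)
include h

/-- **strong convergence in `L²`** -/
theorem strong (hm : 0 < m) (hE : Module.finrank ℝ E = m + 1) {v : E → ℝ} (hv : PG v)
    (hlim : ∀ f : E → ℝ, Continuous f → PB f →
      Tendsto (fun i => ∫ x, nh (N i) (Wi i) x * f x * rho x ∂(N i)) U
        (𝓝 (∫ x, v x * f x * rho x ∂κ))) :
    Tendsto (fun i => ∫ x, (nh (N i) (Wi i) x - v x) ^ 2 * rho x ∂(N i)) U (𝓝 0) := by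
  have := h.conv.lf
  have hK := h.tube.K_nonneg
  obtain ⟨M, hM, hb⟩ := h.bounds hE
  have hdis1 : ∀ᶠ i in (U : Filter ι), H313.dis (N i) (T i) (H i) ≤ 1 :=
    h.toBU0.d0.eventually_le_const (by norm_num)
  obtain ⟨M₂, hM₂⟩ := h.conv.mom 2
  have hgv : Continuous (grad v) := continuous_grad hv.cd
  have hgvb : PB (grad v) := hv.b1.mono fun x => by rw [norm_grad]
  have hGc : Continuous (fun x => 2 * v x ^ 2 + 2 * ‖grad v x‖ ^ 2 + v x ^ 4) :=
    (((hv.cont.pow 2).const_smul (2:ℝ)).add ((hgv.norm.pow 2).const_smul (2:ℝ))).add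
      (hv.cont.pow 4)
  have hGb : PB (fun x => 2 * v x ^ 2 + 2 * ‖grad v x‖ ^ 2 + v x ^ 4) :=
    (((hv.b0.pow 2).const_mul 2).add ((hgvb.norm.pow 2).const_mul 2)).add (hv.b0.pow 4)
  have hM₃ := (h.conv.lim_PB hGc hGb).eventually_le_const
    (lt_add_one (∫ x, (2 * v x ^ 2 + 2 * ‖grad v x‖ ^ 2 + v x ^ 4) * rho x ∂κ))
  have hbd : ∀ R : ℝ, ∃ C : ℝ, ∀ᶠ i in (U : Filter ι), ∫ x in closedBall (0 : E) R,
      ((nh (N i) (Wi i) x - v x) ^ 2
        + ‖proj (T i x) (grad (fun y => nh (N i) (Wi i) y - v y) x)‖ ^ 2 + ‖H i x‖ ^ 2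
        + (nh (N i) (Wi i) x - v x) ^ 2 * ‖H i x‖) ∂(N i) ≤ C := by
    intro R
    refine ⟨Real.exp (R ^ 2 / 4) * (2 + 2 * M + 4 + M₂ + 2 * K ^ 2 + 2 * M
      + (∫ x, (2 * v x ^ 2 + 2 * ‖grad v x‖ ^ 2 + v x ^ 4) * rho x ∂κ + 1)), ?_⟩
    filter_upwards [h.tubei, h.conv.sl, h.pos, hdis1, hb, hM₂, hM₃] with i hi hs hp hd c1 c2 c3
    exact diff_local hs hi hv hp c1.1 c1.2.1 c1.2.2 hd c2 c3 R
  have hwc : ∀ᶠ i in (U : Filter ι), ContDiff ℝ 1 (fun x => nh (N i) (Wi i) x - v x) :=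
    h.tubei.mono fun i hi => (contDiff_const.mul hi.pg.cd).sub hv.cd
  have hz : ∀ ζ : E → ℝ, Continuous ζ → HasCompactSupport ζ →
      Tendsto (fun i => ∫ x, ζ x * (nh (N i) (Wi i) x - v x) ∂(N i)) U (𝓝 0) := by
    intro ζ hζ hζc
    have hr : Continuous (fun x : E => (rho x)⁻¹) := continuous_rho.inv₀ fun x => (rho_pos x).ne'
    have hfc : Continuous (fun x => ζ x * (rho x)⁻¹) := hζ.mul hr
    have hfs : HasCompactSupport (fun x => ζ x * (rho x)⁻¹) := hζc.mul_right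
    have hfb : PB (fun x => ζ x * (rho x)⁻¹) := PB.of_compact hfc hfs
    have h1 := hlim _ hfc hfb
    have h2 := h.conv.lim_PB (f := fun x => v x * (ζ x * (rho x)⁻¹)) (hv.cont.mul hfc)
      (hv.b0.mul hfb)
    have h3 := h1.sub h2
    rw [sub_self] at h3
    refine h3.congr' ?_
    filter_upwards [h.tubei, h.conv.sl] with i hi hs
    have j1 : Integrable (fun x => nh (N i) (Wi i) x * (ζ x * (rho x)⁻¹) * rho x) (N i) :=
      hs.integrable_PB ((nh_cont hi).mul hfc).aestronglyMeasurable ((nh_pb hi).mul hfb)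
    have j2 : Integrable (fun x => v x * (ζ x * (rho x)⁻¹) * rho x) (N i) :=
      hs.integrable_PB (hv.cont.mul hfc).aestronglyMeasurable (hv.b0.mul hfb)
    rw [← integral_sub j1 j2]
    congr 1; ext x
    have := (rho_pos x).ne'
    field_simp
  have hstr := strong_compactness U hm (h.conv.sl.mono fun i hi => hi.toSlice) h.conv.lim
    h.conv.ratio h.dens hwc hbd hz
  -- tightness
  have hwtc : Continuous (fun x => wt 1 x * v x ^ 2) := (PG.wt 1).cont.mul (hv.cont.pow 2)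
  have hwtb : PB (fun x => wt 1 x * v x ^ 2) := (PG.wt 1).b0.mul (hv.b0.pow 2)
  set M₄ := ∫ x, (wt 1 x * v x ^ 2) * rho x ∂κ + 1 with hM₄
  have hM₄' := (h.conv.lim_PB hwtc hwtb).eventually_le_const (lt_add_one _)
  have hM₄0 : 0 ≤ M₄ := by
    have : 0 ≤ ∫ x, (wt 1 x * v x ^ 2) * rho x ∂κ := integral_nonneg fun x => by
      have := wt_pos 1 x
      have := rho_pos x
      simp only [Pi.zero_apply]
      positivity
    linarith
  refine small_of fun ε hε => ?_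
  obtain ⟨n, hn⟩ := exists_nat_gt (2 * (M + M₄) / ε)
  refine ⟨fun i => ∫ x, cut n x * rho x * (nh (N i) (Wi i) x - v x) ^ 2 ∂(N i),
    hstr (fun x => cut n x * rho x) ((continuous_cut n).mul continuous_rho)
      (cut_compact n).mul_right, ?_⟩
  filter_upwards [h.tubei, h.conv.sl, h.pos, hb, hM₄'] with i hi hs hp c1 c2
  have hwcn : Continuous (fun x => nh (N i) (Wi i) x - v x) := (nh_cont hi).sub hv.cont
  have hwb : PB (fun x => nh (N i) (Wi i) x - v x) := (nh_pb hi).sub hv.b0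
  have i1 : Integrable (fun x => (nh (N i) (Wi i) x - v x) ^ 2 * rho x) (N i) :=
    hs.integrable_PB (hwcn.pow 2).aestronglyMeasurable (hwb.pow 2)
  have i2 : Integrable (fun x => nh (N i) (Wi i) x ^ 2 * wt 1 x * rho x) (N i) :=
    hs.integrable_PB (((nh_cont hi).pow 2).mul (PG.wt 1).cont).aestronglyMeasurable
      (((nh_pb hi).pow 2).mul (PG.wt 1).b0)
  have i3 : Integrable (fun x => wt 1 x * v x ^ 2 * rho x) (N i) :=
    hs.integrable_PB hwtc.aestronglyMeasurable hwtb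
  have i4 : Integrable (fun x => cut n x * rho x * (nh (N i) (Wi i) x - v x) ^ 2) (N i) := by
    refine i1.mono' (((continuous_cut n).mul continuous_rho).mul
      (hwcn.pow 2)).aestronglyMeasurable (Eventually.of_forall fun x => ?_)
    have h1 := cut_nonneg n x
    have h2 := cut_le_one n x
    have h3 := rho_pos x
    rw [Real.norm_of_nonneg (by positivity)]
    have h4 : 0 ≤ (nh (N i) (Wi i) x - v x) ^ 2 * rho x := by positivity
    calc cut n x * rho x * (nh (N i) (Wi i) x - v x) ^ 2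
        = cut n x * ((nh (N i) (Wi i) x - v x) ^ 2 * rho x) := by ring
      _ ≤ _ := mul_le_of_le_one_left h4 h2
  rw [abs_of_nonneg (integral_nonneg fun x => mul_nonneg (sq_nonneg _) (rho_pos x).le)]
  have key : ∫ x, (nh (N i) (Wi i) x - v x) ^ 2 * rho x ∂(N i)
      ≤ ∫ x, (2 / ((n : ℝ) + 1) ^ 2 * (nh (N i) (Wi i) x ^ 2 * wt 1 x * rho x)
        + 2 / ((n : ℝ) + 1) ^ 2 * (wt 1 x * v x ^ 2 * rho x)
        + 1 * (cut n x * rho x * (nh (N i) (Wi i) x - v x) ^ 2)) ∂(N i) := by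
    refine integral_mono i1 (((i2.const_mul _).add (i3.const_mul _)).add (i4.const_mul _))
      fun x => ?_
    have h1 : 1 - cut n x ≤ wt 1 x / ((n : ℝ) + 1) ^ 2 := by
      by_cases hx : ‖x‖ ≤ (n : ℝ) + 1
      · have : cut n x = 1 := H552.chi_eq_one (cut_pos_arg n) hx
        rw [this, sub_self]
        have := wt_pos 1 x
        positivity
      · push Not at hx
        have h2 : 1 ≤ wt 1 x / ((n : ℝ) + 1) ^ 2 := by
          rw [le_div_iff₀ (by positivity)]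
          simp only [wt, pow_one, one_mul]
          have h3 := cut_pos_arg n
          nlinarith
        have h3 := cut_nonneg n x
        linarith
    have h2 : (nh (N i) (Wi i) x - v x) ^ 2 ≤ 2 * nh (N i) (Wi i) x ^ 2 + 2 * v x ^ 2 := by
      nlinarith [sq_nonneg (nh (N i) (Wi i) x + v x)]
    have h3 := rho_pos x
    have h4 := wt_pos 1 x
    have h5 : (1 - cut n x) * (nh (N i) (Wi i) x - v x) ^ 2
        ≤ wt 1 x / ((n : ℝ) + 1) ^ 2 * (2 * nh (N i) (Wi i) x ^ 2 + 2 * v x ^ 2) := by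
      have h6 : (1 - cut n x) * (nh (N i) (Wi i) x - v x) ^ 2
        ≤ wt 1 x / ((n : ℝ) + 1) ^ 2 * (nh (N i) (Wi i) x - v x) ^ 2 := by gcongr
      have h7 : wt 1 x / ((n : ℝ) + 1) ^ 2 * (nh (N i) (Wi i) x - v x) ^ 2
        ≤ wt 1 x / ((n : ℝ) + 1) ^ 2 * (2 * nh (N i) (Wi i) x ^ 2 + 2 * v x ^ 2) := by gcongr
      exact h6.trans h7
    have h6 := mul_le_mul_of_nonneg_right h5 h3.le
    calc (nh (N i) (Wi i) x - v x) ^ 2 * rho x
        = (1 - cut n x) * (nh (N i) (Wi i) x - v x) ^ 2 * rho x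
          + cut n x * rho x * (nh (N i) (Wi i) x - v x) ^ 2 := by ring
      _ ≤ wt 1 x / ((n : ℝ) + 1) ^ 2 * (2 * nh (N i) (Wi i) x ^ 2 + 2 * v x ^ 2) * rho x
          + cut n x * rho x * (nh (N i) (Wi i) x - v x) ^ 2 := by linarith
      _ = _ := by ring
  rw [integral_comb i2 i3 i4] at key
  have f6 : ∫ x, nh (N i) (Wi i) x ^ 2 * wt 1 x * rho x ∂(N i) ≤ M := by
    rw [nh_int hp (wt 1), div_le_iff₀ hp]; exact c1.1
  have f7 : 2 / ((n : ℝ) + 1) ^ 2 * (M + M₄) ≤ ε := by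
    rw [div_mul_eq_mul_div, div_le_iff₀ (by positivity)]
    rw [div_lt_iff₀ hε] at hn
    have : (n : ℝ) ≤ ((n : ℝ) + 1) ^ 2 := by nlinarith [(Nat.cast_nonneg n : (0 : ℝ) ≤ n)]
    nlinarith
  have f8 : 2 / ((n : ℝ) + 1) ^ 2 * ∫ x, nh (N i) (Wi i) x ^ 2 * wt 1 x * rho x ∂(N i)
      + 2 / ((n : ℝ) + 1) ^ 2 * ∫ x, wt 1 x * v x ^ 2 * rho x ∂(N i)
      ≤ 2 / ((n : ℝ) + 1) ^ 2 * (M + M₄) := by
    rw [mul_add]
    have : ∫ x, wt 1 x * v x ^ 2 * rho x ∂(N i) ≤ M₄ := c2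
    gcongr
  linarith

end BU

end Vale.Agent.P218.H923
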