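import Vale.Agent.P218.H923.HOneC

/-! Blow-up sequences of Gaussian slices: stationarity of the limit, the energy identity, strong
convergence of the tangential gradients. -/

open MeasureTheory Set Filter Topology Metric
open scoped ENNReal NNReal RealInnerProductSpace

namespace Vale.Agent.P218.H923

open Vale.Agent.P214 (IntegralVarifold proj divAlong IsTestField)
open Vale.Agent.P218.H313

set_option linter.unusedSectionVars false
set_option linter.unusedVariables false

variable {E : Type*} [NormedAddCommGroup E] [InnerProductSpace ℝ E] [FiniteDimensional ℝ E]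
  [MeasurableSpace E] [BorelSpace E]
variable {ι : Type*} {m : ℕ} {U : Ultrafilter ι} {N : ι → Measure E}
  {T : ι → E → Submodule ℝ E} {H : ι → E → E} {κ : Measure E}
  {W : E → ℝ} {Wi : ι → E → ℝ} {c K : ℝ}

/-- Cauchy-Schwarz for the velocity -/
lemma abs_int_vel_le {μ : Measure E} {T : E → Submodule ℝ E} {H : E → E} (hS : GSlice m μ T H)
    {X : E → E} (hX : Continuous X) (hb : PB X) :
    |∫ x, ⟪X x, vel T H x⟫ * rho x ∂μ| ≤ √(∫ x, ‖X x‖ ^ 2 * rho x ∂μ) * √(dis μ T H) := by
  have i1 : Integrable (fun x => ‖X x‖ ^ 2 * rho x) μ :=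
    hS.integrable_PB (hX.norm.pow 2).aestronglyMeasurable (hb.norm.pow 2)
  have i2 := hS.int_vel_sq
  have i3 : Integrable (fun x => ‖X x‖ * ‖vel T H x‖ * rho x) μ := by
    obtain ⟨C, p, hC, h⟩ := hb
    refine hS.integrable (hX.norm.aestronglyMeasurable.mul hS.vel_meas.norm) (C := C) (p := p)
      (Eventually.of_forall fun x => ?_)
    rw [abs_of_nonneg (by positivity)]
    have h1 := h x
    have h2 : ‖vel T H x‖ ≤ 1 + ‖vel T H x‖ ^ 2 := by
      nlinarith [sq_nonneg (‖vel T H x‖ - 1), norm_nonneg (vel T H x)]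
    have h3 : 0 ≤ C * (1 + ‖x‖) ^ p := by positivity
    exact mul_le_mul h1 h2 (norm_nonneg _) h3
  have h1 := abs_int_le (f := fun x => ⟪X x, vel T H x⟫) i3
    (Eventually.of_forall fun x => abs_real_inner_le_norm _ _)
  have h2 := abs_integral_mul_le (fun x => (rho_pos x).le) i1 i2 i3
  exact h1.trans ((le_abs_self _).trans h2)

/-- the remainder in the linearised shrinker equation, everywhere -/
lemma exists_rem (hE : Module.finrank ℝ E = m + 1) (hc : 0 < c) (hK : 0 ≤ K) :
    ∃ C : ℝ, 0 ≤ C ∧ ∀ W : E → ℝ, TubeD W c K → ∀ (x : E) (T : Submodule ℝ E),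
      Module.finrank ℝ T = m →
      |tr ((proj T).comp (fderiv ℝ (grad W) x)) - 1 / 2 * ⟪x, grad W x⟫ + (qq W x + 1 / 2) * W x|
        ≤ C * (W x ^ 2 + ‖proj T (grad W x)‖ ^ 2) := by
  set n : ℝ := (Module.finrank ℝ E : ℝ) with hn
  have hn0 : 0 ≤ n := by rw [hn]; positivity
  refine ⟨K + (n * K + K + (n * K ^ 2 + 1) * K) / c ^ 2, by positivity, fun W hW x T hT => ?_⟩
  have hq : |qq W x| ≤ n * K ^ 2 := hW.q_le x
  by_cases hx : |W x| < c
  · refine (hW.trace_est hE x T hT hx).trans ?_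
    have : 0 ≤ (n * K + K + (n * K ^ 2 + 1) * K) / c ^ 2 := by positivity
    gcongr
    linarith
  · push Not at hx
    have f1 := abs_tr_proj_comp_le T (fderiv ℝ (grad W) x)
    have f2 := hW.b2 x
    have f3 := hW.bx x
    have f4 := hW.b0 x
    have f5 : |tr ((proj T).comp (fderiv ℝ (grad W) x))| ≤ n * K := f1.trans (by gcongr)
    have f6 : |(qq W x + 1 / 2) * W x| ≤ (n * K ^ 2 + 1) * K := by
      rw [abs_mul]
      have : |qq W x + 1 / 2| ≤ n * K ^ 2 + 1 := by
        refine (abs_add_le _ _).trans ?_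
        rw [abs_of_pos (by norm_num : (0 : ℝ) < 1 / 2)]
        linarith
      gcongr
    have f7 : |1 / 2 * ⟪x, grad W x⟫| ≤ K := by
      rw [abs_mul, abs_of_pos (by norm_num : (0 : ℝ) < 1 / 2)]
      have := abs_nonneg ⟪x, grad W x⟫
      linarith
    have f8 : |tr ((proj T).comp (fderiv ℝ (grad W) x)) - 1 / 2 * ⟪x, grad W x⟫
        + (qq W x + 1 / 2) * W x| ≤ n * K + K + (n * K ^ 2 + 1) * K := by
      refine (abs_add_le _ _).trans ?_
      have := abs_sub (tr ((proj T).comp (fderiv ℝ (grad W) x))) (1 / 2 * ⟪x, grad W x⟫)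
      linarith
    have h2 : 1 ≤ W x ^ 2 / c ^ 2 := by
      rw [one_le_div (by positivity), ← sq_abs (W x)]
      gcongr
    have h3 : 0 ≤ n * K + K + (n * K ^ 2 + 1) * K := by positivity
    calc _ ≤ n * K + K + (n * K ^ 2 + 1) * K := f8
      _ ≤ (n * K + K + (n * K ^ 2 + 1) * K) * (W x ^ 2 / c ^ 2) := by nlinarith
      _ = (n * K + K + (n * K ^ 2 + 1) * K) / c ^ 2 * W x ^ 2 := by ring
      _ ≤ (K + (n * K + K + (n * K ^ 2 + 1) * K) / c ^ 2) * (W x ^ 2
          + ‖proj T (grad W x)‖ ^ 2) := by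
        have h4 : 0 ≤ (n * K + K + (n * K ^ 2 + 1) * K) / c ^ 2 := by positivity
        have h5 := sq_nonneg ‖proj T (grad W x)‖
        have h6 := sq_nonneg (W x)
        have h7 := mul_nonneg hK h6
        have h8 := mul_nonneg hK h5
        have h9 := mul_nonneg h4 h5
        nlinarith

namespace BU0

variable (h : BU0 U m N T H κ W Wi c K)
include h

/-- **the limit is stationary** -/
theorem stationary (hE : Module.finrank ℝ E = m + 1) {X : E → E} (hX : ContDiff ℝ 1 X)
    (h0 : PB X) (h1 : PB (fderiv ℝ X)) :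
    ∫ x, (tr (fderiv ℝ X x) - ⟪fderiv ℝ X x (grad W x), grad W x⟫ - 1 / 2 * ⟪x, X x⟫) * rho x ∂κ
      = 0 := by
  have hXc : Continuous (fderiv ℝ X) := hX.continuous_fderiv (by norm_num)
  have hgc : Continuous (grad W) := h.tube.pg_grad.cont
  have h2 := h.tr_lim hE hXc h1
  have hxc : Continuous (fun x : E => 1 / 2 * ⟪x, X x⟫) :=
    continuous_const.mul (continuous_id.inner hX.continuous)
  have hxb : PB (fun x : E => 1 / 2 * ⟪x, X x⟫) := (PB.id'.inner' h0).const_mul _
  have h3 := h.conv.lim_PB hxc hxb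
  have h4 := h2.sub h3
  have h5 : Tendsto (fun i => √(∫ x, ‖X x‖ ^ 2 * rho x ∂(N i)) * √(dis (N i) (T i) (H i))) U
      (𝓝 0) := by
    have e1 := (h.conv.lim_PB (hX.continuous.norm.pow 2) (h0.norm.pow 2)).sqrt
    have e2 := h.d0.sqrt
    rw [Real.sqrt_zero] at e2
    have := e1.mul e2
    rwa [mul_zero] at this
  have h6 : Tendsto (fun i => ∫ x, tr ((proj (T i x)).comp (fderiv ℝ X x)) * rho x ∂(N i)
      - ∫ x, 1 / 2 * ⟪x, X x⟫ * rho x ∂(N i)) U (𝓝 0) := by
    refine squeeze_zero_norm' ?_ h5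
    filter_upwards [h.conv.sl] with i hs
    rw [Real.norm_eq_abs]
    refine le_trans (le_of_eq ?_) (abs_int_vel_le hs hX.continuous h0)
    rw [← abs_neg (∫ x, ⟪X x, vel (T i) (H i) x⟫ * rho x ∂(N i)), ← hs.wfv hX h0 h1]
    congr 1
    have j1 : Integrable (fun x => tr ((proj (T i x)).comp (fderiv ℝ X x)) * rho x) (N i) :=
      hs.integrable_div hX h1
    have j2 : Integrable (fun x => 1 / 2 * ⟪x, X x⟫ * rho x) (N i) :=
      hs.integrable_PB hxc.aestronglyMeasurable hxb
    rw [← integral_sub j1 j2]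
    congr 1; ext x
    rw [divAlong_eq]; ring
  have h7 := tendsto_nhds_unique h4 h6
  rw [← h7]
  have htrb : PB (fun x => tr (fderiv ℝ X x)) :=
    PB.of_norm_mul (PB.const (Module.finrank ℝ E : ℝ)) h1 fun x => by
      rw [Real.norm_eq_abs, Real.norm_of_nonneg (by positivity)]
      exact abs_tr_le _
  have hcont : Continuous (fun x => tr (fderiv ℝ X x)
      - ⟪fderiv ℝ X x (grad W x), grad W x⟫) :=
    ((trL E).continuous.comp hXc).sub ((hXc.clm_apply hgc).inner hgc)
  have hpb : PB (fun x => tr (fderiv ℝ X x) - ⟪fderiv ℝ X x (grad W x), grad W x⟫) :=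
    htrb.sub ((h1.clm_apply h.tube.pg_grad.b0).inner' h.tube.pg_grad.b0)
  have k1 : Integrable (fun x => (tr (fderiv ℝ X x)
      - ⟪fderiv ℝ X x (grad W x), grad W x⟫) * rho x) κ :=
    h.conv.integrable_lim hcont.measurable.aestronglyMeasurable hpb
  have k2 : Integrable (fun x => 1 / 2 * ⟪x, X x⟫ * rho x) κ :=
    h.conv.integrable_lim hxc.measurable.aestronglyMeasurable hxb
  rw [← integral_sub k1 k2]
  congr 1; ext x; ring

/-- the energy identity for Jacobi fields -/
theorem energy (hE : Module.finrank ℝ E = m + 1) {v : E → ℝ} (hv : ContDiff ℝ 2 v)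
    (hv0 : PB v) (hv1 : PB (grad v)) (hv2 : PB (fderiv ℝ (grad v)))
    (hvJ : ∀ᵐ x ∂κ, jac W v x = 0) :
    ∫ x, (‖grad v x‖ ^ 2 - ⟪grad v x, grad W x⟫ ^ 2) * rho x ∂κ
      = ∫ x, v x * (v x * (qq W x + 1 / 2)) * rho x ∂κ := by
  have hgv : ContDiff ℝ 1 (grad v) := contDiff_grad_one hv
  have hvpg : PG v := ⟨hv.of_le (by norm_num), hv0, hv1.mono fun x => by rw [norm_grad]⟩
  have hgpg : PG (grad v) := ⟨hgv, hv1, hv2⟩
  have hXpg : PG (fun x => v x • grad v x) := hvpg.smul hgpg
  have h1 := h.stationary hE hXpg.cd hXpg.b0 hXpg.b1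
  have hD : ∀ x, fderiv ℝ (fun x => v x • grad v x) x
      = v x • fderiv ℝ (grad v) x + (fderiv ℝ v x).smulRight (grad v x) := fun x =>
    ((hvpg.diff x).hasFDerivAt.smul (hgpg.diff x).hasFDerivAt).fderiv
  have hpt : ∀ x, tr (fderiv ℝ (fun x => v x • grad v x) x)
      - ⟪fderiv ℝ (fun x => v x • grad v x) x (grad W x), grad W x⟫
        - 1 / 2 * ⟪x, v x • grad v x⟫
      = (‖grad v x‖ ^ 2 - ⟪grad v x, grad W x⟫ ^ 2) + v x * jac W v x
        - v x * (v x * (qq W x + 1 / 2)) := by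
    intro x
    have e1 : tr ((fderiv ℝ v x).smulRight (grad v x)) = ‖grad v x‖ ^ 2 := by
      have := tr_comp_smulRight (ContinuousLinearMap.id ℝ E) (fderiv ℝ v x) (grad v x)
      rw [ContinuousLinearMap.id_comp] at this
      rw [this, ← inner_grad, ContinuousLinearMap.id_apply, real_inner_self_eq_norm_sq]
    rw [hD, tr_add, tr_smul, e1]
    simp only [_root_.add_apply, _root_.smul_apply,
      ContinuousLinearMap.smulRight_apply, inner_add_left, real_inner_smul_left,
      real_inner_smul_right, ← inner_grad]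
    unfold jac qq
    ring
  have e2 : ∫ x, (tr (fderiv ℝ (fun x => v x • grad v x) x)
      - ⟪fderiv ℝ (fun x => v x • grad v x) x (grad W x), grad W x⟫
        - 1 / 2 * ⟪x, v x • grad v x⟫) * rho x ∂κ
      = ∫ x, ((‖grad v x‖ ^ 2 - ⟪grad v x, grad W x⟫ ^ 2) * rho x
        - v x * (v x * (qq W x + 1 / 2)) * rho x) ∂κ := by
    apply integral_congr_ae
    filter_upwards [hvJ] with x hx
    rw [hpt, hx]; ring
  have hgc : Continuous (grad W) := h.tube.pg_grad.cont
  have hqc : Continuous (qq W) := by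
    have h2 : Continuous (fun x => fderiv ℝ (grad W) x) :=
      h.tube.grad_cd.continuous_fderiv (by norm_num)
    exact (trL E).continuous.comp (h2.clm_comp h2)
  have hqb : PB (qq W) := PB.of_bound fun x => by
    rw [Real.norm_eq_abs]; exact h.tube.q_le x
  have k1 : Integrable (fun x => (‖grad v x‖ ^ 2 - ⟪grad v x, grad W x⟫ ^ 2) * rho x) κ :=
    h.conv.integrable_lim ((hgv.continuous.norm.pow 2).sub
      ((hgv.continuous.inner hgc).pow 2)).measurable.aestronglyMeasurable
      ((hv1.norm.pow 2).sub ((hv1.inner' h.tube.pg_grad.b0).pow 2))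
  have k2 : Integrable (fun x => v x * (v x * (qq W x + 1 / 2)) * rho x) κ :=
    h.conv.integrable_lim (hv.continuous.mul (hv.continuous.mul
      (hqc.add continuous_const))).measurable.aestronglyMeasurable
      (hv0.mul (hv0.mul (hqb.add (PB.const _))))
  rw [e2, integral_sub k1 k2] at h1
  linarith

end BU0

end Vale.Agent.P218.H923
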