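import Vale.Agent.P218.H923.HOneD

/-! Blow-up sequences of Gaussian slices: strong convergence of the tangential gradients. -/

open MeasureTheory Set Filter Topology Metric
open scoped ENNReal NNReal RealInnerProductSpace

namespace Vale.Agent.P218.H923

open Vale.Agent.P214 (IntegralVarifold proj divAlong IsTestField)
open Vale.Agent.P218.H313

set_option linter.unusedSectionVars false
set_option linter.unusedVariables false

variable {E : Type*} [NormedAddCommGroup E] [InnerProductSpace ℝ E] [FiniteDimensional ℝ E]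
  [MeasurableSpace E] [BorelSpace E]
variable {ι : Type*} {m : ℕ} {U : Ultrafilter ι} {N : ι → Measure E}
  {T : ι → E → Submodule ℝ E} {H : ι → E → E} {κ : Measure E}
  {W : E → ℝ} {Wi : ι → E → ℝ} {c K : ℝ}

lemma continuous_qq (hW : TubeD W c K) : Continuous (qq W) := by
  have h2 : Continuous (fun x => fderiv ℝ (grad W) x) :=
    hW.grad_cd.continuous_fderiv (by norm_num)
  exact (trL E).continuous.comp (h2.clm_comp h2)

lemma pb_qq (hW : TubeD W c K) : PB (qq W) := PB.of_bound fun x => by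
  rw [Real.norm_eq_abs]; exact hW.q_le x

/-- the first variation with `X = v ∇W` -/
lemma static_cross (hE : Module.finrank ℝ E = m + 1) (hc : 0 < c) (hK : 0 ≤ K) :
    ∃ C : ℝ, 0 ≤ C ∧ ∀ W : E → ℝ, TubeD W c K → ∀ (μ : Measure E) (T : E → Submodule ℝ E)
      (H : E → E), GSlice m μ T H → ∀ v : E → ℝ, PG v →
      |∫ x, ⟪proj (T x) (grad v x), grad W x⟫ * rho x ∂μ
        - ∫ x, v x * ((qq W x + 1 / 2) * W x) * rho x ∂μ|
      ≤ C * ∫ x, |v x| * (W x ^ 2 + ‖proj (T x) (grad W x)‖ ^ 2) * rho x ∂μ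
        + K * (√(∫ x, v x ^ 2 * rho x ∂μ) * √(dis μ T H)) := by
  obtain ⟨C, hC, hrem⟩ := exists_rem (E := E) hE hc hK
  refine ⟨C, hC, fun W hW μ T H hS v hv => ?_⟩
  have hXpg : PG (fun x => v x • grad W x) := hv.smul hW.pg_grad
  have hwfv := hS.wfv hXpg.cd hXpg.b0 hXpg.b1
  have hgvc : Continuous (grad v) := continuous_grad hv.cd
  have hgvb : PB (grad v) := hv.b1.mono fun x => by rw [norm_grad]
  have hgc : Continuous (grad W) := hW.pg_grad.cont
  have hgb : PB (grad W) := hW.pg_grad.b0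
  have hPv := hS.proj_apply_meas hgvc.aestronglyMeasurable
  have hPW := hS.proj_apply_meas hgc.aestronglyMeasurable
  -- the four functions
  have i1 : Integrable (fun x => ⟪proj (T x) (grad v x), grad W x⟫ * rho x) μ := by
    refine hS.integrable_dom (g := fun x => ‖grad v x‖ * ‖grad W x‖)
      (hPv.inner hgc.aestronglyMeasurable) (hgvb.norm.mul hgb.norm) fun x => ?_
    rw [abs_of_nonneg (by positivity : (0:ℝ) ≤ ‖grad v x‖ * ‖grad W x‖)]
    refine (abs_real_inner_le_norm _ _).trans ?_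
    have := norm_proj_apply_le (T x) (grad v x)
    gcongr
  have i2 : Integrable (fun x => v x * ((qq W x + 1 / 2) * W x) * rho x) μ :=
    hS.integrable_PB (hv.cont.mul (((continuous_qq hW).add continuous_const).mul
      hW.cont)).aestronglyMeasurable
      (hv.b0.mul (((pb_qq hW).add (PB.const _)).mul hW.pg.b0))
  have i3 : Integrable (fun x => (divAlong (T x) (fun x => v x • grad W x) x
      - 1 / 2 * ⟪x, v x • grad W x⟫) * rho x) μ := by
    have j1 := hS.integrable_div hXpg.cd hXpg.b1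
    have j2 : Integrable (fun x => 1 / 2 * ⟪x, v x • grad W x⟫ * rho x) μ :=
      hS.integrable_PB (continuous_const.mul
        (continuous_id.inner hXpg.cont)).aestronglyMeasurable ((PB.id'.inner' hXpg.b0).const_mul _)
    refine (j1.sub j2).congr (Eventually.of_forall fun x => ?_)
    simp only [Pi.sub_apply]; ring
  have i4 : Integrable (fun x => |v x| * (W x ^ 2 + ‖proj (T x) (grad W x)‖ ^ 2) * rho x) μ := by
    refine hS.integrable_dom (g := fun x => ‖v x‖ * (‖W x‖ ^ 2 + ‖grad W x‖ ^ 2))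
      (hv.cont.abs.aestronglyMeasurable.mul ((hW.cont.pow 2).aestronglyMeasurable.add
        (hPW.norm.pow 2))) (hv.b0.norm.mul ((hW.pg.b0.norm.pow 2).add (hgb.norm.pow 2)))
      fun x => ?_
    have g1 : 0 ≤ |v x| * (W x ^ 2 + ‖proj (T x) (grad W x)‖ ^ 2) := by positivity
    have g2 : 0 ≤ ‖v x‖ * (‖W x‖ ^ 2 + ‖grad W x‖ ^ 2) := by positivity
    rw [abs_of_nonneg g1, abs_of_nonneg g2]
    have := norm_proj_apply_le (T x) (grad W x)
    rw [← sq_abs (W x), Real.norm_eq_abs, Real.norm_eq_abs]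
    gcongr
  have hpt : ∀ᵐ x ∂μ, |(divAlong (T x) (fun x => v x • grad W x) x
      - 1 / 2 * ⟪x, v x • grad W x⟫) - (⟪proj (T x) (grad v x), grad W x⟫
        - v x * ((qq W x + 1 / 2) * W x))|
      ≤ C * (|v x| * (W x ^ 2 + ‖proj (T x) (grad W x)‖ ^ 2)) := by
    filter_upwards [hS.mc.dim] with x hx
    have e1 := divAlong_smul (T x) (hv.diff x) (hW.pg_grad.diff x)
    have e2 : (divAlong (T x) (fun x => v x • grad W x) x
      - 1 / 2 * ⟪x, v x • grad W x⟫) - (⟪proj (T x) (grad v x), grad W x⟫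
        - v x * ((qq W x + 1 / 2) * W x))
        = v x * (tr ((proj (T x)).comp (fderiv ℝ (grad W) x)) - 1 / 2 * ⟪x, grad W x⟫
          + (qq W x + 1 / 2) * W x) := by
      rw [e1, real_inner_smul_right, divAlong_eq]; ring
    rw [e2, abs_mul]
    have h1 := hrem W hW x (T x) hx
    calc |v x| * _ ≤ |v x| * (C * (W x ^ 2 + ‖proj (T x) (grad W x)‖ ^ 2)) := by gcongr
      _ = _ := by ring
  have i5 : Integrable (fun x => ((divAlong (T x) (fun x => v x • grad W x) x
      - 1 / 2 * ⟪x, v x • grad W x⟫) - (⟪proj (T x) (grad v x), grad W x⟫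
        - v x * ((qq W x + 1 / 2) * W x))) * rho x) μ := by
    refine (i3.sub (i1.sub i2)).congr (Eventually.of_forall fun x => ?_)
    simp only [Pi.sub_apply]; ring
  have i6 : Integrable (fun x => C * (|v x| * (W x ^ 2 + ‖proj (T x) (grad W x)‖ ^ 2)) * rho x)
      μ := by
    refine (i4.const_mul C).congr (Eventually.of_forall fun x => ?_)
    ring
  have h1 := abs_int_le i6 hpt
  have e5 : ∫ x, ((divAlong (T x) (fun x => v x • grad W x) x
      - 1 / 2 * ⟪x, v x • grad W x⟫) - (⟪proj (T x) (grad v x), grad W x⟫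
        - v x * ((qq W x + 1 / 2) * W x))) * rho x ∂μ
      = ∫ x, (divAlong (T x) (fun x => v x • grad W x) x
      - 1 / 2 * ⟪x, v x • grad W x⟫) * rho x ∂μ
      - (∫ x, ⟪proj (T x) (grad v x), grad W x⟫ * rho x ∂μ
        - ∫ x, v x * ((qq W x + 1 / 2) * W x) * rho x ∂μ) := by
    have i7 : Integrable (fun x => ⟪proj (T x) (grad v x), grad W x⟫ * rho x
      - v x * ((qq W x + 1 / 2) * W x) * rho x) μ := i1.sub i2
    rw [← integral_sub i1 i2, ← integral_sub i3 i7]
    congr 1; ext x; ring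
  have e6 : ∫ x, C * (|v x| * (W x ^ 2 + ‖proj (T x) (grad W x)‖ ^ 2)) * rho x ∂μ
      = C * ∫ x, |v x| * (W x ^ 2 + ‖proj (T x) (grad W x)‖ ^ 2) * rho x ∂μ := by
    rw [← integral_const_mul]; congr 1; ext x; ring
  rw [e5, e6] at h1
  have h2 := abs_int_vel_le hS hXpg.cont hXpg.b0
  rw [← abs_neg, ← hwfv] at h2
  have h3 : √(∫ x, ‖v x • grad W x‖ ^ 2 * rho x ∂μ) ≤ K * √(∫ x, v x ^ 2 * rho x ∂μ) := by
    have e7 : K * √(∫ x, v x ^ 2 * rho x ∂μ) = √(K ^ 2 * ∫ x, v x ^ 2 * rho x ∂μ) := by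
      rw [Real.sqrt_mul (sq_nonneg K), Real.sqrt_sq hK]
    rw [e7, ← integral_const_mul]
    refine Real.sqrt_le_sqrt (integral_mono (hS.integrable_PB
      (hXpg.cont.norm.pow 2).aestronglyMeasurable (hXpg.b0.norm.pow 2))
      ((hS.integrable_PB (hv.cont.pow 2).aestronglyMeasurable (hv.b0.pow 2)).const_mul _)
      fun x => ?_)
    have := hW.b1 x
    have h4 := rho_pos x
    simp only [norm_smul, Real.norm_eq_abs, mul_pow, sq_abs]
    have h5 : ‖grad W x‖ ^ 2 ≤ K ^ 2 := by gcongr
    have h6 : 0 ≤ v x ^ 2 * rho x := by positivity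
    nlinarith
  have h4 : 0 ≤ √(dis μ T H) := Real.sqrt_nonneg _
  have h5 := mul_le_mul_of_nonneg_right h3 h4
  have h6 : ∀ D I : ℝ, |D| ≤ |I - D| + |I| := fun D I => by
    have := abs_sub_abs_le_abs_sub D I
    rw [abs_sub_comm D I] at this
    linarith
  refine (h6 _ _).trans (add_le_add h1 (h2.trans (h5.trans (le_of_eq ?_))))
  ring

namespace BU0

variable (h : BU0 U m N T H κ W Wi c K)
include h

lemma w_PB {f : E → ℝ} (hf : Continuous f) (hb : PB f) :
    Tendsto (fun i => ∫ x, |f x| * Wi i x ^ 2 * rho x ∂(N i)) U (𝓝 0) := by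
  obtain ⟨C, p, hC, hbb⟩ := id hb
  have h1 := (h.w_pow p).const_mul C
  rw [mul_zero] at h1
  refine squeeze_zero' (Eventually.of_forall fun i => integral_nonneg fun x => by
    have := rho_pos x
    simp only [Pi.zero_apply]; positivity) ?_ h1
  filter_upwards [h.conv.sl, h.tubei] with i hs hi
  rw [← integral_const_mul]
  refine integral_mono (hs.integrable_PB (hf.abs.mul (hi.cont.pow 2)).aestronglyMeasurable
    (hb.norm.mul (hi.pg.b0.pow 2))) ((hs.integrable_PB (((continuous_const.add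
      continuous_norm).pow p).mul (hi.cont.pow 2)).aestronglyMeasurable
      (PB.mul ((((PB.const (1 : ℝ)).add PB.id'.norm)).pow p) (hi.pg.b0.pow 2))).const_mul C)
    fun x => ?_
  have h3 := rho_pos x
  have h4 := hbb x
  rw [Real.norm_eq_abs] at h4
  have h5 : 0 ≤ Wi i x ^ 2 * rho x := by positivity
  simp only
  nlinarith

lemma t_PB (hE : Module.finrank ℝ E = m + 1) {f : E → ℝ} (hf : Continuous f) (hb : PB f) :
    Tendsto (fun i => ∫ x, |f x| * ‖proj (T i x) (grad (Wi i) x)‖ ^ 2 * rho x ∂(N i)) U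
      (𝓝 0) := by
  obtain ⟨C, p, hC, hbb⟩ := id hb
  have h1 := (h.t_pow hE p).const_mul C
  rw [mul_zero] at h1
  refine squeeze_zero' (Eventually.of_forall fun i => integral_nonneg fun x => by
    have := rho_pos x
    simp only [Pi.zero_apply]; positivity) ?_ h1
  filter_upwards [h.conv.sl, h.tubei] with i hs hi
  rw [← integral_const_mul]
  have hTm := hs.proj_apply_meas hi.pg_grad.cont.aestronglyMeasurable
  have key : ∀ {g : E → ℝ}, Continuous g → PB g →
      Integrable (fun x => g x * ‖proj (T i x) (grad (Wi i) x)‖ ^ 2 * rho x) (N i) := by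
    intro g hg hgb
    refine hs.integrable_dom (g := fun x => ‖g x‖ * ‖grad (Wi i) x‖ ^ 2)
      (hg.aestronglyMeasurable.mul (hTm.norm.pow 2))
      (hgb.norm.mul (hi.pg_grad.b0.norm.pow 2)) fun x => ?_
    rw [abs_mul, abs_of_nonneg (sq_nonneg ‖proj (T i x) (grad (Wi i) x)‖),
      abs_of_nonneg (by positivity : (0:ℝ) ≤ ‖g x‖ * ‖grad (Wi i) x‖ ^ 2), Real.norm_eq_abs]
    have := norm_proj_apply_le (T i x) (grad (Wi i) x)
    gcongr
  refine integral_mono (key hf.abs hb.norm) ((key ((continuous_const.add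
      continuous_norm).pow p) (((PB.const (1 : ℝ)).add PB.id'.norm).pow p)).const_mul C)
    fun x => ?_
  have h3 := rho_pos x
  have h4 := hbb x
  rw [Real.norm_eq_abs] at h4
  have h5 : 0 ≤ ‖proj (T i x) (grad (Wi i) x)‖ ^ 2 * rho x := by positivity
  simp only
  nlinarith

/-- local convergence of the shape terms -/
lemma q_loc (R ε : ℝ) (hε : 0 < ε) :
    ∀ᶠ i in (U : Filter ι), ∀ x, ‖x‖ ≤ R → |qq (Wi i) x - qq W x| ≤ ε := by
  have hK := h.tube.K_nonneg
  set n : ℝ := (Module.finrank ℝ E : ℝ) with hn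
  have hn0 : 0 ≤ n := by rw [hn]; positivity
  filter_upwards [h.tubei, h.loc R (ε / (n * (2 * K) + 1)) (by positivity)] with i hi hl x hx
  have h1 := (hl x hx).2.2
  set B := fderiv ℝ (grad (Wi i)) x with hB
  set A := fderiv ℝ (grad W) x with hA
  have hB' : ‖B‖ ≤ K := hi.b2 x
  have hA' : ‖A‖ ≤ K := h.tube.b2 x
  have e : qq (Wi i) x - qq W x = tr (B.comp (B - A) + (B - A).comp A) := by
    unfold qq
    rw [← hB, ← hA, ← tr_sub]
    congr 1
    rw [ContinuousLinearMap.comp_sub, ContinuousLinearMap.sub_comp]; abel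
  rw [e]
  refine (abs_tr_le _).trans ?_
  have h2 : ‖B.comp (B - A) + (B - A).comp A‖ ≤ 2 * K * ‖B - A‖ := by
    refine (norm_add_le _ _).trans ?_
    have f1 := ContinuousLinearMap.opNorm_comp_le B (B - A)
    have f2 := ContinuousLinearMap.opNorm_comp_le (B - A) A
    have f3 := mul_le_mul_of_nonneg_right hB' (norm_nonneg (B - A))
    have f4 := mul_le_mul_of_nonneg_left hA' (norm_nonneg (B - A))
    linarith
  calc n * ‖B.comp (B - A) + (B - A).comp A‖
      ≤ n * (2 * K * (ε / (n * (2 * K) + 1))) := by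
        gcongr
        exact h2.trans (by gcongr)
    _ = ε * (n * (2 * K) / (n * (2 * K) + 1)) := by ring
    _ ≤ ε * 1 := by
        gcongr
        rw [div_le_one (by positivity)]; linarith
    _ = ε := mul_one _

end BU0

end Vale.Agent.P218.H923
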