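import Vale.Agent.P218.H923.HOneE

/-! Blow-up sequences of Gaussian slices: convergence of the Dirichlet energies. -/

open MeasureTheory Set Filter Topology Metric
open scoped ENNReal NNReal RealInnerProductSpace

namespace Vale.Agent.P218.H923

open Vale.Agent.P214 (IntegralVarifold proj divAlong IsTestField)
open Vale.Agent.P218.H313

set_option linter.unusedSectionVars false
set_option linter.unusedVariables false

variable {E : Type*} [NormedAddCommGroup E] [InnerProductSpace ℝ E] [FiniteDimensional ℝ E]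
  [MeasurableSpace E] [BorelSpace E]
variable {ι : Type*} {m : ℕ} {U : Ultrafilter ι} {N : ι → Measure E}
  {T : ι → E → Submodule ℝ E} {H : ι → E → E} {κ : Measure E}
  {W : E → ℝ} {Wi : ι → E → ℝ} {c K : ℝ}

/-- products of a function of polynomial growth with a locally small family -/
lemma loc_mul {f : E → ℝ} (hb : PB f) {G : ι → E → ℝ} {B : ℝ} {p' : ℕ} (hB : 0 ≤ B)
    (hG : ∀ᶠ i in (U : Filter ι), ∀ x, |G i x| ≤ B * (1 + ‖x‖) ^ p')
    (hloc : ∀ R ε : ℝ, 0 < ε → ∀ᶠ i in (U : Filter ι), ∀ x, ‖x‖ ≤ R → |G i x| ≤ ε) :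
    ∃ (C : ℝ) (p : ℕ), 0 ≤ C ∧ (∀ᶠ i in (U : Filter ι), ∀ x, |f x * G i x| ≤ C * (1 + ‖x‖) ^ p) ∧
      ∀ R ε : ℝ, 0 < ε → ∀ᶠ i in (U : Filter ι), ∀ x, ‖x‖ ≤ R → |f x * G i x| ≤ ε := by
  obtain ⟨C, p, hC, hbb⟩ := hb
  refine ⟨C * B, p + p', by positivity, ?_, ?_⟩
  · filter_upwards [hG] with i hi x
    rw [abs_mul, pow_add]
    have h1 := hbb x
    rw [Real.norm_eq_abs] at h1
    calc |f x| * |G i x| ≤ (C * (1 + ‖x‖) ^ p) * (B * (1 + ‖x‖) ^ p') := by
          have := hi x
          gcongr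
      _ = _ := by ring
  · intro R ε hε
    filter_upwards [hloc R (ε / (C * (1 + |R|) ^ p + 1)) (by positivity)] with i hi x hx
    rw [abs_mul]
    have h1 := hbb x
    rw [Real.norm_eq_abs] at h1
    have h2 : |f x| ≤ C * (1 + |R|) ^ p := by
      refine h1.trans ?_
      have := hx.trans (le_abs_self R)
      gcongr
    calc |f x| * |G i x| ≤ (C * (1 + |R|) ^ p) * (ε / (C * (1 + |R|) ^ p + 1)) := by
          have := hi x hx
          gcongr
      _ = ε * (C * (1 + |R|) ^ p / (C * (1 + |R|) ^ p + 1)) := by ring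
      _ ≤ ε * 1 := by
          gcongr
          rw [div_le_one (by positivity)]; linarith
      _ = ε := mul_one _

lemma wt_le_pow (j : ℕ) (x : E) : wt j x ≤ 1 * (1 + ‖x‖) ^ (2 * j) := by
  unfold wt
  rw [pow_mul, one_mul]
  have := norm_nonneg x
  gcongr
  nlinarith

namespace BU0

variable (h : BU0 U m N T H κ W Wi c K)
include h

/-- convergence of quadratic expressions in the normalised height -/
theorem sq_lim {v : E → ℝ} (hv : Continuous v) (hvb : PB v) (j : ℕ)
    (hs : Tendsto (fun i => ∫ x, (nh (N i) (Wi i) x - v x) ^ 2 * wt j x * rho x ∂(N i)) U (𝓝 0))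
    {F : ι → E → ℝ} {f : E → ℝ} {C : ℝ} (hC : 0 ≤ C)
    (hFm : ∀ᶠ i in (U : Filter ι), AEStronglyMeasurable (F i) (N i))
    (hFb : ∀ᶠ i in (U : Filter ι), ∀ x, |F i x| ≤ C * wt j x)
    (hf : Continuous f) (hfb : ∀ x, |f x| ≤ C * wt j x)
    (hloc : ∀ R ε : ℝ, 0 < ε → ∀ᶠ i in (U : Filter ι), ∀ x, ‖x‖ ≤ R → |F i x - f x| ≤ ε) :
    Tendsto (fun i => ∫ x, nh (N i) (Wi i) x ^ 2 * F i x * rho x ∂(N i)) U
      (𝓝 (∫ x, v x ^ 2 * f x * rho x ∂κ)) := by
  have hfpb : PB f := ((PG.wt (E := E) j).b0.const_mul C).mono fun x => by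
    rw [Real.norm_eq_abs, Real.norm_eq_abs]
    exact (hfb x).trans (le_abs_self _)
  have hwpos : ∀ x : E, 0 ≤ wt j x * rho x := fun x =>
    mul_nonneg (wt_pos j x).le (rho_pos x).le
  -- the four limits
  have t4 := h.conv.lim_PB (f := fun x => v x ^ 2 * f x) ((hv.pow 2).mul hf)
    ((hvb.pow 2).mul hfpb)
  have t3 : Tendsto (fun i => ∫ x, |v x ^ 2 * (F i x - f x)| * rho x ∂(N i)) U (𝓝 0) := by
    obtain ⟨C', p, hC', g1, g2⟩ := loc_mul (U := U) (hvb.pow 2)
      (G := fun i x => F i x - f x) (B := 2 * C) (p' := 2 * j) (by positivity) (by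
        filter_upwards [hFb] with i hi x
        refine (abs_sub _ _).trans ?_
        have h1 := hi x
        have h2 := hfb x
        have h3 := mul_le_mul_of_nonneg_left (wt_le_pow j x) hC
        linarith) hloc
    exact tendsto_loc h.conv g1 g2
  have hVb : Tendsto (fun i => √(∫ x, v x ^ 2 * wt j x * rho x ∂(N i))) U
      (𝓝 √(∫ x, v x ^ 2 * wt j x * rho x ∂κ)) :=
    (h.conv.lim_PB ((hv.pow 2).mul (PG.wt j).cont) ((hvb.pow 2).mul (PG.wt j).b0)).sqrt
  have hss := hs.sqrt
  rw [Real.sqrt_zero] at hss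
  have t2 : Tendsto (fun i => 2 * C * (√(∫ x, v x ^ 2 * wt j x * rho x ∂(N i))
      * √(∫ x, (nh (N i) (Wi i) x - v x) ^ 2 * wt j x * rho x ∂(N i)))) U (𝓝 0) := by
    have := (hVb.mul hss).const_mul (2 * C)
    simpa using this
  have t1 := hs.const_mul C
  rw [mul_zero] at t1
  have hkey : Tendsto (fun i => ∫ x, nh (N i) (Wi i) x ^ 2 * F i x * rho x ∂(N i)
      - ∫ x, v x ^ 2 * f x * rho x ∂(N i)) U (𝓝 0) := by
    have tt := (t1.add t2).add t3
    simp only [add_zero] at tt
    refine squeeze_zero_norm' ?_ tt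
    filter_upwards [h.conv.sl, h.tubei, hFm, hFb] with i hS hi hm' hb'
    have hnc : Continuous (nh (N i) (Wi i)) := nh_cont hi
    have hnb : PB (nh (N i) (Wi i)) := nh_pb hi
    have hwc : Continuous (fun x => nh (N i) (Wi i) x - v x) := hnc.sub hv
    have hwb : PB (fun x => nh (N i) (Wi i) x - v x) := hnb.sub hvb
    have dom : ∀ {g : E → ℝ}, Continuous g → PB g →
        Integrable (fun x => g x * F i x * rho x) (N i) := by
      intro g hg hgb
      refine hS.integrable_dom (g := fun x => ‖g x‖ * (C * wt j x))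
        (hg.aestronglyMeasurable.mul hm') (hgb.norm.mul ((PG.wt j).b0.const_mul C)) fun x => ?_
      have h1 := hb' x
      have h2 := wt_pos j x
      rw [abs_mul, abs_of_nonneg (by positivity : (0:ℝ) ≤ ‖g x‖ * (C * wt j x)),
        Real.norm_eq_abs]
      gcongr
    have i0 : Integrable (fun x => nh (N i) (Wi i) x ^ 2 * F i x * rho x) (N i) :=
      dom (hnc.pow 2) (hnb.pow 2)
    have i1 : Integrable (fun x => (nh (N i) (Wi i) x - v x) ^ 2 * F i x * rho x) (N i) :=
      dom (hwc.pow 2) (hwb.pow 2)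
    have i2 : Integrable (fun x => v x * (nh (N i) (Wi i) x - v x) * F i x * rho x) (N i) :=
      dom (hv.mul hwc) (hvb.mul hwb)
    have i3 : Integrable (fun x => v x ^ 2 * F i x * rho x) (N i) :=
      dom (hv.pow 2) (hvb.pow 2)
    have i4 : Integrable (fun x => v x ^ 2 * f x * rho x) (N i) :=
      hS.integrable_PB ((hv.pow 2).mul hf).aestronglyMeasurable ((hvb.pow 2).mul hfpb)
    have i34 : Integrable (fun x => v x ^ 2 * (F i x - f x) * rho x) (N i) := by
      refine (i3.sub i4).congr (Eventually.of_forall fun x => ?_)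
      simp only [Pi.sub_apply]; ring
    have e : ∫ x, nh (N i) (Wi i) x ^ 2 * F i x * rho x ∂(N i)
        - ∫ x, v x ^ 2 * f x * rho x ∂(N i)
        = 1 * ∫ x, (nh (N i) (Wi i) x - v x) ^ 2 * F i x * rho x ∂(N i)
          + 2 * ∫ x, v x * (nh (N i) (Wi i) x - v x) * F i x * rho x ∂(N i)
          + 1 * ∫ x, v x ^ 2 * (F i x - f x) * rho x ∂(N i) := by
      rw [← integral_comb i1 i2 i34, ← integral_sub i0 i4]
      congr 1; ext x; ring
    rw [e, Real.norm_eq_abs]
    -- three estimates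
    have j1 : Integrable (fun x => (nh (N i) (Wi i) x - v x) ^ 2 * wt j x * rho x) (N i) :=
      hS.integrable_PB ((hwc.pow 2).mul (PG.wt j).cont).aestronglyMeasurable
        ((hwb.pow 2).mul (PG.wt j).b0)
    have b1 : |∫ x, (nh (N i) (Wi i) x - v x) ^ 2 * F i x * rho x ∂(N i)|
        ≤ C * ∫ x, (nh (N i) (Wi i) x - v x) ^ 2 * wt j x * rho x ∂(N i) := by
      rw [← integral_const_mul]
      have hi1 : Integrable (fun x => C * ((nh (N i) (Wi i) x - v x) ^ 2 * wt j x) * rho x)
          (N i) := (j1.const_mul C).congr (Eventually.of_forall fun x => by ring)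
      refine (abs_int_le hi1 (Eventually.of_forall fun x => ?_)).trans (le_of_eq ?_)
      · rw [abs_mul, abs_of_nonneg (sq_nonneg _)]
        have h1 := hb' x
        calc _ ≤ (nh (N i) (Wi i) x - v x) ^ 2 * (C * wt j x) := by gcongr
          _ = _ := by ring
      · congr 1; ext x; ring
    have b2 : |∫ x, v x * (nh (N i) (Wi i) x - v x) * F i x * rho x ∂(N i)|
        ≤ C * (√(∫ x, v x ^ 2 * wt j x * rho x ∂(N i))
      * √(∫ x, (nh (N i) (Wi i) x - v x) ^ 2 * wt j x * rho x ∂(N i))) := by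
      have k1 : Integrable (fun x => |v x| ^ 2 * (wt j x * rho x)) (N i) := by
        have : Integrable (fun x => v x ^ 2 * wt j x * rho x) (N i) :=
          hS.integrable_PB ((hv.pow 2).mul (PG.wt j).cont).aestronglyMeasurable
            ((hvb.pow 2).mul (PG.wt j).b0)
        exact this.congr (Eventually.of_forall fun x => by simp only [sq_abs]; ring)
      have k2 : Integrable (fun x => |nh (N i) (Wi i) x - v x| ^ 2 * (wt j x * rho x)) (N i) :=
        j1.congr (Eventually.of_forall fun x => by simp only [sq_abs]; ring)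
      have k3 : Integrable (fun x => |v x| * |nh (N i) (Wi i) x - v x| * (wt j x * rho x))
          (N i) := by
        have : Integrable (fun x => |v x| * |nh (N i) (Wi i) x - v x| * wt j x * rho x) (N i) :=
          hS.integrable_PB ((hv.abs.mul hwc.abs).mul (PG.wt j).cont).aestronglyMeasurable
            ((hvb.norm.mul hwb.norm).mul (PG.wt j).b0)
        exact this.congr (Eventually.of_forall fun x => by ring)
      have cs := abs_integral_mul_le hwpos k1 k2 k3
      have e1 : ∫ x, |v x| ^ 2 * (wt j x * rho x) ∂(N i)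
          = ∫ x, v x ^ 2 * wt j x * rho x ∂(N i) := by
        congr 1; ext x; rw [sq_abs]; ring
      have e2 : ∫ x, |nh (N i) (Wi i) x - v x| ^ 2 * (wt j x * rho x) ∂(N i)
          = ∫ x, (nh (N i) (Wi i) x - v x) ^ 2 * wt j x * rho x ∂(N i) := by
        congr 1; ext x; rw [sq_abs]; ring
      rw [e1, e2] at cs
      have hi2 : Integrable (fun x => C * (|v x| * |nh (N i) (Wi i) x - v x| * wt j x) * rho x)
          (N i) := (k3.const_mul C).congr (Eventually.of_forall fun x => by ring)
      refine (abs_int_le hi2 (Eventually.of_forall fun x => ?_)).trans ?_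
      · rw [abs_mul, abs_mul]
        have h1 := hb' x
        calc _ ≤ |v x| * |nh (N i) (Wi i) x - v x| * (C * wt j x) := by gcongr
          _ = _ := by ring
      · have e3 : ∫ x, C * (|v x| * |nh (N i) (Wi i) x - v x| * wt j x) * rho x ∂(N i)
            = C * ∫ x, |v x| * |nh (N i) (Wi i) x - v x| * (wt j x * rho x) ∂(N i) := by
          rw [← integral_const_mul]; congr 1; ext x; ring
        rw [e3]
        exact mul_le_mul_of_nonneg_left ((le_abs_self _).trans cs) hC
    have b3 : |∫ x, v x ^ 2 * (F i x - f x) * rho x ∂(N i)|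
        ≤ ∫ x, |v x ^ 2 * (F i x - f x)| * rho x ∂(N i) := by
      refine abs_int_le ?_ (Eventually.of_forall fun x => le_rfl)
      refine i34.norm.congr (Eventually.of_forall fun x => ?_)
      simp only [norm_mul, Real.norm_of_nonneg (rho_pos x).le, Real.norm_eq_abs, abs_mul]
    refine (abs_add_three _ _ _).trans ?_
    rw [one_mul, one_mul, abs_mul, abs_two]
    linarith
  have hsum := hkey.add t4
  rw [zero_add] at hsum
  refine hsum.congr fun i => ?_
  ring

end BU0

end Vale.Agent.P218.H923
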