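import Vale.Agent.P218.H923.HOneF

/-! Blow-up sequences of Gaussian slices: convergence of the Dirichlet energies. -/

open MeasureTheory Set Filter Topology Metric
open scoped ENNReal NNReal RealInnerProductSpace

namespace Vale.Agent.P218.H923

open Vale.Agent.P214 (IntegralVarifold proj divAlong IsTestField)
open Vale.Agent.P218.H313

set_option linter.unusedSectionVars false
set_option linter.unusedVariables false

variable {E : Type*} [NormedAddCommGroup E] [InnerProductSpace ℝ E] [FiniteDimensional ℝ E]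
  [MeasurableSpace E] [BorelSpace E]
variable {ι : Type*} {m : ℕ} {U : Ultrafilter ι} {N : ι → Measure E}
  {T : ι → E → Submodule ℝ E} {H : ι → E → E} {κ : Measure E}
  {W : E → ℝ} {Wi : ι → E → ℝ} {c K : ℝ}

lemma grad_nh {μ : Measure E} {W : E → ℝ} (hW : TubeD W c K) (x : E) :
    grad (nh μ W) x = (√(DD μ W 0))⁻¹ • grad W x := grad_const_mul _ (hW.diff x)

namespace BU

variable (h : BU U m N T H κ W Wi c K)
include h

/-- the weak limit tested with a function `v (q_i + 1/2)` -/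
lemma cross_aux {v : E → ℝ} (hv : Continuous v) (hvb : PB v)
    (hlim : ∀ f : E → ℝ, Continuous f → PB f →
      Tendsto (fun i => ∫ x, nh (N i) (Wi i) x * f x * rho x ∂(N i)) U
        (𝓝 (∫ x, v x * f x * rho x ∂κ))) :
    Tendsto (fun i => ∫ x, nh (N i) (Wi i) x * (v x * (qq (Wi i) x + 1 / 2)) * rho x ∂(N i)) U
      (𝓝 (∫ x, v x * (v x * (qq W x + 1 / 2)) * rho x ∂κ)) := by
  have hK := h.tube.K_nonneg
  set n : ℝ := (Module.finrank ℝ E : ℝ) with hn
  have hn0 : 0 ≤ n := by rw [hn]; positivity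
  have hqc := continuous_qq h.tube
  have hqb := pb_qq h.tube
  have t1 := hlim (fun x => v x * (qq W x + 1 / 2)) (hv.mul (hqc.add continuous_const))
    (hvb.mul (hqb.add (PB.const _)))
  have t2 : Tendsto (fun i => √(∫ x, (v x * (qq (Wi i) x - qq W x)) ^ 2 * rho x ∂(N i))) U
      (𝓝 0) := by
    obtain ⟨C, p, hC, g1, g2⟩ := loc_mul (U := U) hvb
      (G := fun i x => qq (Wi i) x - qq W x) (B := 2 * (n * K ^ 2)) (p' := 0) (by positivity) (by
        filter_upwards [h.tubei] with i hi x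
        refine (abs_sub _ _).trans ?_
        have h1 : |qq (Wi i) x| ≤ n * K ^ 2 := hi.q_le x
        have h2 : |qq W x| ≤ n * K ^ 2 := h.tube.q_le x
        rw [pow_zero]
        linarith) (fun R ε hε => h.toBU0.q_loc R ε hε)
    have := (tendsto_loc_sq h.conv hC g1 g2).sqrt
    rwa [Real.sqrt_zero] at this
  have t3 : Tendsto (fun i => ∫ x, nh (N i) (Wi i) x * (v x * (qq (Wi i) x + 1 / 2)) * rho x ∂(N i)
      - ∫ x, nh (N i) (Wi i) x * (v x * (qq W x + 1 / 2)) * rho x ∂(N i)) U (𝓝 0) := by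
    refine squeeze_zero_norm' ?_ t2
    filter_upwards [h.conv.sl, h.tubei, h.pos] with i hS hi hp
    have hnc : Continuous (nh (N i) (Wi i)) := nh_cont hi
    have hnb : PB (nh (N i) (Wi i)) := nh_pb hi
    have hqic := continuous_qq hi
    have hqib := pb_qq hi
    have i1 : Integrable (fun x => nh (N i) (Wi i) x * (v x * (qq (Wi i) x + 1 / 2)) * rho x)
        (N i) := hS.integrable_PB (hnc.mul (hv.mul (hqic.add
          continuous_const))).aestronglyMeasurable (hnb.mul (hvb.mul (hqib.add (PB.const _))))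
    have i2 : Integrable (fun x => nh (N i) (Wi i) x * (v x * (qq W x + 1 / 2)) * rho x)
        (N i) := hS.integrable_PB (hnc.mul (hv.mul (hqc.add
          continuous_const))).aestronglyMeasurable (hnb.mul (hvb.mul (hqb.add (PB.const _))))
    rw [← integral_sub i1 i2, Real.norm_eq_abs]
    have e : ∫ x, (nh (N i) (Wi i) x * (v x * (qq (Wi i) x + 1 / 2)) * rho x
        - nh (N i) (Wi i) x * (v x * (qq W x + 1 / 2)) * rho x) ∂(N i)
        = ∫ x, nh (N i) (Wi i) x * (v x * (qq (Wi i) x - qq W x)) * rho x ∂(N i) := by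
      congr 1; ext x; ring
    rw [e]
    have k1 : Integrable (fun x => nh (N i) (Wi i) x ^ 2 * rho x) (N i) :=
      hS.integrable_PB (hnc.pow 2).aestronglyMeasurable (hnb.pow 2)
    have k2 : Integrable (fun x => (v x * (qq (Wi i) x - qq W x)) ^ 2 * rho x) (N i) :=
      hS.integrable_PB ((hv.mul (hqic.sub hqc)).pow 2).aestronglyMeasurable
        ((hvb.mul (hqib.sub hqb)).pow 2)
    have k3 : Integrable (fun x => nh (N i) (Wi i) x * (v x * (qq (Wi i) x - qq W x)) * rho x)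
      (N i) := hS.integrable_PB (hnc.mul (hv.mul (hqic.sub hqc))).aestronglyMeasurable
        (hnb.mul (hvb.mul (hqib.sub hqb)))
    have cs := abs_integral_mul_le (fun x => (rho_pos x).le) k1 k2 k3
    rwa [nh_norm hp, Real.sqrt_one, one_mul] at cs
  have t4 := t3.add t1
  rw [zero_add] at t4
  refine t4.congr fun i => ?_
  ring

/-- **the mixed Dirichlet integral** -/
theorem cross_lim (hE : Module.finrank ℝ E = m + 1) {v : E → ℝ} (hv : PG v)
    (hlim : ∀ f : E → ℝ, Continuous f → PB f →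
      Tendsto (fun i => ∫ x, nh (N i) (Wi i) x * f x * rho x ∂(N i)) U
        (𝓝 (∫ x, v x * f x * rho x ∂κ))) :
    Tendsto (fun i => ∫ x, ⟪proj (T i x) (grad v x), grad (nh (N i) (Wi i)) x⟫ * rho x ∂(N i)) U
      (𝓝 (∫ x, v x * (v x * (qq W x + 1 / 2)) * rho x ∂κ)) := by
  have hK := h.tube.K_nonneg
  obtain ⟨M, hM, hb⟩ := h.bounds hE
  obtain ⟨C, hC, hst⟩ := static_cross (E := E) hE h.tube.cpos hK
  have t1 := h.cross_aux hv.cont hv.b0 hlim
  -- the error
  have hv2 := hv.cont.pow 2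
  have hv2b := hv.b0.pow 2
  have r1 := (h.toBU0.w_PB hv2 hv2b).sqrt
  have r2 := (h.toBU0.t_PB hE hv2 hv2b).sqrt
  rw [Real.sqrt_zero] at r1 r2
  have r3 := (h.conv.lim_PB hv2 hv2b).sqrt
  have r4 := h.dz.sqrt
  rw [Real.sqrt_zero] at r4
  have r5 : Tendsto (fun i => C * (√(∫ x, |v x ^ 2| * Wi i x ^ 2 * rho x ∂(N i))
      + √(∫ x, |v x ^ 2| * ‖proj (T i x) (grad (Wi i) x)‖ ^ 2 * rho x ∂(N i)) * √M)
      + K * (√(∫ x, v x ^ 2 * rho x ∂(N i)) * √(dis (N i) (T i) (H i) / DD (N i) (Wi i) 0)))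
      U (𝓝 0) := by
    have := ((r1.add (r2.mul_const √M)).const_mul C).add ((r3.mul r4).const_mul K)
    simpa using this
  have t2 : Tendsto (fun i => ∫ x, ⟪proj (T i x) (grad v x), grad (nh (N i) (Wi i)) x⟫
      * rho x ∂(N i)
      - ∫ x, nh (N i) (Wi i) x * (v x * (qq (Wi i) x + 1 / 2)) * rho x ∂(N i)) U (𝓝 0) := by
    refine squeeze_zero_norm' ?_ r5
    filter_upwards [h.conv.sl, h.tubei, h.pos, hb] with i hS hi hp hbi
    set s := √(DD (N i) (Wi i) 0) with hs
    have hs0 : 0 < s := Real.sqrt_pos.2 hp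
    have hss : DD (N i) (Wi i) 0 = s ^ 2 := (Real.sq_sqrt hp.le).symm
    have e1 : ∫ x, ⟪proj (T i x) (grad v x), grad (nh (N i) (Wi i)) x⟫ * rho x ∂(N i)
        = s⁻¹ * ∫ x, ⟪proj (T i x) (grad v x), grad (Wi i) x⟫ * rho x ∂(N i) := by
      rw [← integral_const_mul]; congr 1; ext x
      rw [grad_nh hi, real_inner_smul_right]; ring
    have e2 : ∫ x, nh (N i) (Wi i) x * (v x * (qq (Wi i) x + 1 / 2)) * rho x ∂(N i)
        = s⁻¹ * ∫ x, v x * ((qq (Wi i) x + 1 / 2) * Wi i x) * rho x ∂(N i) := by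
      rw [← integral_const_mul]; congr 1; ext x
      simp only [nh]; ring
    rw [e1, e2, ← mul_sub, norm_mul, Real.norm_of_nonneg (inv_pos.2 hs0).le, Real.norm_eq_abs]
    have h1 := hst (Wi i) hi (N i) (T i) (H i) hS v hv
    have hgi := hi.pg_grad.cont
    have hPm := hS.proj_apply_meas hgi.aestronglyMeasurable
    -- split of the quadratic term
    have jw : ∀ {g : E → ℝ}, Continuous g → PB g →
        Integrable (fun x => g x * Wi i x ^ 2 * rho x) (N i) := fun hg hgb =>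
      hS.integrable_PB (hg.mul (hi.cont.pow 2)).aestronglyMeasurable (hgb.mul (hi.pg.b0.pow 2))
    have jt : ∀ {g : E → ℝ}, Continuous g → PB g →
        Integrable (fun x => g x * ‖proj (T i x) (grad (Wi i) x)‖ ^ 2 * rho x) (N i) := by
      intro g hg hgb
      refine hS.integrable_dom (g := fun x => ‖g x‖ * ‖grad (Wi i) x‖ ^ 2)
        (hg.aestronglyMeasurable.mul (hPm.norm.pow 2))
        (hgb.norm.mul (hi.pg_grad.b0.norm.pow 2)) fun x => ?_
      rw [abs_mul, abs_of_nonneg (sq_nonneg ‖proj (T i x) (grad (Wi i) x)‖),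
        abs_of_nonneg (by positivity : (0:ℝ) ≤ ‖g x‖ * ‖grad (Wi i) x‖ ^ 2), Real.norm_eq_abs]
      have := norm_proj_apply_le (T i x) (grad (Wi i) x)
      gcongr
    have i1 : Integrable (fun x => |v x| * Wi i x ^ 2 * rho x) (N i) := jw hv.cont.abs hv.b0.norm
    have i2 : Integrable (fun x => |v x| * ‖proj (T i x) (grad (Wi i) x)‖ ^ 2 * rho x) (N i) :=
      jt hv.cont.abs hv.b0.norm
    have e3 : ∫ x, |v x| * (Wi i x ^ 2 + ‖proj (T i x) (grad (Wi i) x)‖ ^ 2) * rho x ∂(N i)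
        = ∫ x, |v x| * Wi i x ^ 2 * rho x ∂(N i)
          + ∫ x, |v x| * ‖proj (T i x) (grad (Wi i) x)‖ ^ 2 * rho x ∂(N i) := by
      rw [← integral_add i1 i2]; congr 1; ext x; ring
    have b1 : ∫ x, |v x| * Wi i x ^ 2 * rho x ∂(N i)
        ≤ √(∫ x, |v x ^ 2| * Wi i x ^ 2 * rho x ∂(N i)) * s := by
      have hr : ∀ x : E, 0 ≤ Wi i x ^ 2 * rho x := fun x =>
        mul_nonneg (sq_nonneg _) (rho_pos x).le
      have k1 : Integrable (fun x => |v x| ^ 2 * (Wi i x ^ 2 * rho x)) (N i) :=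
        (jw hv2 hv2b).congr (Eventually.of_forall fun x => by simp [sq_abs]; ring)
      have k2 : Integrable (fun x => (1:ℝ) ^ 2 * (Wi i x ^ 2 * rho x)) (N i) :=
        (jw continuous_const (PB.const (1:ℝ))).congr (Eventually.of_forall fun x => by simp)
      have k3 : Integrable (fun x => |v x| * 1 * (Wi i x ^ 2 * rho x)) (N i) :=
        i1.congr (Eventually.of_forall fun x => by ring)
      have cs := (le_abs_self _).trans (abs_integral_mul_le hr k1 k2 k3)
      have f1 : ∫ x, |v x| * 1 * (Wi i x ^ 2 * rho x) ∂(N i)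
          = ∫ x, |v x| * Wi i x ^ 2 * rho x ∂(N i) := by congr 1; ext x; ring
      have f2 : ∫ x, |v x| ^ 2 * (Wi i x ^ 2 * rho x) ∂(N i)
          = ∫ x, |v x ^ 2| * Wi i x ^ 2 * rho x ∂(N i) := by
        congr 1; ext x; rw [abs_pow]; ring
      have f3 : ∫ x, (1:ℝ) ^ 2 * (Wi i x ^ 2 * rho x) ∂(N i) = DD (N i) (Wi i) 0 := by
        rw [DD_zero_eq]; congr 1; ext x; ring
      rwa [f1, f2, f3] at cs
    have b2 : ∫ x, |v x| * ‖proj (T i x) (grad (Wi i) x)‖ ^ 2 * rho x ∂(N i)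
        ≤ √(∫ x, |v x ^ 2| * ‖proj (T i x) (grad (Wi i) x)‖ ^ 2 * rho x ∂(N i)) * (√M * s) := by
      have hr : ∀ x : E, 0 ≤ ‖proj (T i x) (grad (Wi i) x)‖ ^ 2 * rho x := fun x =>
        mul_nonneg (sq_nonneg _) (rho_pos x).le
      have k1 : Integrable (fun x => |v x| ^ 2 * (‖proj (T i x) (grad (Wi i) x)‖ ^ 2 * rho x))
        (N i) := (jt hv2 hv2b).congr (Eventually.of_forall fun x => by simp [sq_abs]; ring)
      have k2 : Integrable (fun x => (1:ℝ) ^ 2 * (‖proj (T i x) (grad (Wi i) x)‖ ^ 2 * rho x))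
        (N i) := (jt continuous_const (PB.const (1:ℝ))).congr
          (Eventually.of_forall fun x => by simp)
      have k3 : Integrable (fun x => |v x| * 1 * (‖proj (T i x) (grad (Wi i) x)‖ ^ 2 * rho x))
        (N i) := i2.congr (Eventually.of_forall fun x => by ring)
      have cs := (le_abs_self _).trans (abs_integral_mul_le hr k1 k2 k3)
      have f1 : ∫ x, |v x| * 1 * (‖proj (T i x) (grad (Wi i) x)‖ ^ 2 * rho x) ∂(N i)
          = ∫ x, |v x| * ‖proj (T i x) (grad (Wi i) x)‖ ^ 2 * rho x ∂(N i) := by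
        congr 1; ext x; ring
      have f2 : ∫ x, |v x| ^ 2 * (‖proj (T i x) (grad (Wi i) x)‖ ^ 2 * rho x) ∂(N i)
          = ∫ x, |v x ^ 2| * ‖proj (T i x) (grad (Wi i) x)‖ ^ 2 * rho x ∂(N i) := by
        congr 1; ext x; rw [abs_pow]; ring
      have f3 : ∫ x, (1:ℝ) ^ 2 * (‖proj (T i x) (grad (Wi i) x)‖ ^ 2 * rho x) ∂(N i)
          = TG (N i) (T i) (Wi i) 0 := by
        unfold TG; congr 1; ext x; simp [wt]
      rw [f1, f2, f3] at cs
      refine cs.trans (mul_le_mul_of_nonneg_left ?_ (Real.sqrt_nonneg _))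
      have : √(TG (N i) (T i) (Wi i) 0) ≤ √(M * s ^ 2) := by
        rw [← hss]; exact Real.sqrt_le_sqrt hbi.2.1
      refine this.trans (le_of_eq ?_)
      rw [Real.sqrt_mul hM, Real.sqrt_sq hs0.le]
    have b3 : √(dis (N i) (T i) (H i)) = √(dis (N i) (T i) (H i) / DD (N i) (Wi i) 0) * s := by
      rw [Real.sqrt_div dis_nonneg, ← hs]
      field_simp
    rw [e3, b3] at h1
    rw [inv_mul_le_iff₀ hs0]
    refine h1.trans ?_
    have c1 := add_le_add b1 b2
    have c2 := mul_le_mul_of_nonneg_left c1 hC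
    refine (add_le_add_left c2 _).trans (le_of_eq ?_)
    ring
  have t3 := t2.add t1
  rw [zero_add] at t3
  refine t3.congr fun i => ?_
  ring

end BU

end Vale.Agent.P218.H923
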