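import Vale.Agent.P218.H923.HOneG

/-! Blow-up sequences of Gaussian slices: strong `H¹` convergence. -/

open MeasureTheory Set Filter Topology Metric
open scoped ENNReal NNReal RealInnerProductSpace

namespace Vale.Agent.P218.H923

open Vale.Agent.P214 (IntegralVarifold proj divAlong IsTestField)
open Vale.Agent.P218.H313

set_option linter.unusedSectionVars false
set_option linter.unusedVariables false

variable {E : Type*} [NormedAddCommGroup E] [InnerProductSpace ℝ E] [FiniteDimensional ℝ E]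
  [MeasurableSpace E] [BorelSpace E]
variable {ι : Type*} {m : ℕ} {U : Ultrafilter ι} {N : ι → Measure E}
  {T : ι → E → Submodule ℝ E} {H : ι → E → E} {κ : Measure E}
  {W : E → ℝ} {Wi : ι → E → ℝ} {c K : ℝ}

lemma wt_split (n j : ℕ) (x : E) :
    wt j x ≤ (1 + ((n : ℝ) + 1) ^ 2) ^ j + wt (j + 1) x / ((n : ℝ) + 1) ^ 2 := by
  have hn := cut_pos_arg n
  by_cases hx : ‖x‖ ≤ (n : ℝ) + 1
  · have h1 : wt j x ≤ (1 + ((n : ℝ) + 1) ^ 2) ^ j := by
      unfold wt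
      have := norm_nonneg x
      gcongr
    have h2 : 0 ≤ wt (j + 1) x / ((n : ℝ) + 1) ^ 2 := by
      have := wt_pos (j + 1) x
      positivity
    linarith
  · push Not at hx
    have h1 : wt j x ≤ wt (j + 1) x / ((n : ℝ) + 1) ^ 2 := by
      rw [le_div_iff₀ (by positivity)]
      have h2 : wt (j + 1) x = wt j x * (1 + ‖x‖ ^ 2) := by simp only [wt]; ring
      rw [h2]
      have h3 := wt_pos j x
      have h4 : ((n : ℝ) + 1) ^ 2 ≤ 1 + ‖x‖ ^ 2 := by nlinarith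
      gcongr
    have h2 : 0 ≤ (1 + ((n : ℝ) + 1) ^ 2) ^ j := by positivity
    linarith

/-- uniform integrability gives convergence with weights -/
lemma tight_wt {G : ι → E → ℝ} (j : ℕ) (hG0 : ∀ᶠ i in (U : Filter ι), ∀ x, 0 ≤ G i x)
    (hi0 : ∀ᶠ i in (U : Filter ι), Integrable (fun x => G i x * rho x) (N i))
    (hi1 : ∀ᶠ i in (U : Filter ι), Integrable (fun x => G i x * wt j x * rho x) (N i))
    (hi2 : ∀ᶠ i in (U : Filter ι), Integrable (fun x => G i x * wt (j + 1) x * rho x) (N i))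
    (h0 : Tendsto (fun i => ∫ x, G i x * rho x ∂(N i)) U (𝓝 0))
    (hB : ∃ B : ℝ, ∀ᶠ i in (U : Filter ι), ∫ x, G i x * wt (j + 1) x * rho x ∂(N i) ≤ B) :
    Tendsto (fun i => ∫ x, G i x * wt j x * rho x ∂(N i)) U (𝓝 0) := by
  obtain ⟨B, hB⟩ := hB
  refine small_of fun ε hε => ?_
  obtain ⟨n, hn⟩ := exists_nat_gt (|B| / ε)
  refine ⟨fun i => (1 + ((n : ℝ) + 1) ^ 2) ^ j * ∫ x, G i x * rho x ∂(N i), ?_, ?_⟩
  · have := h0.const_mul ((1 + ((n : ℝ) + 1) ^ 2) ^ j)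
    rwa [mul_zero] at this
  · filter_upwards [hG0, hi0, hi1, hi2, hB] with i g0 i0 i1 i2 hb
    rw [abs_of_nonneg (integral_nonneg fun x => by
      have := g0 x
      have := wt_pos j x
      have := rho_pos x
      simp only [Pi.zero_apply]
      positivity)]
    have h1 : ∫ x, G i x * wt j x * rho x ∂(N i)
        ≤ ∫ x, ((1 + ((n : ℝ) + 1) ^ 2) ^ j * (G i x * rho x)
          + 1 / ((n : ℝ) + 1) ^ 2 * (G i x * wt (j + 1) x * rho x)) ∂(N i) := by
      refine integral_mono i1 ((i0.const_mul _).add (i2.const_mul _)) fun x => ?_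
      have h2 := mul_le_mul_of_nonneg_left (wt_split n j x)
        (mul_nonneg (g0 x) (rho_pos x).le)
      calc G i x * wt j x * rho x = G i x * rho x * wt j x := by ring
        _ ≤ _ := h2
        _ = _ := by ring
    rw [integral_comb2 i0 i2] at h1
    have h2 : 1 / ((n : ℝ) + 1) ^ 2 * ∫ x, G i x * wt (j + 1) x * rho x ∂(N i) ≤ ε := by
      calc _ ≤ 1 / ((n : ℝ) + 1) ^ 2 * |B| := by
            gcongr
            exact hb.trans (le_abs_self _)
        _ ≤ ε := by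
            rw [div_mul_eq_mul_div, one_mul, div_le_iff₀ (by positivity)]
            rw [div_lt_iff₀ hε] at hn
            have : (n : ℝ) ≤ ((n : ℝ) + 1) ^ 2 := by nlinarith [(Nat.cast_nonneg n : (0 : ℝ) ≤ n)]
            nlinarith
    linarith

lemma cubic_pt {K θ s W w v P : ℝ} (hθ : 0 < θ) (hK : 0 ≤ K) (hW : |W| ≤ K) (hP0 : 0 ≤ P)
    (hP : P ≤ K) (hw : W = s * w) :
    |W| * (W ^ 2 + P ^ 2) ≤ θ * (W ^ 2 + P ^ 2)
      + K * (1 + K ^ 2 / θ ^ 2) * (s ^ 2 * (2 * (w - v) ^ 2 + 2 / θ ^ 2 * (v ^ 2 * W ^ 2))) := by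
  have h0 : 0 ≤ K * (1 + K ^ 2 / θ ^ 2) * (s ^ 2 * (2 * (w - v) ^ 2
      + 2 / θ ^ 2 * (v ^ 2 * W ^ 2))) := by positivity
  have h1 : 0 ≤ W ^ 2 + P ^ 2 := by positivity
  by_cases h : |W| < θ
  · have := mul_le_mul_of_nonneg_right h.le h1
    linarith
  · push Not at h
    have e1 : 1 ≤ W ^ 2 / θ ^ 2 := by
      rw [one_le_div (by positivity), ← sq_abs W]; gcongr
    have e2 : |W| * (W ^ 2 + P ^ 2) ≤ K * (W ^ 2 + K ^ 2) := by gcongr
    have e3 : K * (W ^ 2 + K ^ 2) ≤ K * (W ^ 2 + K ^ 2 * (W ^ 2 / θ ^ 2)) := by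
      have : K ^ 2 ≤ K ^ 2 * (W ^ 2 / θ ^ 2) := le_mul_of_one_le_right (by positivity) e1
      gcongr
    have e4 : K * (W ^ 2 + K ^ 2 * (W ^ 2 / θ ^ 2)) = K * (1 + K ^ 2 / θ ^ 2) * W ^ 2 := by
      field_simp
    have e5 : W ^ 2 ≤ s ^ 2 * (2 * (w - v) ^ 2 + 2 / θ ^ 2 * (v ^ 2 * W ^ 2)) := by
      have f1 : W ^ 2 = s ^ 2 * w ^ 2 := by rw [hw]; ring
      have f2 : w ^ 2 ≤ 2 * (w - v) ^ 2 + 2 * v ^ 2 := by nlinarith [sq_nonneg (w - 2 * v)]
      have f3 : 2 * v ^ 2 ≤ 2 / θ ^ 2 * (v ^ 2 * W ^ 2) := by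
        calc 2 * v ^ 2 ≤ 2 * v ^ 2 * (W ^ 2 / θ ^ 2) := le_mul_of_one_le_right (by positivity) e1
          _ = _ := by ring
      have f4 : w ^ 2 ≤ 2 * (w - v) ^ 2 + 2 / θ ^ 2 * (v ^ 2 * W ^ 2) := f2.trans (by linarith)
      calc W ^ 2 = s ^ 2 * w ^ 2 := f1
        _ ≤ _ := mul_le_mul_of_nonneg_left f4 (sq_nonneg s)
    have e6 : K * (1 + K ^ 2 / θ ^ 2) * W ^ 2 ≤ K * (1 + K ^ 2 / θ ^ 2)
        * (s ^ 2 * (2 * (w - v) ^ 2 + 2 / θ ^ 2 * (v ^ 2 * W ^ 2))) :=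
      mul_le_mul_of_nonneg_left e5 (by positivity)
    have e7 : 0 ≤ θ * (W ^ 2 + P ^ 2) := by positivity
    linarith

namespace BU

variable (h : BU U m N T H κ W Wi c K)
include h

/-- cubic terms are negligible -/
lemma cubic_zero (hE : Module.finrank ℝ E = m + 1) {v : E → ℝ} (hv : Continuous v) (hvb : PB v)
    (hs : Tendsto (fun i => ∫ x, (nh (N i) (Wi i) x - v x) ^ 2 * rho x ∂(N i)) U (𝓝 0)) :
    Tendsto (fun i => (∫ x, |Wi i x| * (Wi i x ^ 2 + ‖proj (T i x) (grad (Wi i) x)‖ ^ 2)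
      * rho x ∂(N i)) / DD (N i) (Wi i) 0) U (𝓝 0) := by
  have hK := h.tube.K_nonneg
  obtain ⟨M, hM, hb⟩ := h.bounds hE
  refine small_of fun ε hε => ?_
  set θ := ε / (1 + M) with hθ
  have hθ0 : 0 < θ := by positivity
  set D := K * (1 + K ^ 2 / θ ^ 2) with hD
  refine ⟨fun i => D * (2 * ∫ x, (nh (N i) (Wi i) x - v x) ^ 2 * rho x ∂(N i)
    + 2 / θ ^ 2 * ∫ x, |v x ^ 2| * Wi i x ^ 2 * rho x ∂(N i)), ?_, ?_⟩
  · have := ((hs.const_mul 2).add ((h.toBU0.w_PB (hv.pow 2) (hvb.pow 2)).const_mul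
      (2 / θ ^ 2))).const_mul D
    simpa using this
  · filter_upwards [h.conv.sl, h.tubei, h.pos, hb] with i hS hi hp hbi
    set s := √(DD (N i) (Wi i) 0) with hs'
    have hs0 : 0 < s := Real.sqrt_pos.2 hp
    have hss : DD (N i) (Wi i) 0 = s ^ 2 := (Real.sq_sqrt hp.le).symm
    have hgi := hi.pg_grad.cont
    have hPm := hS.proj_apply_meas hgi.aestronglyMeasurable
    have hwc : Continuous (fun x => nh (N i) (Wi i) x - v x) := (nh_cont hi).sub hv
    have hwb : PB (fun x => nh (N i) (Wi i) x - v x) := (nh_pb hi).sub hvb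
    have i1 := hS.int_DD hi 0
    have i2 := hS.int_TG hi 0
    have i3 : Integrable (fun x => (nh (N i) (Wi i) x - v x) ^ 2 * rho x) (N i) :=
      hS.integrable_PB (hwc.pow 2).aestronglyMeasurable (hwb.pow 2)
    have i4 : Integrable (fun x => |v x ^ 2| * Wi i x ^ 2 * rho x) (N i) :=
      hS.integrable_PB ((hv.pow 2).abs.mul (hi.cont.pow 2)).aestronglyMeasurable
        ((hvb.pow 2).norm.mul (hi.pg.b0.pow 2))
    have i5 := integral_comb2 i3 i4 (D * s ^ 2 * 2) (D * s ^ 2 * (2 / θ ^ 2))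
    have i6 : Integrable (fun x => D * s ^ 2 * 2 * ((nh (N i) (Wi i) x - v x) ^ 2 * rho x)
      + D * s ^ 2 * (2 / θ ^ 2) * (|v x ^ 2| * Wi i x ^ 2 * rho x)) (N i) :=
      (i3.const_mul _).add (i4.const_mul _)
    have i7 := integral_comb i1 i2 i6 θ θ 1
    have j0 : Integrable (fun x => |Wi i x| * (Wi i x ^ 2 + ‖proj (T i x) (grad (Wi i) x)‖ ^ 2)
      * rho x) (N i) := by
      refine hS.integrable_dom (g := fun x => ‖Wi i x‖ * (‖Wi i x‖ ^ 2 + ‖grad (Wi i) x‖ ^ 2))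
        (hi.cont.abs.aestronglyMeasurable.mul ((hi.cont.pow 2).aestronglyMeasurable.add
          (hPm.norm.pow 2))) (hi.pg.b0.norm.mul ((hi.pg.b0.norm.pow 2).add
          (hi.pg_grad.b0.norm.pow 2))) fun x => ?_
      have g1 : 0 ≤ |Wi i x| * (Wi i x ^ 2 + ‖proj (T i x) (grad (Wi i) x)‖ ^ 2) := by positivity
      have g2 : 0 ≤ ‖Wi i x‖ * (‖Wi i x‖ ^ 2 + ‖grad (Wi i) x‖ ^ 2) := by positivity
      rw [abs_of_nonneg g1, abs_of_nonneg g2]
      have := norm_proj_apply_le (T i x) (grad (Wi i) x)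
      rw [← sq_abs (Wi i x), Real.norm_eq_abs]
      gcongr
    have key : ∫ x, |Wi i x| * (Wi i x ^ 2 + ‖proj (T i x) (grad (Wi i) x)‖ ^ 2) * rho x ∂(N i)
        ≤ ∫ x, (θ * (Wi i x ^ 2 * wt 0 x * rho x)
          + θ * (wt 0 x * ‖proj (T i x) (grad (Wi i) x)‖ ^ 2 * rho x)
          + 1 * (D * s ^ 2 * 2 * ((nh (N i) (Wi i) x - v x) ^ 2 * rho x)
      + D * s ^ 2 * (2 / θ ^ 2) * (|v x ^ 2| * Wi i x ^ 2 * rho x))) ∂(N i) := by
      refine integral_mono j0 (((i1.const_mul _).add (i2.const_mul _)).add (i6.const_mul _))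
        fun x => ?_
      have e0 : Wi i x = s * nh (N i) (Wi i) x := by
        simp only [nh]; rw [← mul_assoc, ← hs', mul_inv_cancel₀ hs0.ne', one_mul]
      have e1 := cubic_pt (v := v x) hθ0 hK (hi.b0 x) (norm_nonneg _)
        ((norm_proj_apply_le (T i x) (grad (Wi i) x)).trans (hi.b1 x)) e0
      have e2 := mul_le_mul_of_nonneg_right e1 (rho_pos x).le
      refine e2.trans (le_of_eq ?_)
      rw [abs_of_nonneg (sq_nonneg (v x))]
      simp only [wt, pow_zero]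
      rw [hD]; ring
    rw [i7, i5] at key
    have e3 : ∫ x, Wi i x ^ 2 * wt 0 x * rho x ∂(N i) = DD (N i) (Wi i) 0 := rfl
    have e4 : ∫ x, wt 0 x * ‖proj (T i x) (grad (Wi i) x)‖ ^ 2 * rho x ∂(N i)
      = TG (N i) (T i) (Wi i) 0 := rfl
    rw [e3, e4] at key
    have hnn : 0 ≤ ∫ x, |Wi i x| * (Wi i x ^ 2 + ‖proj (T i x) (grad (Wi i) x)‖ ^ 2)
        * rho x ∂(N i) := integral_nonneg fun x => by
      have := rho_pos x
      simp only [Pi.zero_apply]; positivity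
    rw [abs_of_nonneg (by positivity), div_le_iff₀ hp]
    have hTG := mul_le_mul_of_nonneg_left hbi.2.1 hθ0.le
    have hθε : θ * (1 + M) = ε := by rw [hθ]; field_simp
    refine key.trans ?_
    rw [hss] at hTG ⊢
    calc _ ≤ θ * s ^ 2 + θ * (M * s ^ 2)
        + 1 * (D * s ^ 2 * 2 * ∫ x, (nh (N i) (Wi i) x - v x) ^ 2 * rho x ∂(N i)
          + D * s ^ 2 * (2 / θ ^ 2) * ∫ x, |v x ^ 2| * Wi i x ^ 2 * rho x ∂(N i)) := by
          linarith
      _ = (θ * (1 + M) + D * (2 * ∫ x, (nh (N i) (Wi i) x - v x) ^ 2 * rho x ∂(N i)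
          + 2 / θ ^ 2 * ∫ x, |v x ^ 2| * Wi i x ^ 2 * rho x ∂(N i))) * s ^ 2 := by ring
      _ = _ := by rw [hθε]

/-- **the Dirichlet energies converge** -/
theorem tg_lim (hE : Module.finrank ℝ E = m + 1) {v : E → ℝ} (hv : Continuous v) (hvb : PB v)
    (hs : Tendsto (fun i => ∫ x, (nh (N i) (Wi i) x - v x) ^ 2 * rho x ∂(N i)) U (𝓝 0)) :
    Tendsto (fun i => TG (N i) (T i) (Wi i) 0 / DD (N i) (Wi i) 0) U
      (𝓝 (∫ x, v x ^ 2 * (qq W x + 1 / 2) * rho x ∂κ)) := by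
  have hK := h.tube.K_nonneg
  set n : ℝ := (Module.finrank ℝ E : ℝ) with hn
  have hn0 : 0 ≤ n := by rw [hn]; positivity
  obtain ⟨C, hC, hst⟩ := static_cross (E := E) hE h.tube.cpos hK
  have hwt0 : ∀ x : E, wt 0 x = 1 := fun x => by simp [wt]
  have hqb : ∀ {V : E → ℝ}, TubeD V c K → ∀ x, |qq V x + 1 / 2| ≤ (n * K ^ 2 + 1) * wt 0 x := by
    intro V hV x
    rw [hwt0, mul_one]
    refine (abs_add_le _ _).trans ?_
    have h1 : |qq V x| ≤ n * K ^ 2 := hV.q_le x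
    rw [abs_of_pos (by norm_num : (0:ℝ) < 1 / 2)]
    linarith
  have t1 := h.toBU0.sq_lim hv hvb 0 (by
      refine hs.congr fun i => ?_
      congr 1; ext x; rw [hwt0, mul_one])
    (F := fun i x => qq (Wi i) x + 1 / 2) (f := fun x => qq W x + 1 / 2) (C := n * K ^ 2 + 1)
    (by positivity)
    (by filter_upwards [h.tubei] with i hi using
      ((continuous_qq hi).add continuous_const).aestronglyMeasurable)
    (by filter_upwards [h.tubei] with i hi x using hqb hi x)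
    ((continuous_qq h.tube).add continuous_const) (hqb h.tube) (by
      intro R ε hε
      filter_upwards [h.toBU0.q_loc R ε hε] with i hi x hx
      have e : qq (Wi i) x + 1 / 2 - (qq W x + 1 / 2) = qq (Wi i) x - qq W x := by ring
      rw [e]; exact hi x hx)
  have r4 := h.dz.sqrt
  rw [Real.sqrt_zero] at r4
  have t2 : Tendsto (fun i => C * ((∫ x, |Wi i x| * (Wi i x ^ 2
      + ‖proj (T i x) (grad (Wi i) x)‖ ^ 2) * rho x ∂(N i)) / DD (N i) (Wi i) 0)
      + K * √(dis (N i) (T i) (H i) / DD (N i) (Wi i) 0)) U (𝓝 0) := by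
    have := ((h.cubic_zero hE hv hvb hs).const_mul C).add (r4.const_mul K)
    simpa using this
  have t3 : Tendsto (fun i => TG (N i) (T i) (Wi i) 0 / DD (N i) (Wi i) 0
      - ∫ x, nh (N i) (Wi i) x ^ 2 * (qq (Wi i) x + 1 / 2) * rho x ∂(N i)) U (𝓝 0) := by
    refine squeeze_zero_norm' ?_ t2
    filter_upwards [h.conv.sl, h.tubei, h.pos] with i hS hi hp
    have h1 := hst (Wi i) hi (N i) (T i) (H i) hS (Wi i) hi.pg
    have e1 : ∫ x, ⟪proj (T i x) (grad (Wi i) x), grad (Wi i) x⟫ * rho x ∂(N i)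
        = TG (N i) (T i) (Wi i) 0 := by
      unfold TG; congr 1; ext x; rw [norm_proj_sq, hwt0, one_mul]
    have e2 : ∫ x, nh (N i) (Wi i) x ^ 2 * (qq (Wi i) x + 1 / 2) * rho x ∂(N i)
        = (∫ x, Wi i x * ((qq (Wi i) x + 1 / 2) * Wi i x) * rho x ∂(N i))
          / DD (N i) (Wi i) 0 := by
      rw [nh_int hp]; congr 2; ext x; ring
    have e3 : ∫ x, Wi i x ^ 2 * rho x ∂(N i) = DD (N i) (Wi i) 0 := (DD_zero_eq _ _).symm
    rw [e1, e3] at h1
    rw [e2, ← sub_div, norm_div, Real.norm_of_nonneg hp.le, Real.norm_eq_abs, div_le_iff₀ hp]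
    refine h1.trans (le_of_eq ?_)
    rw [Real.sqrt_div dis_nonneg]
    have hs0 : 0 < √(DD (N i) (Wi i) 0) := Real.sqrt_pos.2 hp
    have hss : √(DD (N i) (Wi i) 0) ^ 2 = DD (N i) (Wi i) 0 := Real.sq_sqrt hp.le
    set s := √(DD (N i) (Wi i) 0) with hs'
    rw [← hss]
    field_simp
  have t4 := t3.add t1
  rw [zero_add] at t4
  refine t4.congr fun i => ?_
  ring

end BU

/-- the projected gradient of a fixed function -/
theorem BU0.proj_lim (h : BU0 U m N T H κ W Wi c K) (hE : Module.finrank ℝ E = m + 1) {v : E → ℝ}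
    (hv : PG v) :
    Tendsto (fun i => ∫ x, ‖proj (T i x) (grad v x)‖ ^ 2 * rho x ∂(N i)) U
      (𝓝 (∫ x, (‖grad v x‖ ^ 2 - ⟪grad v x, grad W x⟫ ^ 2) * rho x ∂κ)) := by
  have hgc : Continuous (grad v) := continuous_grad hv.cd
  have hgb : PB (grad v) := hv.b1.mono fun x => by rw [norm_grad]
  have hfc : Continuous (fderiv ℝ v) := hv.cd.continuous_fderiv (by norm_num)
  have hA : Continuous (fun x => (fderiv ℝ v x).smulRight (grad v x)) :=
    ((ContinuousLinearMap.smulRightL ℝ E E).continuous.comp hfc).clm_apply hgc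
  have hAb : PB (fun x => (fderiv ℝ v x).smulRight (grad v x)) :=
    PB.of_norm_mul hv.b1 hgb fun x => (ContinuousLinearMap.norm_smulRight_apply _ _).le
  have h1 := h.tr_lim hE hA hAb
  have e1 : ∫ x, (tr ((fderiv ℝ v x).smulRight (grad v x))
      - ⟪(fderiv ℝ v x).smulRight (grad v x) (grad W x), grad W x⟫) * rho x ∂κ
      = ∫ x, (‖grad v x‖ ^ 2 - ⟪grad v x, grad W x⟫ ^ 2) * rho x ∂κ := by
    congr 1; ext x
    have e2 : tr ((fderiv ℝ v x).smulRight (grad v x)) = ‖grad v x‖ ^ 2 := by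
      have := tr_comp_smulRight (ContinuousLinearMap.id ℝ E) (fderiv ℝ v x) (grad v x)
      rw [ContinuousLinearMap.id_comp] at this
      rw [this, ← inner_grad, ContinuousLinearMap.id_apply, real_inner_self_eq_norm_sq]
    rw [e2, ContinuousLinearMap.smulRight_apply, real_inner_smul_left, ← inner_grad]
    ring
  rw [e1] at h1
  refine h1.congr fun i => ?_
  congr 1; ext x
  rw [tr_comp_smulRight, ← inner_grad, norm_proj_sq, real_inner_comm]

end Vale.Agent.P218.H923
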