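import Vale.Agent.P218.H313.Sec
import Vale.Agent.P218.H313.CayFam
import Vale.Agent.P218.H588.Q

/-! The second order data of a shrinker, in the moving frames given by the Cayley rotations. -/

open MeasureTheory Set Filter Topology Metric
open scoped ENNReal NNReal RealInnerProductSpace CompactlySupported

namespace Vale.Agent.P218.H923

open Vale.Agent.P214 (IntegralVarifold proj divAlong IsTestField)
open Vale.Agent.P218.H313
open Vale.Agent.P218.H588 (Tri nearS Phi lc SOD co rsq)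

set_option linter.unusedSectionVars false
set_option linter.unusedVariables false

variable {E : Type*} [NormedAddCommGroup E] [InnerProductSpace ℝ E] [FiniteDimensional ℝ E]
  [MeasurableSpace E] [BorelSpace E]
variable {m k l : ℕ} {κ : Measure E} {W : E → ℝ} {c K : ℝ} {q : ℕ}
  {ζ : Fin k → E → ℝ} {η : Fin l → E → ℝ}

/-- the functions `ζ` in the moving frames -/
noncomputable def cayZ (ζ : Fin k → E → ℝ) (M' : Submodule ℝ (E →L[ℝ] E)) (a : M') :
    LS k →ₗ[ℝ] (E → ℝ) where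
  toFun z := fun x => lc ζ z (cay (a : E →L[ℝ] E) x)
  map_add' := by
    intro z z'
    ext x
    simp only [lc, PiLp.add_apply, add_mul, Finset.sum_add_distrib, Pi.add_apply]
  map_smul' := by
    intro t z
    ext x
    simp only [lc, PiLp.smul_apply, smul_eq_mul, Pi.smul_apply, RingHom.id_apply, Finset.mul_sum,
      mul_assoc]

lemma cayZ_apply (M' : Submodule ℝ (E →L[ℝ] E)) (a : M') (z : LS k) (x : E) :
    cayZ ζ M' a z x = lc ζ z (cay (a : E →L[ℝ] E) x) := rfl

lemma lc_eb (i : Fin k) : lc ζ (Cubic.eb i) = ζ i := by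
  ext x
  simp [lc, Cubic.eb]

lemma cayZ_eb (M' : Submodule ℝ (E →L[ℝ] E)) (a : M') (i : Fin k) (x : E) :
    cayZ ζ M' a (Cubic.eb i) x = ζ i (cay (a : E →L[ℝ] E) x) := by
  rw [cayZ_apply, lc_eb]

/-- the cubic form is symmetric -/
lemma Phi_swap12 (hW : ContDiff ℝ 2 W) (u v z : E → ℝ) : Phi κ W u v z = Phi κ W v u z := by
  unfold Phi
  congr 1; ext x
  have h1 : ⟪fderiv ℝ (grad W) x (grad u x), grad v x⟫
      = ⟪fderiv ℝ (grad W) x (grad v x), grad u x⟫ := by
    rw [hess_symm hW, real_inner_comm]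
  have h2 : ⟪fderiv ℝ (grad W) x (grad u x), grad z x⟫
      = ⟪fderiv ℝ (grad W) x (grad z x), grad u x⟫ := by
    rw [hess_symm hW, real_inner_comm]
  have h3 : ⟪fderiv ℝ (grad W) x (grad v x), grad z x⟫
      = ⟪fderiv ℝ (grad W) x (grad z x), grad v x⟫ := by
    rw [hess_symm hW, real_inner_comm]
  rw [h1, h2, h3]; ring

lemma Phi_swap23 (hW : ContDiff ℝ 2 W) (u v z : E → ℝ) : Phi κ W u v z = Phi κ W u z v := by
  unfold Phi
  congr 1; ext x
  have h1 : ⟪fderiv ℝ (grad W) x (grad u x), grad v x⟫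
      = ⟪fderiv ℝ (grad W) x (grad v x), grad u x⟫ := by
    rw [hess_symm hW, real_inner_comm]
  have h2 : ⟪fderiv ℝ (grad W) x (grad u x), grad z x⟫
      = ⟪fderiv ℝ (grad W) x (grad z x), grad u x⟫ := by
    rw [hess_symm hW, real_inner_comm]
  have h3 : ⟪fderiv ℝ (grad W) x (grad v x), grad z x⟫
      = ⟪fderiv ℝ (grad W) x (grad z x), grad v x⟫ := by
    rw [hess_symm hW, real_inner_comm]
  rw [h1, h2, h3]; ring

section data

variable (hD : SOD m κ W c K q ζ η)
include hD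

lemma SODpg (i : Fin k) : PG (ζ i) where
  cd := (hD.cd i).of_le (by norm_num)
  b0 := PB.of_le (C := K) (p := q) fun x => by rw [Real.norm_eq_abs]; exact hD.b0 i x
  b1 := PB.of_le (C := K) (p := q) fun x => by rw [← norm_grad]; exact hD.b1 i x

lemma lc_cd (z : LS k) : ContDiff ℝ 3 (lc ζ z) := by
  unfold lc
  exact ContDiff.sum fun i _ => contDiff_const.mul (hD.cd i)

lemma grad_lc (z : LS k) (x : E) : grad (lc ζ z) x = ∑ i, z i • grad (ζ i) x := by
  refine grad_unique fun v => ?_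
  have h1 : HasFDerivAt (lc ζ z) (∑ i, z i • fderiv ℝ (ζ i) x) x := by
    have h2 : ∀ i ∈ (Finset.univ : Finset (Fin k)),
        HasFDerivAt (fun y => z i * ζ i y) (z i • fderiv ℝ (ζ i) x) x := fun i _ =>
      ((SODpg hD i).diff x).hasFDerivAt.const_mul (z i)
    exact HasFDerivAt.fun_sum h2
  rw [h1.fderiv, sum_inner]
  simp only [real_inner_smul_left, inner_grad, _root_.sum_apply]
  rfl

lemma abs_coord_le (z : LS k) (i : Fin k) : |z i| ≤ ‖z‖ := by
  have := PiLp.norm_apply_le z i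
  rwa [Real.norm_eq_abs] at this

lemma lc_b0 (z : LS k) (x : E) : |lc ζ z x| ≤ k * K * (1 + ‖x‖) ^ q * ‖z‖ := by
  unfold lc
  refine (Finset.abs_sum_le_sum_abs _ _).trans ?_
  have : ∀ i ∈ (Finset.univ : Finset (Fin k)), |z i * ζ i x| ≤ ‖z‖ * (K * (1 + ‖x‖) ^ q) := by
    intro i _
    rw [abs_mul]
    have := abs_coord_le hD z i
    have := hD.b0 i x
    gcongr
  refine (Finset.sum_le_sum this).trans (le_of_eq ?_)
  simp
  ring

lemma lc_b1 (z : LS k) (x : E) : ‖grad (lc ζ z) x‖ ≤ k * K * (1 + ‖x‖) ^ q * ‖z‖ := by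
  rw [grad_lc hD]
  refine (norm_sum_le _ _).trans ?_
  have : ∀ i ∈ (Finset.univ : Finset (Fin k)), ‖z i • grad (ζ i) x‖
      ≤ ‖z‖ * (K * (1 + ‖x‖) ^ q) := by
    intro i _
    rw [norm_smul, Real.norm_eq_abs]
    have := abs_coord_le hD z i
    have := hD.b1 i x
    gcongr
  refine (Finset.sum_le_sum this).trans (le_of_eq ?_)
  simp
  ring

/-- Lipschitz estimate on balls -/
lemma lc_lip (z : LS k) {x y : E} {R : ℝ} (hx : ‖x‖ ≤ R) (hy : ‖y‖ ≤ R) :
    |lc ζ z x - lc ζ z y| ≤ k * K * (1 + R) ^ q * ‖z‖ * ‖x - y‖ := by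
  have hK := hD.tube.K_nonneg
  have hR : 0 ≤ R := (norm_nonneg x).trans hx
  have hd : ∀ w ∈ closedBall (0 : E) R, DifferentiableAt ℝ (lc ζ z) w := fun w _ =>
    (lc_cd hD z).differentiable (by norm_num) w
  have hb : ∀ w ∈ closedBall (0 : E) R, ‖fderiv ℝ (lc ζ z) w‖ ≤ k * K * (1 + R) ^ q * ‖z‖ := by
    intro w hw
    have hw' : ‖w‖ ≤ R := by simpa using hw
    rw [← norm_grad]
    refine (lc_b1 hD z w).trans ?_
    gcongr
  have h1 := (convex_closedBall (0 : E) R).norm_image_sub_le_of_norm_fderiv_le hd hb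
    (by simpa using hy) (by simpa using hx)
  rwa [Real.norm_eq_abs] at h1

end data

/-- gradient of a composition with a Cayley rotation -/
lemma norm_grad_cay {a : E →L[ℝ] E} (ha : a ∈ skew E) {f : E → ℝ} (x : E)
    (hf : DifferentiableAt ℝ f (cay a x)) :
    ‖grad (fun y => f (cay a y)) x‖ ≤ ‖grad f (cay a x)‖ := by
  rw [norm_grad, norm_grad]
  have h1 : HasFDerivAt (fun y => f (cay a y)) ((fderiv ℝ f (cay a x)).comp (cay a)) x :=
    hf.hasFDerivAt.comp x (cay a).hasFDerivAt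
  rw [h1.fderiv]
  refine (ContinuousLinearMap.opNorm_comp_le _ _).trans ?_
  have h2 : ‖cay a‖ ≤ 1 := ContinuousLinearMap.opNorm_le_bound _ zero_le_one fun v => by
    rw [norm_cay ha, one_mul]
  exact mul_le_of_le_one_right (norm_nonneg _) h2

/-- **the second order data in the moving frames** -/
theorem sec_of_sod {M' : Submodule ℝ (E →L[ℝ] E)} (hM' : M' ≤ skew E)
    (hD : SOD m κ W c K q ζ η) (hmom : ∀ p : ℕ, Integrable (fun x => (1 + ‖x‖) ^ p * rho x) κ)
    {V' : M' → M' →ₗ[ℝ] (E → ℝ)} (b : Module.Basis (Fin l) ℝ M')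
    (hη : ∀ j x, η j x = V' 0 (b j) x)
    {Q : LS k →ₗ[ℝ] LS k →ₗ[ℝ] LS k →ₗ[ℝ] ℝ}
    (hQ : ∀ x y z, Q x y z = Phi κ W (lc ζ x) (lc ζ y) (lc ζ z)) (r : ℝ) :
    Sec k V' (cayZ ζ M') Q κ r (2 * (k * K)) (q + 1) := by
  have hK := hD.tube.K_nonneg
  have hkK : (0:ℝ) ≤ k * K := by positivity
  have hcd : ∀ (a : M') (z : LS k), ContDiff ℝ 1 (cayZ ζ M' a z) := fun a z =>
    ((lc_cd hD z).of_le (by norm_num)).comp (cay (a : E →L[ℝ] E)).contDiff
  have hone : ∀ x : E, (1:ℝ) ≤ 1 + ‖x‖ := fun x => by have := norm_nonneg x; linarith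
  have hpow : ∀ x : E, (1 + ‖x‖) ^ q ≤ (1 + ‖x‖) ^ (q + 1) := fun x =>
    pow_le_pow_right₀ (hone x) (Nat.le_succ q)
  refine
    { sm := fun a ha z => hcd a z
      b0 := fun a ha z x => ?_
      b1 := fun a ha z x => ?_
      lip := fun a a' ha ha' z x => ?_
      orth := fun v z => ?_
      symm₁ := fun x y z => ?_
      symm₂ := fun x y z => ?_
      nondeg := fun x hx => ?_ }
  · rw [cayZ_apply]
    have h1 := lc_b0 hD z (cay (a : E →L[ℝ] E) x)
    rw [norm_cay (hM' a.2)] at h1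
    refine h1.trans ?_
    have h2 := hpow x
    have h3 : (k : ℝ) * K ≤ 2 * (k * K) := by linarith
    gcongr
  · have h1 := norm_grad_cay (hM' a.2) (f := lc ζ z) x
      ((lc_cd hD z).differentiable (by norm_num) _)
    have h2 := lc_b1 hD z (cay (a : E →L[ℝ] E) x)
    rw [norm_cay (hM' a.2)] at h2
    refine (h1.trans h2).trans ?_
    have h2 := hpow x
    have h3 : (k : ℝ) * K ≤ 2 * (k * K) := by linarith
    gcongr
  · rw [cayZ_apply, cayZ_apply]
    have h1 := lc_lip hD z (x := cay (a : E →L[ℝ] E) x) (y := cay (a' : E →L[ℝ] E) x)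
      (R := ‖x‖) (by rw [norm_cay (hM' a.2)]) (by rw [norm_cay (hM' a'.2)])
    have h2 := norm_cay_sub_le (hM' a.2) (hM' a'.2) x
    have h3 : ‖a - a'‖ = ‖(a : E →L[ℝ] E) - (a' : E →L[ℝ] E)‖ := rfl
    rw [← h3] at h2
    refine h1.trans ?_
    calc k * K * (1 + ‖x‖) ^ q * ‖z‖ * ‖cay (a : E →L[ℝ] E) x - cay (a' : E →L[ℝ] E) x‖
        ≤ k * K * (1 + ‖x‖) ^ q * ‖z‖ * (2 * ‖a - a'‖ * ‖x‖) := by gcongr
      _ = 2 * (k * K) * ((1 + ‖x‖) ^ q * ‖x‖) * ‖a - a'‖ * ‖z‖ := by ring
      _ ≤ 2 * (k * K) * ((1 + ‖x‖) ^ q * (1 + ‖x‖)) * ‖a - a'‖ * ‖z‖ := by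
          have : ‖x‖ ≤ 1 + ‖x‖ := by linarith
          gcongr
      _ = _ := by rw [pow_succ]
  · -- orthogonality
    have e : ∀ x, V' 0 v x * cayZ ζ M' 0 z x * rho x
        = ∑ j, ∑ i, (b.repr v j * z i) * (ζ i x * η j x * rho x) := by
      intro x
      have e1 : V' 0 v x = ∑ j, b.repr v j * η j x := by
        conv_lhs => rw [← b.sum_repr v]
        simp only [map_sum, map_smul, Finset.sum_apply, Pi.smul_apply, smul_eq_mul, hη]
      have e2 : cayZ ζ M' 0 z x = ∑ i, z i * ζ i x := by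
        rw [cayZ_apply]
        have : cay (((0 : M') : E →L[ℝ] E)) x = x := by simp [cay_zero]
        rw [this]; rfl
      rw [e1, e2, Finset.sum_mul_sum, Finset.sum_mul]
      refine Finset.sum_congr rfl fun j _ => ?_
      rw [Finset.sum_mul]
      refine Finset.sum_congr rfl fun i _ => ?_
      ring
    have hint : ∀ i j, Integrable (fun x => ζ i x * η j x * rho x) κ := by
      intro i j
      refine ((hmom (q + 1)).const_mul (K * K)).mono'
        (((hD.cd i).continuous.mul (hD.ηcd j).continuous).mul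
          continuous_rho).measurable.aestronglyMeasurable (Eventually.of_forall fun x => ?_)
      rw [norm_mul, norm_mul, Real.norm_of_nonneg (rho_pos x).le, Real.norm_eq_abs,
        Real.norm_eq_abs]
      have h1 := hD.b0 i x
      have h2 := hD.η0 j x
      have h3 := (rho_pos x).le
      calc |ζ i x| * |η j x| * rho x ≤ (K * (1 + ‖x‖) ^ q) * (K * (1 + ‖x‖)) * rho x := by
            gcongr
        _ = _ := by ring
    simp_rw [e]
    rw [integral_finsetSum]
    · refine Finset.sum_eq_zero fun j _ => ?_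
      rw [integral_finsetSum]
      · refine Finset.sum_eq_zero fun i _ => ?_
        rw [integral_const_mul, hD.orth i j, mul_zero]
      · intro i _
        exact (hint i j).const_mul _
    · intro j _
      exact integrable_finsetSum _ fun i _ => (hint i j).const_mul _
  · rw [hQ, hQ]; exact Phi_swap12 hD.tube.smooth _ _ _
  · rw [hQ, hQ]; exact Phi_swap23 hD.tube.smooth _ _ _
  · refine hD.nd x fun i => ?_
    have := hx (Cubic.eb i)
    rwa [hQ, lc_eb] at this

end Vale.Agent.P218.H923
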