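import Vale.Agent.P218.H923.InstA
import Vale.Agent.P218.H313.SecStep
import Vale.Agent.P218.H969.Rot2

/-! The static estimates of a second order nondegenerate shrinker, in the moving frames. -/

open MeasureTheory Set Filter Topology Metric
open scoped ENNReal NNReal RealInnerProductSpace CompactlySupported

namespace Vale.Agent.P218.H923

open Vale.Agent.P214 (IntegralVarifold proj divAlong IsTestField)
open Vale.Agent.P218.H313
open Vale.Agent.P218.H588 (Tri nearS Phi lc SOD co rsq)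
open Vale.Agent.P218.H969 (rotTri cayE rotTri_DD rotTri_TG rotTri_dis rotTri_EE rotTri_co rotTri_rsq
  tendsto_rot_nearS pull)

set_option linter.unusedSectionVars false
set_option linter.unusedVariables false

variable {E : Type*} [NormedAddCommGroup E] [InnerProductSpace ℝ E] [FiniteDimensional ℝ E]
  [MeasurableSpace E] [BorelSpace E]
variable {m k l : ℕ} {κ : Measure E} {W : E → ℝ} {c K : ℝ} {q : ℕ}
  {ζ : Fin k → E → ℝ} {η : Fin l → E → ℝ}

lemma TG_mono {μ : Measure E} {T : E → Submodule ℝ E} {H : E → E} (hS : GSlice m μ T H)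
    (hW : TubeD W c K) {i j : ℕ} (hij : i ≤ j) : TG μ T W i ≤ TG μ T W j := by
  refine integral_mono (hS.int_TG hW i) (hS.int_TG hW j) fun x => ?_
  have h1 : wt i x ≤ wt j x := by
    unfold wt
    exact pow_le_pow_right₀ (by nlinarith [norm_nonneg x]) hij
  have h2 := rho_pos x
  have h3 : 0 ≤ ‖proj (T x) (grad W x)‖ ^ 2 * rho x := by positivity
  simp only
  nlinarith

section

variable {M' : Submodule ℝ (E →L[ℝ] E)} {V' : M' → M' →ₗ[ℝ] (E → ℝ)} {r K₁ : ℝ} {q₁ : ℕ}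

lemma co_eq_al (μ : Measure E) (a : M') :
    co (fun x => W (cay (a : E →L[ℝ] E) x)) (fun i x => ζ i (cay (a : E →L[ℝ] E) x)) μ
      = al μ (fun (a : M') x => W (cay (a : E →L[ℝ] E) x)) (cayZ ζ M') a := by
  unfold co al
  congr 1; ext i
  simp only [cayZ_eb]

/-- the coordinates along the rotations, in the moving frames -/
lemma exists_rsq (hM' : M' ≤ skew E) (hD : SOD m κ W c K q ζ η)
    (hF : Fam m (fun (a : M') x => W (cay (a : E →L[ℝ] E) x)) V' r c K₁ q₁)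
    (b : Module.Basis (Fin l) ℝ M') (hη : ∀ j x, η j x = V' 0 (b j) x) {M : ℝ} (hM0 : 0 ≤ M) :
    ∃ C : ℝ, 0 ≤ C ∧ ∀ (μ : Measure E) (T : E → Submodule ℝ E) (H : E → E), GSlice m μ T H →
      ∫ x, (1 + ‖x‖) ^ (2 * (q₁ + 2)) * rho x ∂μ ≤ M → ∀ a : M', ‖a‖ ≤ r → ∀ g : ℝ, 0 ≤ g →
      (∀ b, |GF μ (fun (a : M') x => W (cay (a : E →L[ℝ] E) x)) V' a b| ≤ g * ‖b‖) →
      rsq (fun x => W (cay (a : E →L[ℝ] E) x)) (fun j x => η j (cay (a : E →L[ℝ] E) x)) μ
        ≤ C * (g ^ 2 + ‖a‖ ^ 2 * DD μ (fun x => W (cay (a : E →L[ℝ] E) x)) 0) := by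
  have hK := hD.tube.K_nonneg
  have hK₁ := hF.Knn
  set B : ℝ := ∑ j, ‖b j‖ with hB
  have hB0 : 0 ≤ B := Finset.sum_nonneg fun j _ => norm_nonneg _
  have hBj : ∀ j, ‖b j‖ ≤ B := fun j =>
    Finset.single_le_sum (f := fun j => ‖b j‖) (fun j _ => norm_nonneg _) (Finset.mem_univ j)
  set A : ℝ := 2 * K + K₁ * B with hA
  have hA0 : 0 ≤ A := by positivity
  refine ⟨l * (2 * B ^ 2 + 2 * (A ^ 2 * M)), by positivity, ?_⟩
  intro μ T H hS hM a ha g hg hGF
  have hT := hF.tube a ha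
  have h0 : ‖(0 : M')‖ ≤ r := hF.zero_le
  have hsk := hM' a.2
  have hone : ∀ x : E, (1:ℝ) ≤ 1 + ‖x‖ := fun x => by have := norm_nonneg x; linarith
  set D := DD μ (fun x => W (cay (a : E →L[ℝ] E) x)) 0 with hDd
  have hD0 : 0 ≤ D := DD_nonneg 0
  have hj : ∀ j, (∫ x, W (cay (a : E →L[ℝ] E) x) * η j (cay (a : E →L[ℝ] E) x) * rho x ∂μ) ^ 2
      ≤ (2 * B ^ 2 + 2 * (A ^ 2 * M)) * (g ^ 2 + ‖a‖ ^ 2 * D) := by
    intro j
    -- the difference
    have hηc : Continuous (fun x => η j (cay (a : E →L[ℝ] E) x)) :=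
      (hD.ηcd j).continuous.comp (cay (a : E →L[ℝ] E)).continuous
    have hVc : Continuous (V' a (b j)) := (hF.dsm a ha (b j)).continuous
    have hdiff : ∀ x, |η j (cay (a : E →L[ℝ] E) x) - V' a (b j) x|
        ≤ (A * ‖a‖) * (1 + ‖x‖) ^ (q₁ + 2) := by
      intro x
      have e1 : |η j (cay (a : E →L[ℝ] E) x) - η j x| ≤ K * (1 + ‖x‖) * (2 * ‖a‖ * ‖x‖) := by
        have hd : ∀ w ∈ closedBall (0 : E) ‖x‖, DifferentiableAt ℝ (η j) w := fun w _ =>
          (hD.ηcd j).differentiable (by norm_num) w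
        have hb : ∀ w ∈ closedBall (0 : E) ‖x‖, ‖fderiv ℝ (η j) w‖ ≤ K * (1 + ‖x‖) := by
          intro w hw
          have hw' : ‖w‖ ≤ ‖x‖ := by simpa using hw
          rw [← norm_grad]
          refine (hD.η1 j w).trans ?_
          gcongr
        have h1 := (convex_closedBall (0 : E) ‖x‖).norm_image_sub_le_of_norm_fderiv_le hd hb
          (y := cay (a : E →L[ℝ] E) x) (x := x) (by simp) (by simp [norm_cay hsk])
        rw [Real.norm_eq_abs] at h1
        refine h1.trans ?_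
        have h2 := norm_cay_sub_le hsk (skew E).zero_mem x
        rw [cay_zero, sub_zero] at h2
        have h3 : ‖a‖ = ‖(a : E →L[ℝ] E)‖ := rfl
        rw [← h3] at h2
        have h4 : ‖cay (a : E →L[ℝ] E) x - x‖ ≤ 2 * ‖a‖ * ‖x‖ := h2
        gcongr
      have e2 : |η j x - V' a (b j) x| ≤ K₁ * (1 + ‖x‖) ^ q₁ * ‖a‖ * ‖b j‖ := by
        rw [hη, abs_sub_comm]
        have := hF.dlip a 0 ha h0 (b j) x
        rwa [sub_zero] at this
      have e3 : |η j (cay (a : E →L[ℝ] E) x) - V' a (b j) x|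
          ≤ |η j (cay (a : E →L[ℝ] E) x) - η j x| + |η j x - V' a (b j) x| := by
        have := abs_add_le (η j (cay (a : E →L[ℝ] E) x) - η j x) (η j x - V' a (b j) x)
        rwa [sub_add_sub_cancel] at this
      refine e3.trans ?_
      have f1 : K * (1 + ‖x‖) * (2 * ‖a‖ * ‖x‖) ≤ 2 * K * ‖a‖ * (1 + ‖x‖) ^ (q₁ + 2) := by
        have g1 : (1 + ‖x‖) * ‖x‖ ≤ (1 + ‖x‖) ^ (q₁ + 2) := by
          have g2 : (1 + ‖x‖) * ‖x‖ ≤ (1 + ‖x‖) ^ 2 := by nlinarith [norm_nonneg x]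
          exact g2.trans (pow_le_pow_right₀ (hone x) (by omega))
        calc K * (1 + ‖x‖) * (2 * ‖a‖ * ‖x‖) = 2 * K * ‖a‖ * ((1 + ‖x‖) * ‖x‖) := by ring
          _ ≤ _ := by gcongr
      have f2 : K₁ * (1 + ‖x‖) ^ q₁ * ‖a‖ * ‖b j‖ ≤ K₁ * B * ‖a‖ * (1 + ‖x‖) ^ (q₁ + 2) := by
        have g1 : (1 + ‖x‖) ^ q₁ ≤ (1 + ‖x‖) ^ (q₁ + 2) :=
          pow_le_pow_right₀ (hone x) (by omega)
        have g2 := hBj j
        calc K₁ * (1 + ‖x‖) ^ q₁ * ‖a‖ * ‖b j‖ ≤ K₁ * (1 + ‖x‖) ^ (q₁ + 2) * ‖a‖ * B := by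
              gcongr
          _ = _ := by ring
      calc _ ≤ 2 * K * ‖a‖ * (1 + ‖x‖) ^ (q₁ + 2) + K₁ * B * ‖a‖ * (1 + ‖x‖) ^ (q₁ + 2) := by
            linarith
        _ = _ := by rw [hA]; ring
    have h1 := abs_int_mul_le hS hT (f := fun x => η j (cay (a : E →L[ℝ] E) x) - V' a (b j) x)
      (hηc.sub hVc).aestronglyMeasurable (by positivity : 0 ≤ A * ‖a‖) hdiff hM
    -- splitting
    have i1 : Integrable (fun x => W (cay (a : E →L[ℝ] E) x) * V' a (b j) x * rho x) μ :=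
      hS.integrable_PB (hT.cont.mul hVc).aestronglyMeasurable
        (hT.pg.b0.mul (PB.of_le (C := K₁ * ‖b j‖) (p := 1) fun x => by
          rw [Real.norm_eq_abs]
          refine (hF.db0 a ha (b j) x).trans (le_of_eq (by ring))))
    have hdb : PB (fun x => η j (cay (a : E →L[ℝ] E) x) - V' a (b j) x) :=
      PB.of_le (C := A * ‖a‖) (p := q₁ + 2) fun x => by rw [Real.norm_eq_abs]; exact hdiff x
    have i2 : Integrable (fun x => W (cay (a : E →L[ℝ] E) x)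
        * (η j (cay (a : E →L[ℝ] E) x) - V' a (b j) x) * rho x) μ :=
      hS.integrable_PB (hT.cont.mul (hηc.sub hVc)).aestronglyMeasurable (hT.pg.b0.mul hdb)
    have e4 : ∫ x, W (cay (a : E →L[ℝ] E) x) * η j (cay (a : E →L[ℝ] E) x) * rho x ∂μ
        = GF μ (fun (a : M') x => W (cay (a : E →L[ℝ] E) x)) V' a (b j)
          + ∫ x, W (cay (a : E →L[ℝ] E) x)
            * (η j (cay (a : E →L[ℝ] E) x) - V' a (b j) x) * rho x ∂μ := by
      unfold GF
      rw [← integral_add i1 i2]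
      congr 1; ext x; ring
    rw [e4]
    have h2 := hGF (b j)
    have h3 : |GF μ (fun (a : M') x => W (cay (a : E →L[ℝ] E) x)) V' a (b j)| ≤ g * B :=
      h2.trans (mul_le_mul_of_nonneg_left (hBj j) hg)
    set X := GF μ (fun (a : M') x => W (cay (a : E →L[ℝ] E) x)) V' a (b j)
    set Y := ∫ x, W (cay (a : E →L[ℝ] E) x)
            * (η j (cay (a : E →L[ℝ] E) x) - V' a (b j) x) * rho x ∂μ
    have hX2 : X ^ 2 ≤ g ^ 2 * B ^ 2 := by
      rw [← sq_abs, ← mul_pow]; gcongr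
    have hY2 : Y ^ 2 ≤ A ^ 2 * M * (‖a‖ ^ 2 * D) := by
      have h4 : |Y| ^ 2 ≤ (A * ‖a‖ * √M * √D) ^ 2 := by
        have h5 : |Y| ≤ A * ‖a‖ * √M * √D := h1
        gcongr
      rw [sq_abs] at h4
      refine h4.trans (le_of_eq ?_)
      rw [mul_pow, mul_pow, mul_pow, Real.sq_sqrt hM0, Real.sq_sqrt hD0]; ring
    have h5 : (X + Y) ^ 2 ≤ 2 * X ^ 2 + 2 * Y ^ 2 := by nlinarith [sq_nonneg (X - Y)]
    have h6 : 0 ≤ ‖a‖ ^ 2 * D := by positivity
    have h7 : 0 ≤ B ^ 2 * (‖a‖ ^ 2 * D) := by positivity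
    have h8 : 0 ≤ A ^ 2 * M * g ^ 2 := by positivity
    nlinarith
  unfold rsq
  refine (Finset.sum_le_sum fun j _ => hj j).trans (le_of_eq ?_)
  simp
  ring

end

end Vale.Agent.P218.H923
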